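import Vale.Agent.P296.Poly

/-! Modules of sections of symmetric powers over an affine chart of the second factor. -/

namespace Vale.Agent.P296

open Polynomial

variable {K : Type*} [CommRing K] [Algebra ℂ K] {A : Type*} [CommRing A]

/-- Polynomials of degree at most `a` with coefficients in `K'`. -/
def Bd (K' : Subalgebra ℂ K) (a : ℕ) (f : K[X]) : Prop :=
  f.natDegree ≤ a ∧ ∀ i, f.coeff i ∈ K'

namespace Bd

variable {K' : Subalgebra ℂ K} {a b : ℕ} {f g : K[X]}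

theorem zero : Bd K' a 0 := ⟨by simp, fun i => by simp⟩

theorem add (hf : Bd K' a f) (hg : Bd K' a g) : Bd K' a (f + g) :=
  ⟨natDegree_add_le_of_degree_le hf.1 hg.1, fun i => by
    rw [coeff_add]; exact K'.add_mem (hf.2 i) (hg.2 i)⟩

theorem neg (hf : Bd K' a f) : Bd K' a (-f) :=
  ⟨by simpa using hf.1, fun i => by rw [coeff_neg]; exact K'.neg_mem (hf.2 i)⟩

theorem mul (hf : Bd K' a f) (hg : Bd K' b g) : Bd K' (a + b) (f * g) :=
  ⟨natDegree_mul_le_of_le hf.1 hg.1, fun i => by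
    rw [coeff_mul]; exact K'.sum_mem fun c _ => K'.mul_mem (hf.2 _) (hg.2 _)⟩

theorem mono (hf : Bd K' a f) (h : a ≤ b) : Bd K' b f := ⟨hf.1.trans h, hf.2⟩

theorem top (hf : Bd K' a f) : Bd ⊤ a f := ⟨hf.1, fun _ => trivial⟩

theorem const {k : K} (hk : k ∈ K') : Bd K' 0 (C k) :=
  ⟨by simp, fun i => by rw [coeff_C]; split_ifs; exacts [hk, K'.zero_mem]⟩

theorem one : Bd K' 0 1 := const K'.one_mem

theorem var : Bd K' 1 X :=
  ⟨natDegree_X_le, fun i => by rw [coeff_X]; split_ifs; exacts [K'.one_mem, K'.zero_mem]⟩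

theorem pow (hf : Bd K' a f) (n : ℕ) : Bd K' (n * a) (f ^ n) := by
  induction n with
  | zero => simpa using one
  | succ n ih => rw [pow_succ, add_mul, one_mul]; exact ih.mul hf

theorem split0 (hf : Bd K' 0 f) : ∃ k ∈ K', f = C k :=
  ⟨f.coeff 0, hf.2 0, eq_C_of_natDegree_le_zero hf.1⟩

theorem split1 (hf : Bd K' (a + 1) f) : ∃ k ∈ K', ∃ g, Bd K' a g ∧ f = C k + X * g := by
  refine ⟨f.coeff 0, hf.2 0, f.divX, ⟨?_, fun i => ?_⟩, ?_⟩
  · rw [natDegree_divX_eq_natDegree_tsub_one]; have := hf.1; omega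
  · rw [coeff_divX]; exact hf.2 _
  · rw [add_comm, X_mul_divX_add]

theorem splitk (k : ℕ) (hf : Bd K' (a + k + 1) f) :
    ∃ g0 g1, Bd K' k g0 ∧ Bd K' a g1 ∧ f = g0 + X ^ (k + 1) * g1 := by
  induction k generalizing f with
  | zero =>
    obtain ⟨c, hc, g, hg, rfl⟩ := hf.split1
    exact ⟨C c, g, const hc, hg, by simp⟩
  | succ k ih =>
    obtain ⟨c, hc, g, hg, rfl⟩ := hf.split1
    obtain ⟨g0, g1, h0, h1, rfl⟩ := ih hg
    refine ⟨C c + X * g0, g1, ((const hc).mono (by omega)).add ((var.mul h0).mono (by omega)),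
      h1, by ring⟩

theorem h1_mem {y0 y1 : K} (h0 : y0 ∈ K') (h1' : y1 ∈ K') (l : List ℤ) : h1 y0 y1 l ∈ K' := by
  induction l with
  | nil => exact K'.zero_mem
  | cons c l ih =>
    exact K'.add_mem (K'.mul_mem (K'.intCast_mem c) (K'.pow_mem h0 _)) (K'.mul_mem h1' ih)

theorem h2_bd {y0 y1 : K} (h0 : y0 ∈ K') (h1' : y1 ∈ K') (t : List (List ℤ)) (a : ℕ)
    (ht : t.length = a + 1) : Bd K' a (h2 1 X (C y0) (C y1) t) := by
  induction t generalizing a with
  | nil => simp at ht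
  | cons r l ih =>
    have ha : l.length = a := by simpa using ht
    have hr : Bd K' 0 (h1 (C y0) (C y1) r) := by
      rw [← map_h1]; exact const (h1_mem h0 h1' r)
    cases a with
    | zero =>
      have : l = [] := List.length_eq_zero_iff.mp ha
      subst this; simpa [h2] using hr
    | succ a =>
      simp only [h2, one_pow, mul_one]
      exact (hr.mono (by omega)).add ((var.mul (ih a ha)).mono (by omega))

theorem ev (P : BP a b) {y0 y1 : K} (h0 : y0 ∈ K') (h1' : y1 ∈ K') :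
    Bd K' a (P.ev ![1, X] ![C y0, C y1]) := by
  have hc : ∀ c : ℂ, Bd K' 0 (algebraMap ℂ K[X] c) := fun c => const (K'.algebraMap_mem c)
  have e1 := h2_bd h0 h1' P.ta a P.wf.1.1
  have e2 := h2_bd h0 h1' P.tb a P.wf.2.1
  have := ((hc (1 / 2)).pow P.n).mul (e1.add (((hc qq).mul e2).mono (by omega)))
  simpa [BP.ev] using this

end Bd

/-- Homogeneous polynomials of degree `j` in `u, w`, where the coefficient of `u ^ i` has degree
at most `a + 3 i`. -/
def NN (K' : Subalgebra ℂ K) (ι : K[X] →+* A) (u w : A) : ℕ → ℕ → A → Prop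
  | 0, a, F => ∃ f, Bd K' a f ∧ F = ι f
  | j + 1, a, F => ∃ f F', Bd K' a f ∧ NN K' ι u w j (a + 3) F' ∧ F = ι f * w ^ (j + 1) + u * F'

namespace NN

variable {K' : Subalgebra ℂ K} {ι : K[X] →+* A} {u w : A} {j a d : ℕ} {F G : A}

theorem zero : NN K' ι u w j a 0 := by
  induction j generalizing a with
  | zero => exact ⟨0, Bd.zero, by simp⟩
  | succ j ih => exact ⟨0, 0, Bd.zero, ih, by simp⟩

theorem add (hF : NN K' ι u w j a F) (hG : NN K' ι u w j a G) : NN K' ι u w j a (F + G) := by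
  induction j generalizing a F G with
  | zero =>
    obtain ⟨f, hf, rfl⟩ := hF
    obtain ⟨g, hg, rfl⟩ := hG
    exact ⟨f + g, hf.add hg, by simp⟩
  | succ j ih =>
    obtain ⟨f, F', hf, hF', rfl⟩ := hF
    obtain ⟨g, G', hg, hG', rfl⟩ := hG
    exact ⟨f + g, F' + G', hf.add hg, ih hF' hG', by rw [map_add]; ring⟩

theorem smul {g : K[X]} (hg : Bd K' d g) (hF : NN K' ι u w j a F) :
    NN K' ι u w j (d + a) (ι g * F) := by
  induction j generalizing a F with
  | zero =>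
    obtain ⟨f, hf, rfl⟩ := hF
    exact ⟨g * f, hg.mul hf, by simp⟩
  | succ j ih =>
    obtain ⟨f, F', hf, hF', rfl⟩ := hF
    exact ⟨g * f, ι g * F', hg.mul hf, ih hF', by rw [map_mul]; ring⟩

theorem neg (hF : NN K' ι u w j a F) : NN K' ι u w j a (-F) := by
  simpa using smul Bd.one.neg hF

theorem sub (hF : NN K' ι u w j a F) (hG : NN K' ι u w j a G) : NN K' ι u w j a (F - G) := by
  rw [sub_eq_add_neg]; exact hF.add hG.neg

theorem mul_u (hF : NN K' ι u w j (a + 3) F) : NN K' ι u w (j + 1) a (u * F) :=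
  ⟨0, F, Bd.zero, hF, by simp⟩

theorem base {f : K[X]} (hf : Bd K' a f) : NN K' ι u w j a (ι f * w ^ j) := by
  cases j with
  | zero => exact ⟨f, hf, by simp⟩
  | succ j => exact ⟨f, 0, hf, zero, by simp⟩

theorem mul_w (hF : NN K' ι u w j a F) : NN K' ι u w (j + 1) a (w * F) := by
  induction j generalizing a F with
  | zero =>
    obtain ⟨f, hf, rfl⟩ := hF
    exact ⟨f, 0, hf, zero, by ring⟩
  | succ j ih =>
    obtain ⟨f, F', hf, hF', rfl⟩ := hF
    exact ⟨f, w * F', hf, ih hF', by ring⟩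

theorem top (hF : NN K' ι u w j a F) : NN ⊤ ι u w j a F := by
  induction j generalizing a F with
  | zero =>
    obtain ⟨f, hf, rfl⟩ := hF
    exact ⟨f, hf.top, rfl⟩
  | succ j ih =>
    obtain ⟨f, F', hf, hF', rfl⟩ := hF
    exact ⟨f, F', hf.top, ih hF', rfl⟩

section Frame

variable {c1 c2 : K} {g : K[X]} (hg : Bd ⊤ 3 g)

include hg in
theorem mul_w' (hF : NN ⊤ ι u w j a F) :
    NN ⊤ ι u w (j + 1) a ((ι (C c2) * w + ι g * u) * F) := by
  have h1 := (smul (Bd.const (K' := ⊤) (k := c2) trivial) hF).mul_w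
  have h2 := smul hg hF
  rw [add_comm] at h2
  rw [zero_add] at h1
  convert h1.add h2.mul_u using 1
  ring

include hg in
theorem pow_w' (j : ℕ) : ∃ G, NN ⊤ ι u w j 3 G ∧
    (ι (C c2) * w + ι g * u) ^ (j + 1) = ι (C c2) ^ (j + 1) * w ^ (j + 1) + u * G := by
  induction j with
  | zero => exact ⟨ι g, ⟨g, hg, rfl⟩, by ring⟩
  | succ j ih =>
    obtain ⟨G, hG, h⟩ := ih
    have h1 : Bd ⊤ 3 (C c2 ^ (j + 1) * g) := by
      simpa using ((Bd.const (K' := ⊤) (k := c2) trivial).pow (j + 1)).mul hg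
    refine ⟨_, (base (j := j + 1) h1).add (mul_w' (c2 := c2) hg hG), ?_⟩
    rw [pow_succ _ (j + 1), h, map_mul, map_pow]; ring

include hg in
theorem frame (hF : NN K' ι (ι (C c1) * u) (ι (C c2) * w + ι g * u) j a F) :
    NN ⊤ ι u w j a F := by
  induction j generalizing a F with
  | zero =>
    obtain ⟨f, hf, rfl⟩ := hF
    exact ⟨f, hf.top, rfl⟩
  | succ j ih =>
    obtain ⟨f, F', hf, hF', rfl⟩ := hF
    obtain ⟨G, hG, h⟩ := pow_w' (ι := ι) (u := u) (w := w) (c2 := c2) hg j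
    have h1 : Bd ⊤ a (f * C c2 ^ (j + 1)) := by
      simpa using hf.top.mul ((Bd.const (K' := ⊤) (k := c2) trivial).pow (j + 1))
    have h2 := smul (Bd.const (K' := ⊤) (k := c1) trivial) (ih hF')
    rw [zero_add] at h2
    refine ⟨_, _, h1, (smul hf.top hG).add h2, ?_⟩
    rw [h, map_mul, map_pow]; ring

end Frame

end NN

/-- The second quotient in a chart. -/
structure CD (K' : Subalgebra ℂ K) (ι : K[X] →+* A) (ρ : A →+* K[X]) (u w : A) where
  s : K[X]
  p : K[X]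
  A0 : K[X]
  A1 : K[X]
  Q0 : K[X]
  Q1 : K[X]
  hs : Bd K' 3 s
  hp : Bd K' 6 p
  hA0 : Bd K' 2 A0
  hA1 : Bd K' 2 A1
  hQ0 : Bd K' 5 Q0
  hQ1 : Bd K' 5 Q1
  ri : ∀ f, ρ (ι f) = f
  ru : ρ u = s
  rw : ρ w = -p
  e0 : A0 * p - 1 = s * Q0
  e1 : A1 * p - X ^ 8 = s * Q1

namespace CD

variable {K' : Subalgebra ℂ K} {ι : K[X] →+* A} {ρ : A →+* K[X]} {u w : A} (c : CD K' ι ρ u w)

noncomputable def v : A := ι c.p * u + ι c.s * w

theorem rho_v : ρ c.v = 0 := by
  simp only [v, map_add, map_mul, c.ri, c.ru, c.rw]; ring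

theorem mul_v {j a : ℕ} {F : A} (hF : NN K' ι u w j a F) :
    NN K' ι u w (j + 1) (a + 3) (c.v * F) := by
  have h1 := NN.smul c.hp hF
  have h2 := (NN.smul c.hs hF).mul_w
  rw [show 6 + a = a + 3 + 3 by omega] at h1
  rw [add_comm 3 a] at h2
  convert h1.mul_u.add h2 using 1
  simp only [v]; ring

include c in
theorem rho_bd {j a : ℕ} {F : A} (hF : NN K' ι u w j a F) : Bd K' (a + 6 * j) (ρ F) := by
  induction j generalizing a F with
  | zero =>
    obtain ⟨f, hf, rfl⟩ := hF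
    rw [c.ri]; exact hf
  | succ j ih =>
    obtain ⟨f, F', hf, hF', rfl⟩ := hF
    rw [map_add, map_mul, map_mul, map_pow, c.ri, c.ru, c.rw]
    exact ((hf.mul (c.hp.neg.pow (j + 1))).mono (by omega)).add ((c.hs.mul (ih hF')).mono (by omega))

include c in
theorem lift (j a : ℕ) (ha : 9 ≤ a) (g : K[X]) (hg : Bd K' (a + 6 * j) g) :
    ∃ F, NN K' ι u w j a F ∧ ρ F = g := by
  induction j generalizing a g with
  | zero => exact ⟨ι g, ⟨g, hg, rfl⟩, c.ri g⟩
  | succ j ih =>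
    obtain ⟨n, hn⟩ : ∃ n, a + 6 * j = n + 2 := ⟨a + 6 * j - 2, by omega⟩
    rw [show a + 6 * (j + 1) = n + 7 + 1 by omega] at hg
    obtain ⟨g0, g1, h0, h1, rfl⟩ := hg.splitk 7
    have h0' : Bd K' n g0 := h0.mono (by omega)
    obtain ⟨F1, hF1, r1⟩ := ih a ha (g0 * c.A0 + g1 * c.A1)
      (hn ▸ (h0'.mul c.hA0).add (h1.mul c.hA1))
    obtain ⟨F2, hF2, r2⟩ := ih (a + 3) (by omega) (-(g0 * c.Q0 + g1 * c.Q1))
      (((h0'.mul c.hQ0).add (h1.mul c.hQ1)).neg.mono (by omega))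
    refine ⟨_, hF1.mul_w.neg.add hF2.mul_u, ?_⟩
    rw [map_add, map_neg, map_mul, map_mul, r1, r2, c.ru, c.rw]
    linear_combination g0 * c.e0 + g1 * c.e1

end CD

theorem CD.ker [IsDomain K] {ι : K[X] →+* A} {ρ : A →+* K[X]} {u w : A} {K' : Subalgebra ℂ K}
    (c : CD K' ι ρ u w) (h3 : c.s.natDegree = 3) (j a : ℕ) (F : A)
    (hF : NN ⊤ ι u w (j + 1) (a + 3) F) (h0 : ρ F = 0) :
    ∃ G, NN ⊤ ι u w j a G ∧ F = c.v * G := by
  have hs0 : c.s ≠ 0 := by
    intro h; rw [h] at h3; simp at h3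
  have hcop : IsCoprime c.s (-c.p) := ⟨-c.Q0, -c.A0, by linear_combination c.e0⟩
  induction j generalizing a F with
  | zero =>
    obtain ⟨f, F', hf, ⟨f', hf', rfl⟩, rfl⟩ := hF
    simp only [map_add, map_mul, map_pow, c.ri, c.ru, c.rw] at h0
    have h1 : c.s ∣ f * (-c.p) ^ (0 + 1) := ⟨-f', by linear_combination h0⟩
    obtain ⟨f1, rfl⟩ := hcop.pow_right.dvd_of_dvd_mul_right h1
    have h2 : f' = f1 * c.p := by
      apply mul_left_cancel₀ hs0
      linear_combination h0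
    refine ⟨ι f1, ⟨f1, ⟨?_, fun _ => trivial⟩, rfl⟩, ?_⟩
    · by_cases h : f1 = 0
      · simp [h]
      · have := hf.1
        rw [natDegree_mul hs0 h] at this
        omega
    · simp only [h2, CD.v, map_mul]; ring
  | succ j ih =>
    obtain ⟨f, F', hf, hF', rfl⟩ := hF
    simp only [map_add, map_mul, map_pow, c.ri, c.ru, c.rw] at h0
    have h1 : c.s ∣ f * (-c.p) ^ (j + 1 + 1) := ⟨-ρ F', by linear_combination h0⟩
    obtain ⟨f1, rfl⟩ := hcop.pow_right.dvd_of_dvd_mul_right h1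
    have hf1 : Bd ⊤ a f1 := by
      refine ⟨?_, fun _ => trivial⟩
      by_cases h : f1 = 0
      · simp [h]
      · have := hf.1
        rw [natDegree_mul hs0 h] at this
        omega
    obtain ⟨G, hG, h2⟩ := ih (a + 3) (F' - ι (f1 * c.p) * w ^ (j + 1))
      (hF'.sub (NN.base (hf1.mul c.hp.top))) (by
        simp only [map_sub, map_mul, map_pow, c.ri, c.rw]
        apply mul_left_cancel₀ hs0
        linear_combination h0)
    refine ⟨_, ⟨f1, G, hf1, hG, rfl⟩, ?_⟩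
    rw [map_mul] at h2 ⊢
    have h4 : c.v = ι c.p * u + ι c.s * w := rfl
    linear_combination u * h2 - ι f1 * w ^ (j + 1) * h4

end Vale.Agent.P296
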