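import Vale.Agent.P296.Sec

/-! The bundles `E m` are ample. -/

namespace Vale.Agent.P296

open Matrix

theorem ample_of {r : ℕ} {E : HolBundle r} {k : ℕ} {ι : Type} [Fintype ι]
    (s : ι → TautSection E k) (hk : 0 < k)
    (h1 : ∀ α z φ, φ ≠ 0 → ∃ i, (s i).f α (z, φ) ≠ 0)
    (h2 : ∀ α β z w φ ψ (c : ℂ), φ ≠ 0 → ψ ≠ 0 →
      (∀ i, (s i).f α (z, φ) = c * (s i).f β (w, ψ)) →
      chart α z = chart β w ∧ ∃ d : ℂ, φ = d • (ψ ᵥ* E.T α β z))
    (h3 : ∀ α z φ ξ, φ ≠ 0 → (∀ i, fderiv ℂ ((s i).f α) (z, φ) ξ = 0) → ξ = 0) : Ample E := by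
  let e := Fintype.equivFin ι
  refine ⟨k, Fintype.card ι, fun i => s (e.symm i), hk, fun α z φ hφ => ?_,
    fun α β z w φ ψ c hφ hψ h => ?_, fun α z φ hφ => ?_⟩
  · obtain ⟨i, hi⟩ := h1 α z φ hφ
    exact ⟨e i, by simpa using hi⟩
  · exact h2 α β z w φ ψ c hφ hψ fun i => by simpa using h (e i)
  · rw [injective_iff_map_eq_zero]
    intro ξ hξ
    refine h3 α z φ ξ hφ fun i => ?_
    rw [fderiv_pi (fun i => (s (e.symm i)).holo α (z, φ))] at hξ
    simpa using congrFun hξ (e i)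

theorem euler {A : V × V → ℂ} (hA : Differentiable ℂ A) {j : ℕ}
    (h : ∀ z φ (c : ℂ), A (z, c • φ) = c ^ j * A (z, φ)) (z φ : V) :
    fderiv ℂ A (z, φ) (0, φ) = j * A (z, φ) := by
  have h1 : HasDerivAt (fun c : ℂ => ((z, c • φ) : V × V)) (0, φ) 1 := by
    simpa using (hasDerivAt_const (1 : ℂ) z).prodMk ((hasDerivAt_id (1 : ℂ)).smul_const φ)
  have h2 : HasFDerivAt A (fderiv ℂ A (z, φ)) ((fun c : ℂ => ((z, c • φ) : V × V)) 1) := by
    simpa using (hA (z, φ)).hasFDerivAt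
  have h3 := h2.comp_hasDerivAt (1 : ℂ) h1
  have h4 : HasDerivAt (fun c : ℂ => c ^ j * A (z, φ)) (j * A (z, φ)) 1 := by
    simpa using (hasDerivAt_pow j (1 : ℂ)).mul_const (A (z, φ))
  have h5 : (A ∘ fun c : ℂ => ((z, c • φ) : V × V)) = fun c : ℂ => c ^ j * A (z, φ) := by
    funext c; exact h z φ c
  rw [h5] at h3
  exact h3.unique h4

theorem fd_mul {f g : V × V → ℂ} (hf : Differentiable ℂ f) (hg : Differentiable ℂ g)
    (p ξ : V × V) :
    fderiv ℂ (fun q => f q * g q) p ξ = fderiv ℂ f p ξ * g p + f p * fderiv ℂ g p ξ := by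
  simp only [fderiv_fun_mul (hf p) (hg p), _root_.add_apply, _root_.smul_apply, smul_eq_mul]; ring

theorem fd_fst (i : Fin 2) (p ξ : V × V) : fderiv ℂ (fun q : V × V => q.1 i) p ξ = ξ.1 i := by
  have := ((ContinuousLinearMap.proj i : V →L[ℂ] ℂ).comp
    (ContinuousLinearMap.fst ℂ V V)).fderiv (x := p)
  exact congrArg (fun L : V × V →L[ℂ] ℂ => L ξ) this

theorem fd_snd (i : Fin 2) (p ξ : V × V) : fderiv ℂ (fun q : V × V => q.2 i) p ξ = ξ.2 i := by
  have := ((ContinuousLinearMap.proj i : V →L[ℂ] ℂ).comp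
    (ContinuousLinearMap.snd ℂ V V)).fderiv (x := p)
  exact congrArg (fun L : V × V →L[ℂ] ℂ => L ξ) this

theorem ample_EE (m : ℕ) : Ample (EE m) := by
  obtain ⟨S, hS, hb⟩ := bpf (6 * m)
  let s : (Fin 3 × Fin 2 × Fin 2) × Fin 2 × (Fin 2 × Fin 2) × (Fin 2 × Fin 2) →
      TautSection (EE m) (2 * (6 * m) + 2 + 1) := fun ι =>
    pull m (n1 := 3) (n2 := 3) ((hS ι.1).mul (isG_gen ι.2.1 ι.2.2.1.1 ι.2.2.1.2))
      (by ring) (by ring)
      (fun x => x ι.2.2.1.1 ^ 2 * x ι.2.2.2.1) (fun y => y ι.2.2.1.2 ^ 2 * y ι.2.2.2.2)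
      (by fun_prop) (by fun_prop)
      (fun c x => by simp only [Pi.smul_apply, smul_eq_mul]; ring)
      (fun c x => by simp only [Pi.smul_apply, smul_eq_mul]; ring)
  let A : (Fin 3 × Fin 2 × Fin 2) → Fin 2 × Fin 2 → V × V → ℂ := fun r α p =>
    S r α.2 (hv α.1 (p.1 0 ^ m)) (p.1 1 ^ m) p.2
  have hs : ∀ r i α β p, (s (r, i, α, β)).f α p =
      A r α p * p.2 i * (hv α.1 (p.1 0) β.1 * hv α.2 (p.1 1) β.2) := by
    intro r i α β p
    simp only [s, pull, gen_self, hv_self, one_pow, one_mul, A]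
  have hs' : ∀ r i α γ p, ∃ D : ℂ, ∀ β, (s (r, i, α, β)).f γ p =
      D * (hv γ.1 (p.1 0) β.1 * hv γ.2 (p.1 1) β.2) := by
    intro r i α γ p
    refine ⟨A r γ p * gen i α.1 α.2 γ.2 (hv γ.1 (p.1 0 ^ m)) (p.1 1 ^ m) p.2 *
      hv γ.1 (p.1 0) α.1 ^ 2 * hv γ.2 (p.1 1) α.2 ^ 2, fun β => ?_⟩
    simp only [s, pull, A]; ring
  have hA : ∀ α z φ, φ ≠ 0 → ∃ r i, A r α (z, φ) ≠ 0 ∧ φ i ≠ 0 := by
    intro α z φ hφ
    obtain ⟨r, hr⟩ := hb α.1 α.2 (z 0 ^ m) (z 1 ^ m) φ hφ
    obtain ⟨i, hi⟩ := Function.ne_iff.mp hφ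
    exact ⟨r, i, hr, hi⟩
  refine ample_of s (by omega) (fun α z φ hφ => ?_) (fun α β z w φ ψ c hφ _ h => ?_)
    (fun α z φ ξ hφ h => ?_)
  · obtain ⟨r, i, hr, hi⟩ := hA α z φ hφ
    refine ⟨(r, i, α, α), ?_⟩
    rw [hs]
    simp [hr, hi]
  · obtain ⟨r, i, hr, hi⟩ := hA α z φ hφ
    obtain ⟨D, hD⟩ := hs' r i α β (w, ψ)
    have h1 : ∀ a b, A r α (z, φ) * φ i * (hv α.1 (z 0) a * hv α.2 (z 1) b) =
        c * D * (hv β.1 (w 0) a * hv β.2 (w 1) b) := by
      intro a b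
      have := h (r, i, α, (a, b))
      rw [hs, hD] at this
      rw [this]; ring
    have n0 := mul_ne_zero hr hi
    have h2 := h1 β.1 β.2
    have h3 := h1 α.1 α.2
    simp only [hv_self, mul_one] at h2 h3
    have n1 : c * D ≠ 0 := by
      intro h0; rw [h0, zero_mul] at h3; exact n0 h3
    rw [← h2] at n1
    have n2 := right_ne_zero_of_mul n1
    have hc : chart α z = chart β w := by
      rw [chart_eq_iff]
      constructor
      · funext a
        have h4 := h1 a β.2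
        rw [← h2, hv_self, mul_one] at h4
        apply mul_left_cancel₀ (mul_ne_zero n0 (right_ne_zero_of_mul n2))
        simp only [Pi.smul_apply, smul_eq_mul]
        linear_combination h4
      · funext b
        have h4 := h1 β.1 b
        rw [← h2, hv_self, one_mul] at h4
        apply mul_left_cancel₀ (mul_ne_zero n0 (left_ne_zero_of_mul n2))
        simp only [Pi.smul_apply, smul_eq_mul]
        linear_combination h4
    refine ⟨hc, c * A r α (z, ψ ᵥ* (EE m).T α β z) / A r α (z, φ), ?_⟩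
    funext i'
    have h5 := h (r, i', α, α)
    rw [← (s (r, i', α, α)).compat α β z w ψ hc, hs, hs] at h5
    simp only [hv_self, mul_one] at h5
    simp only [Pi.smul_apply, smul_eq_mul]
    field_simp
    linear_combination h5
  · obtain ⟨r, i, hr, hi⟩ := hA α z φ hφ
    have dA : Differentiable ℂ (A r α) := by
      have a1 : Differentiable ℂ (fun p : V × V => hv α.1 (p.1 0 ^ m)) :=
        (diff_hv_pow α.1 m).comp (f := fun p : V × V => p.1 0) (by fun_prop)
      exact ((hS r).hol α.2).diff.comp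
        (f := fun p : V × V => (hv α.1 (p.1 0 ^ m), p.1 1 ^ m, p.2)) (by fun_prop)
    have d1 : ∀ i', Differentiable ℂ (fun p : V × V => A r α p * p.2 i') :=
      fun i' => dA.mul (by fun_prop)
    have e1 : ∀ i', fderiv ℂ (fun p : V × V => A r α p * p.2 i') (z, φ) ξ = 0 := by
      intro i'
      have := h (r, i', α, α)
      have e : (s (r, i', α, α)).f α = fun p : V × V => A r α p * p.2 i' := by
        funext p; rw [hs]; simp
      rwa [e] at this
    have e2 : ∀ (j : Fin 2) (β : Fin 2 × Fin 2),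
        (∀ p : V × V, hv α.1 (p.1 0) β.1 * hv α.2 (p.1 1) β.2 = p.1 j) →
        ξ.1 j = 0 := by
      intro j β hβ
      have := h (r, i, α, β)
      have e : (s (r, i, α, β)).f α = fun p : V × V => A r α p * p.2 i * p.1 j := by
        funext p; rw [hs, hβ]
      rw [e, fd_mul (d1 i) (by fun_prop), e1, fd_fst] at this
      simpa [hr, hi] using this
    have e3 : ξ.1 = 0 := by
      funext j
      fin_cases j
      · exact e2 0 (α.1.rev, α.2) fun p => by simp
      · exact e2 1 (α.1, α.2.rev) fun p => by simp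
    set κ := - fderiv ℂ (A r α) (z, φ) ξ / A r α (z, φ) with hκ
    have e4 : ξ = κ • ((0, φ) : V × V) := by
      refine Prod.ext (by simpa using e3) ?_
      funext i'
      have := e1 i'
      rw [fd_mul dA (by fun_prop), fd_snd] at this
      simp only [Prod.smul_mk, Pi.smul_apply, smul_eq_mul, hκ]
      field_simp
      linear_combination this
    have e5 := euler dA (j := 2 * (6 * m) + 2)
      (fun z φ c => ((hS r).hol α.2).homP c _ _ φ) z φ
    have e6 : fderiv ℂ (A r α) (z, φ) ξ = κ * ((2 * (6 * m) + 2 : ℕ) * A r α (z, φ)) := by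
      rw [← e5, ← smul_eq_mul, ← map_smul, ← e4]
    have e7 : κ * A r α (z, φ) = - fderiv ℂ (A r α) (z, φ) ξ := by
      rw [hκ]; field_simp
    have e8 : κ * (((2 * (6 * m) + 2 + 1 : ℕ) : ℂ) * A r α (z, φ)) = 0 := by
      push_cast at e6 ⊢
      linear_combination e7 - e6
    have e9 : κ = 0 := by
      rcases mul_eq_zero.mp e8 with h9 | h9
      · exact h9
      · exact absurd h9 (mul_ne_zero (Nat.cast_ne_zero.mpr (by omega)) hr)
    rw [e4, e9, zero_smul]

end Vale.Agent.P296
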