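import Vale.Agent.P296.Wirt

/-! The dual norm of a Griffiths positive metric has no local maximum along holomorphic curves
in coordinate lines. -/

namespace Vale.Agent.P296

open Filter Topology Complex Matrix
open scoped ComplexOrder

abbrev M2 := Matrix (Fin 2) (Fin 2) ℂ

/-- The sesquilinear form of a matrix. -/
def fm (M : M2) (x y : V) : ℂ := star x ⬝ᵥ (M *ᵥ y)

structure IsPD (M : M2) : Prop where
  herm : Mᴴ = M
  pos : ∀ v : V, v ≠ 0 → 0 < (fm M v v).re

theorem fm_conj {M : M2} (h : Mᴴ = M) (x y : V) : star (fm M y x) = fm M x y := by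
  simp only [fm]
  rw [star_dotProduct, star_star, star_mulVec, h, dotProduct_mulVec]

theorem fm_self_im {M : M2} (h : Mᴴ = M) (x : V) : (((fm M x x).re : ℝ) : ℂ) = fm M x x := by
  have := fm_conj h x x
  exact Complex.conj_eq_iff_re.mp this

theorem IsPD.posDef {M : M2} (h : IsPD M) : M.PosDef := by
  refine PosDef.of_dotProduct_mulVec_pos h.herm ?_
  intro x hx
  have h1 := fm_self_im h.herm x
  have h2 := h.pos x hx
  change 0 < fm M x x
  rw [← h1]
  exact_mod_cast h2

theorem IsPD.inv {M : M2} (h : IsPD M) : IsPD M⁻¹ :=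
  ⟨h.posDef.inv.isHermitian, fun _ hv => h.posDef.inv.re_dotProduct_pos hv⟩

theorem IsPD.det_ne {M : M2} (h : IsPD M) : M.det ≠ 0 := h.posDef.det_pos.ne'

theorem IsPD.isUnit_det {M : M2} (h : IsPD M) : IsUnit M.det := isUnit_iff_ne_zero.mpr h.det_ne

theorem IsPD.nonneg {M : M2} (h : IsPD M) (v : V) : 0 ≤ (fm M v v).re := by
  by_cases hv : v = 0
  · simp [fm, hv]
  · exact (h.pos v hv).le

theorem IsPD.cs {M : M2} (h : IsPD M) (x y : V) :
    ‖fm M x y‖ ^ 2 ≤ (fm M x x).re * (fm M y y).re := by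
  let c : PreInnerProductSpace.Core ℂ V :=
    { inner := fm M
      conj_inner_symm := fun x y => fm_conj h.herm x y
      re_inner_nonneg := fun x => h.nonneg x
      add_left := fun x y z => by simp [fm]
      smul_left := fun x y r => by simp [fm] }
  have h1 := @InnerProductSpace.Core.inner_mul_inner_self_le ℂ V _ _ _ c x y
  have h2 : ‖fm M y x‖ = ‖fm M x y‖ := by rw [← fm_conj h.herm x y, norm_star]
  change ‖fm M x y‖ * ‖fm M y x‖ ≤ (fm M x x).re * (fm M y y).re at h1
  rw [h2] at h1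
  rw [sq]; exact h1

/-- The dual norm of a covector. -/
noncomputable def dn (M : M2) (φ : V) : ℝ := √((fm M⁻¹ (star φ) (star φ)).re)

theorem dn_nonneg (M : M2) (φ : V) : 0 ≤ dn M φ := Real.sqrt_nonneg _

theorem IsPD.dn_sq {M : M2} (h : IsPD M) (φ : V) :
    dn M φ ^ 2 = (fm M⁻¹ (star φ) (star φ)).re := Real.sq_sqrt (h.inv.nonneg _)

theorem IsPD.dn_pos {M : M2} (h : IsPD M) {φ : V} (hφ : φ ≠ 0) : 0 < dn M φ :=
  Real.sqrt_pos.mpr (h.inv.pos _ (by simpa using hφ))

theorem dn_smul (M : M2) (c : ℂ) (φ : V) : dn M (c • φ) = ‖c‖ * dn M φ := by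
  have : fm M⁻¹ (star (c • φ)) (star (c • φ)) = ((‖c‖ ^ 2 : ℝ) : ℂ) * fm M⁻¹ (star φ) (star φ) := by
    simp only [fm, star_smul, star_star, mulVec_smul, smul_dotProduct, dotProduct_smul,
      smul_eq_mul]
    rw [← mul_assoc, mul_comm (star c) c]
    congr 1
    rw [Complex.star_def, Complex.mul_conj, Complex.normSq_eq_norm_sq]
  rw [dn, this, re_ofReal_mul, Real.sqrt_mul (sq_nonneg _), Real.sqrt_sq (norm_nonneg _), dn]

theorem IsPD.dn_add_le {M : M2} (h : IsPD M) (φ ψ : V) : dn M (φ + ψ) ≤ dn M φ + dn M ψ := by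
  have h1 := h.inv.cs (star φ) (star ψ)
  rw [← h.dn_sq, ← h.dn_sq, ← mul_pow] at h1
  have h2 : ‖fm M⁻¹ (star φ) (star ψ)‖ ≤ dn M φ * dn M ψ :=
    le_of_sq_le_sq h1 (mul_nonneg (dn_nonneg _ _) (dn_nonneg _ _))
  have h3 : (fm M⁻¹ (star ψ) (star φ)).re = (fm M⁻¹ (star φ) (star ψ)).re := by
    rw [← fm_conj h.inv.herm (star φ) (star ψ)]; simp
  have h4 := (re_le_norm (fm M⁻¹ (star φ) (star ψ))).trans h2
  refine le_of_sq_le_sq ?_ (add_nonneg (dn_nonneg _ _) (dn_nonneg _ _))
  have h5 : fm M⁻¹ (star (φ + ψ)) (star (φ + ψ)) = fm M⁻¹ (star φ) (star φ) +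
      fm M⁻¹ (star φ) (star ψ) + fm M⁻¹ (star ψ) (star φ) + fm M⁻¹ (star ψ) (star ψ) := by
    simp only [fm, star_add, mulVec_add, add_dotProduct, dotProduct_add]; ring
  rw [h.dn_sq, h5, add_sq, h.dn_sq, h.dn_sq]
  simp only [add_re]
  nlinarith

theorem IsPD.dn_cs {M : M2} (h : IsPD M) (φ v : V) :
    ‖φ ⬝ᵥ v‖ ^ 2 ≤ dn M φ ^ 2 * (fm M v v).re := by
  have h1 := h.inv.cs (star φ) (M *ᵥ v)
  have h2 : M⁻¹ *ᵥ (M *ᵥ v) = v := by
    rw [mulVec_mulVec, nonsing_inv_mul _ h.isUnit_det, one_mulVec]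
  have h3 : fm M⁻¹ (M *ᵥ v) (M *ᵥ v) = fm M v v := by
    rw [fm, h2, ← fm_conj h.herm, fm, star_dotProduct]
  rw [h3, ← h.dn_sq] at h1
  simpa only [fm, star_star, h2] using h1

theorem dn_trans {H H' T S : M2} (hST : S * T = 1) (h : H = Tᴴ * H' * T) (φ : V) :
    dn H (φ ᵥ* T) = dn H' φ := by
  have hTS : T * S = 1 := mul_eq_one_comm.mp hST
  have hT : T⁻¹ = S := inv_eq_left_inv hST
  have h1 : H⁻¹ = S * H'⁻¹ * Sᴴ := by
    rw [h, Matrix.mul_inv_rev, Matrix.mul_inv_rev, ← conjTranspose_nonsing_inv, hT, Matrix.mul_assoc]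
  have h2 : Sᴴ * Tᴴ = 1 := by rw [← conjTranspose_mul, hTS, conjTranspose_one]
  simp only [dn, fm, star_star]
  rw [star_vecMul, h1, mulVec_mulVec, ← dotProduct_mulVec, mulVec_mulVec]
  congr 4
  calc T * (S * H'⁻¹ * Sᴴ * Tᴴ) = (T * S) * H'⁻¹ * (Sᴴ * Tᴴ) := by
        simp only [Matrix.mul_assoc]
    _ = H'⁻¹ := by rw [hTS, h2]; simp

theorem contDiff_inv_entry {H : V → M2} {n : WithTop ℕ∞} (hs : ∀ a b, ContDiff ℝ n (fun z => H z a b))
    (hp : ∀ z, IsPD (H z)) (a b : Fin 2) : ContDiff ℝ n (fun z => (H z)⁻¹ a b) := by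
  have hdet : ContDiff ℝ n (fun z => ((H z).det)⁻¹) := by
    refine ContDiff.inv ?_ (fun z => (hp z).det_ne)
    simp only [det_fin_two]
    exact ((hs 0 0).mul (hs 1 1)).sub ((hs 0 1).mul (hs 1 0))
  have he : (fun z => (H z)⁻¹ a b) = fun z => ((H z).det)⁻¹ * (H z).adjugate a b := by
    funext z
    rw [Matrix.inv_def, Ring.inverse_eq_inv', Matrix.smul_apply, smul_eq_mul]
  rw [he]
  simp only [adjugate_fin_two]
  refine hdet.mul ?_
  fin_cases a <;> fin_cases b
  · simpa using hs 1 1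
  · simpa using (hs 0 1).neg
  · simpa using (hs 1 0).neg
  · simpa using hs 0 0

theorem continuous_dn {H : V → M2} (hs : ∀ a b, ContDiff ℝ (⊤ : ℕ∞) (fun z => H z a b))
    (hp : ∀ z, IsPD (H z)) : Continuous (fun p : V × V => dn (H p.1) p.2) := by
  have hi : ∀ a b, Continuous (fun p : V × V => (H p.1)⁻¹ a b) := fun a b =>
    (contDiff_inv_entry hs hp a b).continuous.comp continuous_fst
  simp only [dn, fm, dotProduct, mulVec, Fin.sum_univ_two, star_star, Pi.star_apply]
  have h2 : ∀ a, Continuous (fun p : V × V => p.2 a) := fun a => by fun_prop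
  have h3 : ∀ a, Continuous (fun p : V × V => star (p.2 a)) := fun a => (h2 a).star
  exact Real.continuous_sqrt.comp (continuous_re.comp
    (((h2 0).mul (((hi 0 0).mul (h3 0)).add ((hi 0 1).mul (h3 1)))).add
      ((h2 1).mul (((hi 1 0).mul (h3 0)).add ((hi 1 1).mul (h3 1))))))

/-- A derivation at a point on real differentiable functions. -/
structure IsDer (D : (V → ℂ) → ℂ) (z : V) : Prop where
  add : ∀ f g : V → ℂ, DifferentiableAt ℝ f z → DifferentiableAt ℝ g z →
    D (fun y => f y + g y) = D f + D g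
  mul : ∀ f g : V → ℂ, DifferentiableAt ℝ f z → DifferentiableAt ℝ g z →
    D (fun y => f y * g y) = D f * g z + f z * D g

theorem isDer_dz (j : Fin 2) (z : V) : IsDer (fun f => dz j f z) z :=
  ⟨fun _ _ hf hg => dz_add hf hg, fun _ _ hf hg => dz_mul hf hg⟩

theorem isDer_dzbar (j : Fin 2) (z : V) : IsDer (fun f => dzbar j f z) z :=
  ⟨fun _ _ hf hg => dzbar_add hf hg, fun _ _ hf hg => dzbar_mul hf hg⟩

theorem IsDer.dot {D : (V → ℂ) → ℂ} {z : V} (h : IsDer D z) {p q : V → V}
    (hp : ∀ a, DifferentiableAt ℝ (fun y => p y a) z)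
    (hq : ∀ a, DifferentiableAt ℝ (fun y => q y a) z) :
    D (fun y => p y ⬝ᵥ q y) =
      (fun a => D (fun y => p y a)) ⬝ᵥ q z + p z ⬝ᵥ (fun a => D (fun y => q y a)) := by
  simp only [dotProduct, Fin.sum_univ_two]
  rw [h.add _ _ ((hp 0).fun_mul (hq 0)) ((hp 1).fun_mul (hq 1)), h.mul _ _ (hp 0) (hq 0),
    h.mul _ _ (hp 1) (hq 1)]
  ring

theorem diff_mulVec {z : V} {M : V → M2} {q : V → V}
    (hM : ∀ a b, DifferentiableAt ℝ (fun y => M y a b) z)
    (hq : ∀ a, DifferentiableAt ℝ (fun y => q y a) z) (a : Fin 2) :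
    DifferentiableAt ℝ (fun y => (M y *ᵥ q y) a) z := by
  simp only [mulVec, dotProduct, Fin.sum_univ_two]
  exact ((hM a 0).fun_mul (hq 0)).fun_add ((hM a 1).fun_mul (hq 1))

theorem IsDer.mulVec {D : (V → ℂ) → ℂ} {z : V} (h : IsDer D z) {M : V → M2} {q : V → V}
    (hM : ∀ a b, DifferentiableAt ℝ (fun y => M y a b) z)
    (hq : ∀ a, DifferentiableAt ℝ (fun y => q y a) z) :
    (fun a => D (fun y => (M y *ᵥ q y) a)) =
      (Matrix.of fun a b => D (fun y => M y a b)) *ᵥ q z +
        M z *ᵥ (fun a => D (fun y => q y a)) := by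
  funext a
  exact h.dot (p := fun y => M y a) (hM a) hq

section Levi

variable {H : V → M2} (hs : ∀ a b, ContDiff ℝ (⊤ : ℕ∞) (fun z => H z a b))
  (hp : ∀ z, IsPD (H z)) (j : Fin 2)

include hs in
theorem contDiff_dz_entry (a b : Fin 2) : ContDiff ℝ 1 (dz j (fun z => H z a b)) := by
  have h1 : ContDiff ℝ 1 (fderiv ℝ (fun z => H z a b)) :=
    (hs a b).fderiv_right (by
      change (((2 : ℕ∞)) : WithTop ℕ∞) ≤ ((⊤ : ℕ∞) : WithTop ℕ∞)
      exact_mod_cast le_top)
  unfold dz
  exact contDiff_const.mul ((h1.clm_apply contDiff_const).sub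
    (contDiff_const.mul (h1.clm_apply contDiff_const)))

include hs hp in
theorem diff_conn (a b : Fin 2) (z : V) : DifferentiableAt ℝ (fun y => conn H j y a b) z := by
  have h1 : ∀ a b, DifferentiableAt ℝ (fun y => (H y)⁻¹ a b) z := fun a b =>
    ((contDiff_inv_entry hs hp a b).differentiable (by simp)).differentiableAt
  have h2 : ∀ a b, DifferentiableAt ℝ (dz j (fun y => H y a b)) z := fun a b =>
    ((contDiff_dz_entry hs j a b).differentiable (by simp)).differentiableAt
  simp only [conn, Matrix.mul_apply, Fin.sum_univ_two, of_apply]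
  exact ((h1 a 0).fun_mul (h2 0 b)).fun_add ((h1 a 1).fun_mul (h2 1 b))

/-- The covariant derivative of a section. -/
noncomputable def cov (H : V → M2) (j : Fin 2) (w : V → V) (y : V) : V :=
  conn H j y *ᵥ w y + fun a => dz j (fun y => w y a) y

include hs hp in
theorem dz_fm {w : V → V} {y : V} (hw : ∀ a, DifferentiableAt ℂ (fun y => w y a) y) :
    dz j (fun y => fm (H y) (w y) (w y)) y = fm (H y) (w y) (cov H j w y) := by
  have hH : ∀ a b, DifferentiableAt ℝ (fun y => H y a b) y := fun a b =>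
    ((hs a b).differentiable (by simp)).differentiableAt
  have hwr : ∀ a, DifferentiableAt ℝ (fun y => w y a) y := fun a => (hw a).restrictScalars ℝ
  have h1 := (isDer_dz j y).dot (p := fun y => star (w y)) (q := fun y => H y *ᵥ w y)
    (fun a => differentiableAt_star (hwr a)) (diff_mulVec hH hwr)
  have h2 := (isDer_dz j y).mulVec hH hwr
  have h3 : (fun a => dz j (fun y => star (w y) a) y) = 0 := by
    funext a; exact dz_star_holo (hw a)
  simp only [fm]
  rw [h1, h2, h3, zero_dotProduct, zero_add, cov, mulVec_add, mulVec_mulVec, conn,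
    ← Matrix.mul_assoc, mul_nonsing_inv _ (hp y).isUnit_det, Matrix.one_mul]

include hs hp in
theorem levi_formula {w : V → V} {z : V} (hw : ∀ a, AnalyticAt ℂ (fun y => w y a) z)
    (h0 : cov H j w z = 0) :
    dzbar j (dz j (fun y => fm (H y) (w y) (w y))) z =
      - (star (w z) ⬝ᵥ (H z *ᵥ (curv H j j z *ᵥ w z))) := by
  have hev : ∀ᶠ y in 𝓝 z, ∀ a, DifferentiableAt ℂ (fun y => w y a) y := by
    rw [eventually_all]
    intro a
    filter_upwards [(hw a).eventually_analyticAt] with y hy using hy.differentiableAt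
  have hE : dz j (fun y => fm (H y) (w y) (w y)) =ᶠ[𝓝 z]
      fun y => star (w y) ⬝ᵥ (H y *ᵥ cov H j w y) := by
    filter_upwards [hev] with y hy using dz_fm hs hp j hy
  have hH : ∀ a b, DifferentiableAt ℝ (fun y => H y a b) z := fun a b =>
    ((hs a b).differentiable (by simp)).differentiableAt
  have hwr : ∀ a, DifferentiableAt ℝ (fun y => w y a) z := fun a =>
    (hw a).differentiableAt.restrictScalars ℝ
  have hd : ∀ a, DifferentiableAt ℂ (dz j (fun y => w y a)) z := by
    intro a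
    have h1 : dz j (fun y => w y a) =ᶠ[𝓝 z] fun y => fderiv ℂ (fun y => w y a) y (Pi.single j 1) := by
      filter_upwards [hev] with y hy using dz_holo (hy a)
    exact ((hw a).fderiv.differentiableAt.clm_apply (differentiableAt_const _)).congr_of_eventuallyEq h1
  have hc : ∀ a, DifferentiableAt ℝ (fun y => cov H j w y a) z := fun a =>
    (diff_mulVec (fun a b => diff_conn hs hp j a b z) hwr a).fun_add ((hd a).restrictScalars ℝ)
  have h1 := (isDer_dzbar j z).dot (p := fun y => star (w y)) (q := fun y => H y *ᵥ cov H j w y)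
    (fun a => differentiableAt_star (hwr a)) (diff_mulVec hH hc)
  have h2 := (isDer_dzbar j z).mulVec hH hc
  have h3 := (isDer_dzbar j z).mulVec (fun a b => diff_conn hs hp j a b z) hwr
  have h4 : (fun a => dzbar j (fun y => w y a) z) = 0 := by
    funext a; exact dzbar_holo (hw a).differentiableAt
  have h5 : (fun a => dzbar j (fun y => cov H j w y a) z) = - (curv H j j z *ᵥ w z) := by
    have h6 : (fun a => dzbar j (fun y => cov H j w y a) z) =
        fun a => dzbar j (fun y => (conn H j y *ᵥ w y) a) z := by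
      funext a
      have := dzbar_add (j := j) (diff_mulVec (fun a b => diff_conn hs hp j a b z) hwr a)
        ((hd a).restrictScalars ℝ)
      rw [dzbar_holo (hd a), add_zero] at this
      exact this
    rw [h6, h3, h4, mulVec_zero, add_zero, ← neg_mulVec]
    congr 1
    ext a b
    simp [curv]
  rw [dzbar_congr hE, h1, h2, h0, h5]
  simp only [mulVec_neg, mulVec_zero, dotProduct_zero, zero_add, dotProduct_neg]

include hs hp in
theorem no_max (z : V)
    (hG : ∀ v : V, v ≠ 0 → 0 < (star v ⬝ᵥ (H z *ᵥ (curv H j j z *ᵥ v))).re)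
    (ψ : ℂ → V) (hψ : ∀ a, AnalyticAt ℂ (fun t => ψ t a) 0) (h0 : ψ 0 ≠ 0) :
    ¬ IsLocalMax (fun t : ℂ => dn (H (z + Pi.single j t)) (ψ t)) 0 := by
  intro hmax
  set v0 : V := (H z)⁻¹ *ᵥ star (ψ 0) with hv0
  set n0 : ℝ := dn (H z) (ψ 0) ^ 2 with hn0
  have hn0pos : 0 < n0 := pow_pos ((hp z).dn_pos h0) 2
  have hg0 : ψ 0 ⬝ᵥ v0 = n0 := by
    rw [hn0, (hp z).dn_sq, fm_self_im (hp z).inv.herm, fm, star_star]
  have hHv : H z *ᵥ v0 = star (ψ 0) := by
    rw [hv0, mulVec_mulVec, mul_nonsing_inv _ (hp z).isUnit_det, one_mulVec]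
  have hf0 : fm (H z) v0 v0 = n0 := by
    rw [fm, hHv, star_dotProduct_star, hg0]; simp
  set G : V := conn H j z *ᵥ v0 with hG0
  let v : V → V := fun y => v0 - (y j - z j) • G
  let g : V → ℂ := fun y => ψ (y j - z j) ⬝ᵥ v y
  let w : V → V := fun y => (g y)⁻¹ • v y
  have hτ : AnalyticAt ℂ (fun y : V => y j - z j) z :=
    ((ContinuousLinearMap.proj j : V →L[ℂ] ℂ).analyticAt z).sub analyticAt_const
  have hva : ∀ a, AnalyticAt ℂ (fun y => v y a) z := by
    intro a
    simp only [v, Pi.sub_apply, Pi.smul_apply, smul_eq_mul]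
    exact analyticAt_const.sub (hτ.mul analyticAt_const)
  have hvz : v z = v0 := by simp [v]
  have hgz : g z = n0 := by simp only [g, hvz, sub_self, hg0]
  have hga : AnalyticAt ℂ g z := by
    have hψ' : ∀ a, AnalyticAt ℂ (fun y : V => ψ (y j - z j) a) z := fun a =>
      AnalyticAt.comp_of_eq (g := fun t => ψ t a) (hψ a) hτ (by simp)
    simp only [g, dotProduct, Fin.sum_univ_two]
    exact ((hψ' 0).mul (hva 0)).add ((hψ' 1).mul (hva 1))
  have hgne : g z ≠ 0 := by rw [hgz]; exact_mod_cast hn0pos.ne'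
  have hgi : AnalyticAt ℂ (fun y => (g y)⁻¹) z := hga.inv hgne
  have hwa : ∀ a, AnalyticAt ℂ (fun y => w y a) z := fun a => hgi.mul (hva a)
  let n : V → ℝ := fun y => (fm (H y) (w y) (w y)).re
  have hn : (fun y => (n y : ℂ)) = fun y => fm (H y) (w y) (w y) := by
    funext y; exact fm_self_im (hp y).herm _
  have hnc : ContDiffAt ℝ 2 n z := by
    have hH : ∀ a b, ContDiffAt ℝ 2 (fun y => H y a b) z := fun a b =>
      ((hs a b).of_le (by
        change (((2 : ℕ∞)) : WithTop ℕ∞) ≤ ((⊤ : ℕ∞) : WithTop ℕ∞)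
        exact_mod_cast le_top)).contDiffAt
    have hw2 : ∀ a, ContDiffAt ℝ 2 (fun y => w y a) z := fun a =>
      ((hwa a).contDiffAt (n := 2)).restrict_scalars ℝ
    have hw3 : ∀ a, ContDiffAt ℝ 2 (fun y => star (w y a)) z := fun a =>
      (conjCLE.contDiff.contDiffAt).comp z (hw2 a)
    refine (reCLM.contDiff.contDiffAt).comp z (f := fun y => fm (H y) (w y) (w y)) ?_
    simp only [fm, dotProduct, mulVec, Fin.sum_univ_two, Pi.star_apply]
    exact ((hw3 0).mul (((hH 0 0).mul (hw2 0)).add ((hH 0 1).mul (hw2 1)))).add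
      ((hw3 1).mul (((hH 1 0).mul (hw2 0)).add ((hH 1 1).mul (hw2 1))))
  have hwz : w z = ((n0 : ℂ))⁻¹ • v0 := by simp only [w, hgz, hvz]
  have hnz : n z = n0⁻¹ := by
    have : fm (H z) (w z) (w z) = ((n0⁻¹ : ℝ) : ℂ) := by
      have h2 : (n0 : ℂ) ≠ 0 := by exact_mod_cast hn0pos.ne'
      rw [hwz, fm, star_smul, mulVec_smul, smul_dotProduct, dotProduct_smul, ← fm, hf0]
      simp [h2]
    simp only [n, this, ofReal_re]
  have hmin : IsLocalMin (fun t : ℂ => n (z + Pi.single j t)) 0 := by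
    have hc : Tendsto (fun t : ℂ => z + Pi.single j t) (𝓝 0) (𝓝 z) := by
      have h1 : Continuous (fun t : ℂ => z + (Pi.single j t : V)) :=
        continuous_const.add (continuous_single (A := fun _ => ℂ) j)
      simpa using h1.tendsto 0
    filter_upwards [hmax, hc.eventually (hga.continuousAt.eventually_ne hgne)] with t h1 h2
    simp only [Pi.single_zero, add_zero] at h1 ⊢
    have h3 := (hp (z + Pi.single j t)).dn_cs (ψ t) (w (z + Pi.single j t))
    have h4 : ψ t ⬝ᵥ w (z + Pi.single j t) = 1 := by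
      have h5 : g (z + Pi.single j t) = ψ t ⬝ᵥ v (z + Pi.single j t) := by simp [g]
      simp only [w, dotProduct_smul, smul_eq_mul]
      rw [← h5, inv_mul_cancel₀ h2]
    rw [h4] at h3
    have h6 : dn (H (z + Pi.single j t)) (ψ t) ^ 2 ≤ n0 :=
      pow_le_pow_left₀ (dn_nonneg _ _) h1 2
    have h7 : 0 ≤ n (z + Pi.single j t) := (hp _).nonneg _
    have h8 : 1 ≤ n0 * n (z + Pi.single j t) := by
      have := mul_le_mul_of_nonneg_right h6 h7
      simp only [norm_one, one_pow] at h3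
      exact h3.trans this
    rw [hnz, inv_le_iff_one_le_mul₀' hn0pos]
    exact h8
  obtain ⟨t1, t2⟩ := levi_test hnc hmin
  rw [hn] at t1 t2
  have hcov : cov H j w z = dz j (fun y => (g y)⁻¹) z • v0 := by
    funext a
    have h1 : dz j (fun y => w y a) z =
        dz j (fun y => (g y)⁻¹) z * v z a + (g z)⁻¹ * dz j (fun y => v y a) z :=
      dz_mul (hgi.differentiableAt.restrictScalars ℝ) ((hva a).differentiableAt.restrictScalars ℝ)
    have h2 : dz j (fun y => v y a) z = - G a := by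
      rw [dz_holo (hva a).differentiableAt]
      have : HasFDerivAt (fun y : V => v y a)
          (-(G a • (ContinuousLinearMap.proj j : V →L[ℂ] ℂ))) z := by
        have h3 : HasFDerivAt (fun y : V => y j) (ContinuousLinearMap.proj j : V →L[ℂ] ℂ) z :=
          (ContinuousLinearMap.proj j : V →L[ℂ] ℂ).hasFDerivAt
        exact ((h3.sub_const (z j)).mul_const (G a)).const_sub (v0 a)
      rw [this.fderiv]; simp
    simp only [cov, Pi.add_apply, h1, h2, hvz, hwz, hgz, mulVec_smul, Pi.smul_apply, smul_eq_mul,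
      ← hG0]
    ring
  rw [dz_fm hs hp j (fun a => (hwa a).differentiableAt), hcov, hwz, fm, star_smul, mulVec_smul,
    smul_dotProduct, dotProduct_smul, ← fm, hf0] at t1
  have hκ : dz j (fun y => (g y)⁻¹) z = 0 := by
    have h2 : (n0 : ℂ) ≠ 0 := by exact_mod_cast hn0pos.ne'
    simpa [h2] using t1
  rw [levi_formula hs hp j hwa (by rw [hcov, hκ, zero_smul])] at t2
  have hwne : w z ≠ 0 := by
    intro h
    have : n z = 0 := by simp [n, h, fm]
    rw [hnz] at this
    exact (inv_pos.mpr hn0pos).ne' this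
  have := hG (w z) hwne
  simp only [neg_re] at t2
  linarith

end Levi

end Vale.Agent.P296
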