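import Vale.Agent.P296.Poly
import Vale.Agent.P296.NoMax

/-! The bundles `E m`. -/

namespace Vale.Agent.P296

open Matrix

@[simp] theorem hv_self (a : Fin 2) (s : ℂ) : hv a s a = 1 := by simp [hv]

@[simp] theorem hv_rev (a : Fin 2) (s : ℂ) : hv a s a.rev = s := by
  fin_cases a <;> simp [hv, Fin.rev]

theorem hv_zero (s : ℂ) : hv 0 s = ![1, s] := by
  funext i; fin_cases i <;> simp [hv]

theorem hv_one (s : ℂ) : hv 1 s = ![s, 1] := by
  funext i; fin_cases i <;> simp [hv]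

theorem hv_flip (a : Fin 2) {s : ℂ} (hs : s ≠ 0) : hv a s = s • hv a.rev s⁻¹ := by
  funext i; fin_cases a <;> fin_cases i <;> simp [hv, Fin.rev, hs]

theorem hv_pow (a : Fin 2) (s : ℂ) (m : ℕ) : hv a s ^ m = hv a (s ^ m) := by
  funext i; simp only [hv, Pi.pow_apply]; split_ifs <;> simp

theorem mk_eq_iff (a a' : Fin 2) (s s' : ℂ) :
    Projectivization.mk ℂ (hv a s) (hv_ne_zero _ _) =
      Projectivization.mk ℂ (hv a' s') (hv_ne_zero _ _) ↔ hv a s = hv a s a' • hv a' s' := by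
  rw [Projectivization.mk_eq_mk_iff']
  constructor
  · rintro ⟨c, hc⟩
    have : hv a s a' = c := by rw [← hc]; simp
    rw [this, hc]
  · intro h; exact ⟨_, h.symm⟩

theorem chart_eq_iff (α β : Fin 2 × Fin 2) (z w : V) : chart α z = chart β w ↔
    hv α.1 (z 0) = hv α.1 (z 0) β.1 • hv β.1 (w 0) ∧
    hv α.2 (z 1) = hv α.2 (z 1) β.2 • hv β.2 (w 1) := by
  simp only [chart, Prod.mk.injEq, mk_eq_iff]

theorem ne_of_hv_eq {a a' : Fin 2} {s s' c : ℂ} (h : hv a s = c • hv a' s') : c ≠ 0 := by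
  rintro rfl
  exact hv_ne_zero a s (by rw [h, zero_smul])

theorem chart_mem_range {α β : Fin 2 × Fin 2} {z : V} (h : chart α z ∈ Set.range (chart β)) :
    hv α.1 (z 0) β.1 ≠ 0 ∧ hv α.2 (z 1) β.2 ≠ 0 := by
  obtain ⟨w, hw⟩ := h
  obtain ⟨h1, h2⟩ := (chart_eq_iff _ _ _ _).mp hw.symm
  exact ⟨ne_of_hv_eq h1, ne_of_hv_eq h2⟩

/-- The extension class. -/
noncomputable def ee (X Y : V) : ℂ := pR.ev X Y * ((Y 0 * Y 1)⁻¹) ^ 8

theorem ee_smul (k l : ℂ) (X Y : V) : ee (k • X) (l • Y) = k ^ 3 * (l⁻¹) ^ 9 * ee X Y := by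
  by_cases hl : l = 0
  · simp [ee, hl]
  simp only [ee, BP.ev_smul, Pi.smul_apply, smul_eq_mul, mul_inv]
  field_simp

def eps (b b' : Fin 2) : ℂ := ((b' : ℕ) : ℂ) - ((b : ℕ) : ℂ)

noncomputable def d0 (m : ℕ) (l u : ℂ) : ℂ := l⁻¹ * u⁻¹ * ((l ^ m)⁻¹) ^ 3 * (u ^ m) ^ 3

noncomputable def d1 (m : ℕ) (l u : ℂ) : ℂ := l⁻¹ * u⁻¹ * ((u ^ m)⁻¹) ^ 6

noncomputable def TT (m : ℕ) (x y : V) (a' b b' : Fin 2) : M2 :=
  !![d0 m (x a') (y b'), d0 m (x a') (y b') * (eps b b' * ee (x ^ m) (y ^ m));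
     0, d1 m (x a') (y b')]

theorem diff_hv (a i j : Fin 2) : Differentiable ℂ (fun z : V => hv a (z j) i) := by
  simp only [hv]; split_ifs <;> fun_prop

noncomputable def EE (m : ℕ) : HolBundle 2 where
  T α β z := TT m (hv α.1 (z 0)) (hv α.2 (z 1)) β.1 α.2 β.2
  holo α β i j z hz := by
    obtain ⟨h1, h2⟩ := chart_mem_range hz
    have a1 := diff_hv α.1 β.1 0 z
    have a2 := diff_hv α.2 β.2 1 z
    have b0 : DifferentiableAt ℂ (fun z : V => d0 m (hv α.1 (z 0) β.1) (hv α.2 (z 1) β.2)) z := by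
      simp only [d0]
      exact (((a1.inv h1).mul (a2.inv h2)).mul
        (((a1.pow m).inv (pow_ne_zero _ h1)).pow 3)).mul ((a2.pow m).pow 3)
    have b1 : DifferentiableAt ℂ (fun z : V => d1 m (hv α.1 (z 0) β.1) (hv α.2 (z 1) β.2)) z := by
      simp only [d1]
      exact ((a1.inv h1).mul (a2.inv h2)).mul (((a2.pow m).inv (pow_ne_zero _ h2)).pow 6)
    have b2 : DifferentiableAt ℂ
        (fun z : V => eps α.2 β.2 * ee (hv α.1 (z 0) ^ m) (hv α.2 (z 1) ^ m)) z := by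
      by_cases hb : α.2 = β.2
      · simp [eps, hb]
      · have h3 : (hv α.2 (z 1) ^ m) 0 * (hv α.2 (z 1) ^ m) 1 ≠ 0 := by
          have : ∀ i, hv α.2 (z 1) i ≠ 0 := by
            intro i
            by_cases hi : i = α.2
            · simp [hi]
            · have : i = β.2 := by omega
              rwa [this]
          exact mul_ne_zero (pow_ne_zero _ (this 0)) (pow_ne_zero _ (this 1))
        have c1 : ∀ i, DifferentiableAt ℂ (fun z : V => (hv α.1 (z 0) ^ m) i) z :=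
          fun i => (diff_hv α.1 i 0 z).pow m
        have c2 : ∀ i, DifferentiableAt ℂ (fun z : V => (hv α.2 (z 1) ^ m) i) z :=
          fun i => (diff_hv α.2 i 1 z).pow m
        exact ((pR.diffAt c1 c2).mul ((((c2 0).mul (c2 1)).inv h3).pow 8)).const_mul _
    refine DifferentiableAt.differentiableWithinAt ?_
    fin_cases i <;> fin_cases j
    · exact b0
    · exact b0.mul b2
    · exact differentiableAt_const _
    · exact b1
  self α z := by
    ext i j
    fin_cases i <;> fin_cases j <;> simp [TT, d0, d1, eps]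
  cocycle α β γ z w h _ := by
    obtain ⟨h1, h2⟩ := (chart_eq_iff _ _ _ _).mp h
    have n1 := ne_of_hv_eq h1
    have n2 := ne_of_hv_eq h2
    set l := hv α.1 (z 0) β.1 with hl
    set u := hv α.2 (z 1) β.2 with hu
    have e1 : hv α.1 (z 0) γ.1 = l * hv β.1 (w 0) γ.1 := by rw [h1]; simp
    have e2 : hv α.2 (z 1) γ.2 = u * hv β.2 (w 1) γ.2 := by rw [h2]; simp
    have e3 : ee (hv α.1 (z 0) ^ m) (hv α.2 (z 1) ^ m) =
        (l ^ m) ^ 3 * ((u ^ m)⁻¹) ^ 9 * ee (hv β.1 (w 0) ^ m) (hv β.2 (w 1) ^ m) := by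
      rw [h1, h2, smul_pow, smul_pow, ee_smul]
    have n3 := pow_ne_zero m n1
    have n4 := pow_ne_zero m n2
    simp only [TT, ← hl, ← hu, e1, e2, e3, mul_fin_two]
    congr 3
    · simp only [d0, mul_pow, mul_inv]; ring
    · congr 1
      simp only [d0, d1, eps, mul_pow, mul_inv]
      field_simp
      ring
    · have : d1 m (hv β.1 (w 0) γ.1) (hv β.2 (w 1) γ.2) * d1 m l u =
          d1 m (l * hv β.1 (w 0) γ.1) (u * hv β.2 (w 1) γ.2) := by
        simp only [d1, mul_pow, mul_inv]; ring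
      simp [this]

end Vale.Agent.P296
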