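import Vale.Agent.P296.Alg

/-! Vanishing of the first cohomology along the second factor and the resulting sections. -/

namespace Vale.Agent.P296

open Polynomial LaurentPolynomial

abbrev KK := LaurentPolynomial ℂ
abbrev BB := Polynomial KK
abbrev AA := MvPolynomial (Fin 2) BB

noncomputable def K0 : Subalgebra ℂ KK := Algebra.adjoin ℂ {T 1}
noncomputable def K1 : Subalgebra ℂ KK := Algebra.adjoin ℂ {T (-1)}

theorem T_mem0 : (T 1 : KK) ∈ K0 := Algebra.subset_adjoin rfl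
theorem T_mem1 : (T (-1) : KK) ∈ K1 := Algebra.subset_adjoin rfl

theorem split_K (b : ℤ) (hb : -1 ≤ b) (k : KK) : ∃ k0 ∈ K0, ∃ k1 ∈ K1, k = k0 + T b * k1 := by
  induction k using LaurentPolynomial.induction_on' with
  | add p q hp hq =>
    obtain ⟨p0, h0, p1, h1, rfl⟩ := hp
    obtain ⟨q0, g0, q1, g1, rfl⟩ := hq
    exact ⟨p0 + q0, K0.add_mem h0 g0, p1 + q1, K1.add_mem h1 g1, by ring⟩
  | C_mul_T n a =>
    by_cases hn : 0 ≤ n
    · obtain ⟨n, rfl⟩ := Int.eq_ofNat_of_zero_le hn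
      refine ⟨_, K0.mul_mem (K0.algebraMap_mem a) (K0.pow_mem T_mem0 n), 0, K1.zero_mem, ?_⟩
      rw [T_pow, ← LaurentPolynomial.C_eq_algebraMap]; simp
    · obtain ⟨k, hk⟩ := Int.eq_ofNat_of_zero_le (show 0 ≤ b - n by omega)
      refine ⟨0, K0.zero_mem, _, K1.mul_mem (K1.algebraMap_mem a) (K1.pow_mem T_mem1 k), ?_⟩
      rw [T_pow, ← LaurentPolynomial.C_eq_algebraMap, zero_add, mul_left_comm, ← T_add]
      congr 2
      omega

/-- Powers of the transition unit. -/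
noncomputable def tt (n : ℤ) : BB := Polynomial.C (T n)

theorem tt_add (a b : ℤ) : tt (a + b) = tt a * tt b := by rw [tt, T_add, map_mul]; rfl

theorem tt_zero : tt 0 = 1 := by simp [tt]

theorem tt_pow (a : ℤ) (n : ℕ) : tt a ^ n = tt (n * a) := by rw [tt, ← map_pow, T_pow]; rfl

theorem split_Bd (b : ℤ) (hb : -1 ≤ b) (a : ℕ) (f : BB) (hf : Bd ⊤ a f) :
    ∃ f0 f1, Bd K0 a f0 ∧ Bd K1 a f1 ∧ f = f0 + tt b * f1 := by
  induction a generalizing f with
  | zero =>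
    obtain ⟨k, _, rfl⟩ := hf.split0
    obtain ⟨k0, h0, k1, h1, rfl⟩ := split_K b hb k
    exact ⟨_, _, Bd.const h0, Bd.const h1, by rw [map_add, map_mul]; rfl⟩
  | succ a ih =>
    obtain ⟨k, _, g, hg, rfl⟩ := hf.split1
    obtain ⟨k0, h0, k1, h1, rfl⟩ := split_K b hb k
    obtain ⟨g0, g1, e0, e1, rfl⟩ := ih g hg
    refine ⟨_, _, ((Bd.const h0).mono (by omega)).add ((Bd.var.mul e0).mono (by omega)),
      ((Bd.const h1).mono (by omega)).add ((Bd.var.mul e1).mono (by omega)), ?_⟩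
    simp only [tt, map_add, map_mul]; ring

noncomputable def XX : Fin 2 → BB := ![1, Polynomial.X]
noncomputable def YY0 : Fin 2 → BB := ![Polynomial.C 1, Polynomial.C (T 1)]
noncomputable def YY1 : Fin 2 → BB := ![Polynomial.C (T (-1)), Polynomial.C 1]

theorem YY0_eq : YY0 = tt 1 • YY1 := by
  funext i
  fin_cases i
  · change Polynomial.C 1 = tt 1 * tt (-1)
    rw [← tt_add]; rfl
  · simp [YY0, YY1, tt]

theorem YY1_eq : YY1 = tt (-1) • YY0 := by
  rw [YY0_eq, smul_smul, ← tt_add]; simp [tt_zero]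

noncomputable def io : BB →+* AA := MvPolynomial.C
noncomputable def uu : AA := MvPolynomial.X 0
noncomputable def ww : AA := MvPolynomial.X 1
noncomputable def rho : AA →+* BB := MvPolynomial.eval ![pS.ev XX YY0, -(pB 0).ev XX YY0]
noncomputable def gg : BB := -(tt (-2) * pR.ev XX YY0)
noncomputable def u1 : AA := io (tt (-3)) * uu
noncomputable def w1 : AA := io (tt 6) * ww + io gg * uu

theorem bd0 {a b : ℕ} (P : BP a b) : Bd K0 a (P.ev XX YY0) := Bd.ev P K0.one_mem T_mem0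
theorem bd1 {a b : ℕ} (P : BP a b) : Bd K1 a (P.ev XX YY1) := Bd.ev P T_mem1 K1.one_mem

theorem bd_tt (n : ℤ) : Bd ⊤ 0 (tt n) := Bd.const trivial

theorem bd_gg : Bd ⊤ 3 gg := ((bd_tt _).mul (bd0 pR).top).neg

theorem ev1 {a b : ℕ} (P : BP a b) : P.ev XX YY1 = tt (-b) * P.ev XX YY0 := by
  rw [YY1_eq, BP.ev_smul_right, tt_pow]; simp

theorem rho_io (f : BB) : rho (io f) = f := by simp [rho, io]
theorem rho_uu : rho uu = pS.ev XX YY0 := by simp [rho, uu]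
theorem rho_ww : rho ww = -(pB 0).ev XX YY0 := by simp [rho, ww]

theorem tt_key : tt (-2) * (pB 1).ev XX YY0 =
    tt 6 * (pB 0).ev XX YY0 + tt (-2) * (pS.ev XX YY0 * pR.ev XX YY0) := by
  have h := idR XX YY0
  have h0 : YY0 0 = 1 := by simp [YY0]
  have h1 : YY0 1 = tt 1 := rfl
  have h2 : tt (-2) * tt 1 ^ 8 = tt 6 := by rw [tt_pow, ← tt_add]; rfl
  rw [h0, h1] at h
  linear_combination tt (-2) * h + (pB 0).ev XX YY0 * h2

noncomputable def CD0 : CD K0 io rho uu ww where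
  s := pS.ev XX YY0
  p := (pB 0).ev XX YY0
  A0 := (pA 0).ev XX YY0
  A1 := (pA 1).ev XX YY0
  Q0 := (pQ 0 0).ev XX YY0
  Q1 := (pQ 1 0).ev XX YY0
  hs := bd0 _
  hp := bd0 _
  hA0 := bd0 _
  hA1 := bd0 _
  hQ0 := bd0 _
  hQ1 := bd0 _
  ri := rho_io
  ru := rho_uu
  rw := rho_ww
  e0 := by simpa [XX, YY0] using idQ 0 0 XX YY0
  e1 := by simpa [XX, YY0] using idQ 1 0 XX YY0

noncomputable def CD1 : CD K1 io rho u1 w1 where
  s := pS.ev XX YY1
  p := (pB 1).ev XX YY1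
  A0 := (pA 0).ev XX YY1
  A1 := (pA 1).ev XX YY1
  Q0 := (pQ 0 1).ev XX YY1
  Q1 := (pQ 1 1).ev XX YY1
  hs := bd1 _
  hp := bd1 _
  hA0 := bd1 _
  hA1 := bd1 _
  hQ0 := bd1 _
  hQ1 := bd1 _
  ri := rho_io
  ru := by rw [u1, map_mul, rho_io, rho_uu, ev1]; rfl
  rw := by
    rw [w1, map_add, map_mul, map_mul, rho_io, rho_io, rho_uu, rho_ww, ev1, gg]
    have := tt_key
    push_cast
    linear_combination this
  e0 := by simpa [XX, YY1] using idQ 0 1 XX YY1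
  e1 := by simpa [XX, YY1] using idQ 1 1 XX YY1

noncomputable def CDT : CD ⊤ io rho uu ww :=
  { CD0 with
    hs := CD0.hs.top, hp := CD0.hp.top, hA0 := CD0.hA0.top, hA1 := CD0.hA1.top,
    hQ0 := CD0.hQ0.top, hQ1 := CD0.hQ1.top }

theorem v_rel : CD0.v = io (tt (-3)) * CD1.v := by
  have h := congrArg io tt_key
  have h1 : io (tt (-3)) * io (tt (-3)) * io (tt 6) = 1 := by
    rw [← map_mul, ← map_mul, ← tt_add, ← tt_add]; simp [tt_zero]
  simp only [CD.v, CD0, CD1, u1, w1, gg, ev1, map_mul, map_neg, map_add] at h ⊢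
  push_cast
  linear_combination (-io (tt (-3)) * io (tt (-3)) * uu) * h -
    (io ((pB 0).ev XX YY0) * uu + io (pS.ev XX YY0) * ww) * h1

theorem deg_s : CD0.s.natDegree = 3 := by
  let φ : KK →+* ℂ := LaurentPolynomial.eval₂ (RingHom.id ℂ) 1
  have hφ : ∀ c : ℂ, φ (algebraMap ℂ KK c) = c := fun c => by
    rw [← LaurentPolynomial.C_eq_algebraMap]; exact LaurentPolynomial.eval₂_C _ _ c
  have hT : φ (T 1) = 1 := by simp [φ]
  set q := algebraMap ℂ KK qq with hq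
  have e : CD0.s = (Polynomial.C (-1) * Polynomial.X + Polynomial.C (T 1)) *
      (Polynomial.C (-(q + 1) * (T 1 + 1)) * Polynomial.X + Polynomial.C ((q - 1) * (T 1 - 1))) *
      (Polynomial.C ((q - 1) * T 1 - (q + 1)) * Polynomial.X +
        Polynomial.C ((q - 1) * T 1 + (q + 1))) := by
    have : algebraMap ℂ BB qq = Polynomial.C q := rfl
    simp only [CD0, idSig, this, XX, YY0, Matrix.cons_val_zero, Matrix.cons_val_one, map_add,
      map_mul, map_sub, map_neg, map_one]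
    ring
  have n1 : (-1 : KK) ≠ 0 := by simp
  have n2 : -(q + 1) * (T 1 + 1) ≠ 0 := by
    intro h
    have := congrArg φ h
    simp only [map_mul, map_neg, map_add, hq, hφ, hT, map_one, map_zero] at this
    have h2 := congrArg Complex.re this
    have := qr_pos
    simp [qq] at h2
    linarith
  have n3 : (q - 1) * T 1 - (q + 1) ≠ 0 := by
    intro h
    have := congrArg φ h
    simp only [map_mul, map_sub, map_add, hq, hφ, hT, map_one, map_zero] at this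
    have h2 : (2 : ℂ) = 0 := by linear_combination -this
    norm_num at h2
  have nz : ∀ {a b : KK}, a ≠ 0 → Polynomial.C a * Polynomial.X + Polynomial.C b ≠ 0 := by
    intro a b ha h
    have := natDegree_linear (b := b) ha
    rw [h] at this
    simp at this
  rw [e, natDegree_mul (mul_ne_zero (nz n1) (nz n2)) (nz n3), natDegree_mul (nz n1) (nz n2),
    natDegree_linear n1, natDegree_linear n2, natDegree_linear n3]

theorem to_top {j a : ℕ} {F : AA} (h : NN K1 io u1 w1 j a F) : NN ⊤ io uu ww j a F :=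
  NN.frame bd_gg h

theorem smul_tt {j a : ℕ} {F : AA} (n : ℤ) (h : NN ⊤ io uu ww j a F) :
    NN ⊤ io uu ww j a (io (tt n) * F) := by
  simpa using NN.smul (bd_tt n) h

theorem uu_rel (b : ℤ) : uu * io (tt (b - 3)) = io (tt b) * u1 := by
  rw [u1, ← mul_assoc, ← map_mul, ← tt_add, mul_comm]; rfl

theorem v_rel' (b : ℤ) : CD0.v * io (tt (b + 3)) = io (tt b) * CD1.v := by
  rw [v_rel, mul_right_comm, ← map_mul, ← tt_add]; congr 3; ring

theorem w1_pow (j : ℕ) : ∃ G, NN ⊤ io uu ww j 3 G ∧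
    w1 ^ (j + 1) = io (tt (6 * (j + 1))) * ww ^ (j + 1) + uu * G := by
  obtain ⟨G, hG, h⟩ := NN.pow_w' (ι := io) (u := uu) (w := ww) (c2 := T 6) bd_gg j
  refine ⟨G, hG, ?_⟩
  have : io (tt (6 * (j + 1))) = io (tt 6) ^ (j + 1) := by
    rw [← map_pow, tt_pow]; congr 2; push_cast; ring
  rw [this]; exact h

/-- Every section on the overlap is a difference of sections on the two charts. -/
def VV (j a : ℕ) (b : ℤ) : Prop := ∀ F, NN ⊤ io uu ww j a F →
  ∃ F0 F1, NN K0 io uu ww j a F0 ∧ NN K1 io u1 w1 j a F1 ∧ F = F0 + io (tt b) * F1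

theorem VV_zero (a : ℕ) (b : ℤ) (hb : -1 ≤ b) : VV 0 a b := by
  rintro F ⟨f, hf, rfl⟩
  obtain ⟨f0, f1, h0, h1, rfl⟩ := split_Bd b hb a f hf
  exact ⟨_, _, ⟨f0, h0, rfl⟩, ⟨f1, h1, rfl⟩, by simp⟩

theorem VV_u (j a : ℕ) (b : ℤ) (hb : -1 ≤ b) (h : VV j (a + 3) (b - 3)) : VV (j + 1) a b := by
  rintro F ⟨f, F', hf, hF', rfl⟩
  obtain ⟨f0, f1, h0, h1, rfl⟩ := split_Bd (b + 6 * (j + 1)) (by omega) a f hf
  obtain ⟨G, hG, e⟩ := w1_pow j
  obtain ⟨G0, G1, g0, g1, e2⟩ := h _ (hF'.sub (smul_tt b (NN.smul h1.top hG)))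
  refine ⟨_, _, (NN.base h0).add g0.mul_u, (NN.base h1).add g1.mul_u, ?_⟩
  rw [e, map_add, map_mul, tt_add, map_mul]
  linear_combination uu * e2 + G1 * uu_rel b

theorem VV_v (j a : ℕ) (b : ℤ) (ha : 6 ≤ a) (hb : -1 ≤ b) (h : VV j a (b + 3)) :
    VV (j + 1) (a + 3) b := by
  intro F hF
  obtain ⟨g0, g1, h0, h1, e⟩ := split_Bd b hb _ _ (CDT.rho_bd hF)
  obtain ⟨F0, a0, r0⟩ := CD0.lift (j + 1) (a + 3) (by omega) g0 h0
  obtain ⟨F1, a1, r1⟩ := CD1.lift (j + 1) (a + 3) (by omega) g1 h1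
  obtain ⟨G, hG, e2⟩ := CD0.ker deg_s j a _ ((hF.sub a0.top).sub (smul_tt b (to_top a1))) (by
    rw [map_sub, map_sub, map_mul, rho_io, r0, r1, e]; ring)
  obtain ⟨G0, G1, b0, b1, rfl⟩ := h G hG
  refine ⟨_, _, a0.add (CD0.mul_v b0), a1.add (CD1.mul_v b1), ?_⟩
  linear_combination e2 + G1 * v_rel' b

theorem VV_all (j : ℕ) : (∀ a b, 9 ≤ a → -1 ≤ b → VV j a b) ∧
    (∀ a b, 6 ≤ a → 2 ≤ b → VV j a b) := by
  induction j with
  | zero => exact ⟨fun a b _ hb => VV_zero a b hb, fun a b _ hb => VV_zero a b (by omega)⟩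
  | succ j ih =>
    constructor
    · intro a b ha hb
      obtain ⟨a, rfl⟩ : ∃ a', a = a' + 3 := ⟨a - 3, by omega⟩
      exact VV_v j a b (by omega) hb (ih.2 a (b + 3) (by omega) (by omega))
    · intro a b ha hb
      exact VV_u j a b (by omega) (ih.1 (a + 3) (b - 3) (by omega) (by omega))

theorem bdX (K' : Subalgebra ℂ KK) (a : Fin 2) : Bd K' 1 (XX a) := by
  fin_cases a
  · exact Bd.one.mono (by omega)
  · exact Bd.var

theorem bdY0 (b : Fin 2) : Bd K0 0 (YY0 b) := by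
  fin_cases b
  · exact Bd.const K0.one_mem
  · exact Bd.const T_mem0

theorem bdY1 (b : Fin 2) : Bd K1 0 (YY1 b) := by
  fin_cases b
  · exact Bd.const T_mem1
  · exact Bd.const K1.one_mem

theorem YY_pow (b : Fin 2) (n : ℕ) : YY0 b ^ n = tt n * YY1 b ^ n := by
  rw [YY0_eq, Pi.smul_apply, smul_eq_mul, mul_pow, tt_pow]; simp

theorem secU (j : ℕ) (a b : Fin 2) : ∃ F0 F1 G, NN K0 io uu ww (j + 1) 9 F0 ∧
    NN K1 io u1 w1 (j + 1) 9 F1 ∧ F0 = io (tt 9) * F1 ∧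
    F0 = io (XX a ^ 9 * YY0 b ^ (9 + 6 * (j + 1))) * ww ^ (j + 1) + uu * G := by
  have h0 : Bd K0 9 (XX a ^ 9 * YY0 b ^ (9 + 6 * (j + 1))) := by
    simpa using ((bdX K0 a).pow 9).mul ((bdY0 b).pow _)
  have h1 : Bd K1 9 (XX a ^ 9 * YY1 b ^ (9 + 6 * (j + 1))) := by
    simpa using ((bdX K1 a).pow 9).mul ((bdY1 b).pow _)
  obtain ⟨G, hG, e⟩ := w1_pow j
  obtain ⟨G0, G1, g0, g1, e2⟩ := (VV_all j).1 12 (9 - 3) (by omega) (by omega) _
    (smul_tt 9 (NN.smul h1.top hG))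
  refine ⟨_, _, G0, (NN.base h0).add (NN.mul_u g0), (NN.base h1).sub (NN.mul_u g1), ?_, rfl⟩
  have e3 : io (YY0 b ^ (9 + 6 * (j + 1))) =
      io (tt 9) * io (tt (6 * (j + 1))) * io (YY1 b ^ (9 + 6 * (j + 1))) := by
    rw [YY_pow, ← map_mul, ← map_mul, ← tt_add]; push_cast; rfl
  rw [map_mul] at e2
  rw [e, map_mul, map_mul, e3]
  linear_combination -uu * e2 - G1 * uu_rel 9

theorem secV (j : ℕ) (a b : Fin 2) : ∃ F0 F1, NN K0 io uu ww (j + 1) 9 F0 ∧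
    NN K1 io u1 w1 (j + 1) 9 F1 ∧ F0 = io (tt 9) * F1 ∧
    rho F0 = XX a ^ (9 + 6 * (j + 1)) * YY0 b ^ 9 := by
  have h0 : Bd K0 (9 + 6 * (j + 1)) (XX a ^ (9 + 6 * (j + 1)) * YY0 b ^ 9) := by
    simpa using ((bdX K0 a).pow _).mul ((bdY0 b).pow 9)
  have h1 : Bd K1 (9 + 6 * (j + 1)) (XX a ^ (9 + 6 * (j + 1)) * YY1 b ^ 9) := by
    simpa using ((bdX K1 a).pow _).mul ((bdY1 b).pow 9)
  obtain ⟨F0, a0, r0⟩ := CD0.lift (j + 1) 9 le_rfl _ h0
  obtain ⟨F1, a1, r1⟩ := CD1.lift (j + 1) 9 le_rfl _ h1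
  obtain ⟨G, hG, e2⟩ := CD0.ker deg_s j 6 _ (a0.top.sub (smul_tt 9 (to_top a1))) (by
    rw [map_sub, map_mul, rho_io, r0, r1, YY_pow]; push_cast; ring)
  obtain ⟨G0, G1, b0, b1, rfl⟩ := (VV_all j).2 6 (9 + 3) le_rfl (by omega) G hG
  refine ⟨_, _, a0.sub (CD0.mul_v b0), a1.add (CD1.mul_v b1), ?_, ?_⟩
  · linear_combination e2 + G1 * v_rel' 9
  · rw [map_sub, map_mul, CD0.rho_v, r0]; ring

end Vale.Agent.P296
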