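import Vale.Agent.P296.Dyn3

/-! For a suitable `m` the bundle `E m` has no Griffiths positive metric. -/

namespace Vale.Agent.P296

open Matrix Filter Topology

theorem HermMetric.isPD {E : HolBundle 2} (h : HermMetric E) (α : Fin 2 × Fin 2) (z : V) :
    IsPD (h.H α z) := ⟨h.herm α z, h.pos α z⟩

theorem HermMetric.trans {E : HolBundle 2} (h : HermMetric E) {α β : Fin 2 × Fin 2} {z w : V}
    (hc : chart α z = chart β w) (φ : V) :
    dn (h.H α z) (φ ᵥ* E.T α β z) = dn (h.H β w) φ := by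
  refine dn_trans (S := E.T β α w) ?_ (h.compat α β z w hc) φ
  rw [E.cocycle α β α z w hc ⟨z, rfl⟩, E.self]

theorem GriffithsPos.dir {E : HolBundle 2} {h : HermMetric E} (hG : GriffithsPos h)
    (α : Fin 2 × Fin 2) (z : V) (j : Fin 2) (v : V) (hv0 : v ≠ 0) :
    0 < (star v ⬝ᵥ (h.H α z *ᵥ (curv (h.H α) j j z *ᵥ v))).re := by
  have := hG α z (Pi.single j 1) v (by simp) hv0
  generalize hF : (fun j k => star v ⬝ᵥ (h.H α z *ᵥ (curv (h.H α) j k z *ᵥ v))) = F at this
  have h1 : ∀ j k, star v ⬝ᵥ (h.H α z *ᵥ (curv (h.H α) j k z *ᵥ v)) = F j k := by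
    intro j k; rw [← hF]
  simp only [h1] at this ⊢
  fin_cases j <;> simpa [Fin.sum_univ_two] using this

theorem GriffithsPos.nomax {E : HolBundle 2} {h : HermMetric E} (hG : GriffithsPos h)
    (α : Fin 2 × Fin 2) (j : Fin 2) (c : ℂ → V) (s0 : ℂ)
    (hc : ∀ u, c (s0 + u) = c s0 + Pi.single j u) (ψ : ℂ → V)
    (hψ : ∀ i, AnalyticAt ℂ (fun s => ψ s i) s0) (h0 : ψ s0 ≠ 0) :
    ¬ IsLocalMax (fun s => dn (h.H α (c s)) (ψ s)) s0 := by
  intro hmax
  refine no_max (h.smooth α) (h.isPD α) j (c s0) (hG.dir α (c s0) j) (fun u => ψ (s0 + u))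
    (fun i => AnalyticAt.comp_of_eq (g := fun s => ψ s i) (hψ i)
      (analyticAt_const.add analyticAt_id) (by simp)) (by simpa using h0) ?_
  have h1 : IsLocalMax (fun s => dn (h.H α (c s)) (ψ s)) ((fun u => s0 + u) 0) := by
    simpa using hmax
  have h2 := IsLocalMax.comp_continuous (g := fun u => s0 + u) h1 (by fun_prop)
  simpa only [Function.comp_def, hc] using h2

theorem chart_x (a b : Fin 2) {s : ℂ} (t : ℂ) (hs : s ≠ 0) :
    chart (a, b) ![s, t] = chart (a.rev, b) ![s⁻¹, t] := by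
  rw [chart_eq_iff]
  simp only [cons_val_zero, cons_val_one, hv_rev, hv_self, one_smul, and_true]
  exact hv_flip a hs

theorem chart_y (a b : Fin 2) (s : ℂ) {t : ℂ} (ht : t ≠ 0) :
    chart (a, b) ![s, t] = chart (a, b.rev) ![s, t⁻¹] := by
  rw [chart_eq_iff]
  simp only [cons_val_zero, cons_val_one, hv_rev, hv_self, one_smul, true_and]
  exact hv_flip b ht

theorem l1_T (m : ℕ) (x y : V) (a' b b' : Fin 2) :
    l1 ᵥ* TT m x y a' b b' = d1 m (x a') (y b') • l1 := by
  funext i; fin_cases i <;> simp [l1, TT]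

theorem tau_T (m : ℕ) (x y : V) (a' b : Fin 2) :
    tau ᵥ* TT m x y a' b b = d0 m (x a') (y b) • tau := by
  funext i; fin_cases i <;> simp [tau, TT, eps]

theorem B_flip (b : Fin 2) (X : V) {T : ℂ} (hT : T ≠ 0) :
    pS.ev X (hv b T) * (eps b b.rev * ee X (hv b T)) =
      (pB b.rev).ev X (hv b T) * (T⁻¹) ^ 8 - (pB b).ev X (hv b T) := by
  have h := idR X (hv b T)
  fin_cases b
  · simp only [Fin.zero_eta, hv_zero, cons_val_zero, cons_val_one, one_pow, mul_one] at h
    simp only [Fin.zero_eta, hv_zero, eps, ee, Fin.rev_zero, cons_val_zero, cons_val_one]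
    simp only [Fin.last, Fin.mk_one, Fin.val_one, Nat.cast_one, Nat.cast_zero]
    field_simp
    linear_combination -h
  · simp only [Fin.mk_one, hv_one, cons_val_zero, cons_val_one, one_pow, mul_one] at h
    have e : (1 : Fin 2).rev = 0 := rfl
    simp only [Fin.mk_one, hv_one, eps, ee, e, cons_val_zero, cons_val_one]
    simp only [Fin.val_zero, Nat.cast_one, Nat.cast_zero]
    field_simp
    linear_combination h

theorem l2_T (m : ℕ) (a b : Fin 2) (s : ℂ) {t : ℂ} (ht : t ≠ 0) :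
    l2 b.rev (hv a (s ^ m)) (hv b.rev (t⁻¹ ^ m)) ᵥ* TT m (hv a s) (hv b t) a b b.rev =
      t⁻¹ • l2 b (hv a (s ^ m)) (hv b (t ^ m)) := by
  have hT := pow_ne_zero m ht
  have e1 : hv b.rev (t⁻¹ ^ m) = (t ^ m)⁻¹ • hv b (t ^ m) := by
    rw [hv_flip b hT, smul_smul, inv_mul_cancel₀ hT, one_smul, inv_pow]
  have h := B_flip b (hv a (s ^ m)) hT
  rw [e1]
  funext i
  fin_cases i
  · simp [l2, TT, BP.ev_smul_right, d0]
    field_simp
  · simp only [l2, TT, BP.ev_smul_right, d0, d1, hv_pow, hv_self, hv_rev, vecMul, dotProduct,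
      Fin.sum_univ_two, Fin.mk_one, cons_val_zero, cons_val_one, of_apply, cons_val', Pi.smul_apply,
      smul_eq_mul, cons_val_fin_one, one_pow, inv_one]
    have h3 : (t ^ m)⁻¹ ^ 3 * (t ^ m) ^ 3 = 1 := by field_simp
    linear_combination t⁻¹ * h + t⁻¹ * pS.ev (hv a (s ^ m)) (hv b (t ^ m)) *
      (eps b b.rev * ee (hv a (s ^ m)) (hv b (t ^ m))) * h3

theorem norm_solve {c : ℂ} {x y k : ℝ} (hk : k * ‖c‖ = 1) (h : ‖c‖ * x = y) : x = k * y := by
  rw [← h, ← mul_assoc, hk, one_mul]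

noncomputable def toND {m : ℕ} {h : HermMetric (EE m)} (hG : GriffithsPos h) : ND m where
  N a b s t φ := dn (h.H (a, b) ![s, t]) φ
  add_le a b s t := (h.isPD _ _).dn_add_le
  smul a b s t := dn_smul _
  pos a b s t φ := (h.isPD _ _).dn_pos
  cont a b := (continuous_dn (h.smooth (a, b)) (h.isPD (a, b))).comp
    (f := fun p : (ℂ × ℂ) × V => (![p.1.1, p.1.2], p.2)) (by fun_prop)
  nmx a b t s0 := hG.nomax (a, b) 0 (fun s => ![s, t]) s0 (fun u => by
    funext i; fin_cases i <;> simp)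
  nmy a b s t0 := hG.nomax (a, b) 1 (fun t => ![s, t]) t0 (fun u => by
    funext i; fin_cases i <;> simp)
  tx1 a b s t hs := by
    have h1 := h.trans (chart_x a b t hs) l1
    simp only [EE, l1_T, dn_smul, cons_val_zero, cons_val_one, hv_rev, hv_self] at h1
    refine norm_solve ?_ h1
    have := norm_ne_zero_iff.mpr hs
    simp [d1, this]
  txt a b s t hs := by
    have h1 := h.trans (chart_x a b t hs) tau
    simp only [EE, tau_T, dn_smul, cons_val_zero, cons_val_one, hv_rev, hv_self] at h1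
    refine norm_solve ?_ h1
    have := norm_ne_zero_iff.mpr hs
    simp only [d0, norm_mul, norm_inv, norm_pow, norm_one]
    field_simp
    ring
  ty1 a b s t ht := by
    have h1 := h.trans (chart_y a b s ht) l1
    simp only [EE, l1_T, dn_smul, cons_val_zero, cons_val_one, hv_rev, hv_self] at h1
    refine norm_solve ?_ h1
    have := norm_ne_zero_iff.mpr ht
    simp only [d1, norm_mul, norm_inv, norm_pow, norm_one]
    field_simp
    ring
  ty2 a b s t ht := by
    have h1 := h.trans (chart_y a b s ht) (l2 b.rev (hv a (s ^ m)) (hv b.rev (t⁻¹ ^ m)))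
    simp only [EE, cons_val_zero, cons_val_one, l2_T m a b s ht, dn_smul] at h1
    refine norm_solve ?_ h1
    have := norm_ne_zero_iff.mpr ht
    simp [this]

theorem no_metric : ∃ m : ℕ, 0 < m ∧ ∀ h : HermMetric (EE m), ¬ GriffithsPos h := by
  obtain ⟨m, hm, h⟩ := no_ND
  exact ⟨m, hm, fun _ hG => h (toND hG)⟩

end Vale.Agent.P296
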