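import Vale.Agent.P296.Cech
import Vale.Agent.P296.NoMetric

/-! From algebraic sections to entire functions. -/

namespace Vale.Agent.P296

open Matrix

structure Hol (j a : ℕ) (S : V → ℂ → V → ℂ) : Prop where
  diff : Differentiable ℂ (fun p : V × ℂ × V => S p.1 p.2.1 p.2.2)
  homX : ∀ (k : ℂ) X T φ, S (k • X) T φ = k ^ a * S X T ![k ^ 3 * φ 0, φ 1]
  homP : ∀ (c : ℂ) X T φ, S X T (c • φ) = c ^ j * S X T φ

/-- A section of the `j`-th symmetric power of the basic bundle twisted by `(a, b)`. -/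
structure IsG (j a b : ℕ) (S : Fin 2 → V → ℂ → V → ℂ) : Prop where
  hol : ∀ c, Hol j a (S c)
  glue : ∀ X (t : ℂ) φ, t ≠ 0 → S 0 X t φ =
    t ^ b * S 1 X t⁻¹ ![t⁻¹ ^ 3 * φ 0, t ^ 6 * (φ 1 - ee X (hv 0 t) * φ 0)]

theorem Hol.cont {j a : ℕ} {S : V → ℂ → V → ℂ} (h : Hol j a S) {E : Type*} [TopologicalSpace E]
    {X : E → V} {T : E → ℂ} {φ : E → V} (hX : Continuous X) (hT : Continuous T)
    (hφ : Continuous φ) : Continuous (fun e => S (X e) (T e) (φ e)) :=
  h.diff.continuous.comp (hX.prodMk (hT.prodMk hφ))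

theorem densX {f g : V → ℂ} (hf : Continuous f) (hg : Continuous g)
    (h : ∀ (k x : ℂ), k ≠ 0 → f (k • ![1, x]) = g (k • ![1, x])) (X : V) : f X = g X := by
  have hd : Dense ((fun X : V => X 0) ⁻¹' {0}ᶜ) :=
    (dense_compl_singleton (0 : ℂ)).preimage (isOpenMap_eval (X := fun _ => ℂ) 0)
  refine congrFun (Continuous.ext_on hd hf hg fun X hX => ?_) X
  have h0 : X 0 ≠ 0 := hX
  have : X = X 0 • ![1, X 1 / X 0] := by
    funext i; fin_cases i
    · simp
    · simp; field_simp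
  rw [this]; exact h _ _ h0

theorem densT {f g : ℂ → ℂ} (hf : Continuous f) (hg : Continuous g)
    (h : ∀ t, t ≠ 0 → f t = g t) (t : ℂ) : f t = g t :=
  congrFun (Continuous.ext_on (dense_compl_singleton (0 : ℂ)) hf hg fun t ht => h t ht) t

noncomputable def evK (t : ℂˣ) : KK →+* ℂ := LaurentPolynomial.eval₂ (RingHom.id ℂ) t
noncomputable def evB (x : ℂ) (t : ℂˣ) : BB →+* ℂ := Polynomial.eval₂RingHom (evK t) x
noncomputable def evA (x : ℂ) (t : ℂˣ) (φ : V) : AA →+* ℂ := MvPolynomial.eval₂Hom (evB x t) φ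

theorem evK_alg (t : ℂˣ) (c : ℂ) : evK t (algebraMap ℂ KK c) = c := by
  rw [← LaurentPolynomial.C_eq_algebraMap]; exact LaurentPolynomial.eval₂_C _ _ c

theorem evK_T (t : ℂˣ) (n : ℤ) : evK t (LaurentPolynomial.T n) = (t : ℂ) ^ n := by
  simp [evK]

theorem evB_C (x : ℂ) (t : ℂˣ) (k : KK) : evB x t (Polynomial.C k) = evK t k := by simp [evB]

theorem evB_X (x : ℂ) (t : ℂˣ) : evB x t Polynomial.X = x := by simp [evB]

theorem evB_tt (x : ℂ) (t : ℂˣ) (n : ℤ) : evB x t (tt n) = (t : ℂ) ^ n := by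
  rw [tt, evB_C, evK_T]

theorem evB_XX (x : ℂ) (t : ℂˣ) : (fun i => evB x t (XX i)) = ![1, x] := by
  funext i; fin_cases i <;> simp [XX, evB_X]

theorem evB_YY0 (x : ℂ) (t : ℂˣ) : (fun i => evB x t (YY0 i)) = hv 0 t := by
  funext i; fin_cases i <;> simp [YY0, evB_C, evK_T, hv]

theorem evB_ev {a b : ℕ} (P : BP a b) (x : ℂ) (t : ℂˣ) :
    evB x t (P.ev XX YY0) = P.ev ![1, x] (hv 0 t) := by
  rw [P.map_ev (evB x t) (fun c => (evB_C x t _).trans (evK_alg t c)), evB_XX, evB_YY0]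

theorem evA_io (x : ℂ) (t : ℂˣ) (φ : V) (f : BB) : evA x t φ (io f) = evB x t f := by
  simp [evA, io]

theorem evA_uu (x : ℂ) (t : ℂˣ) (φ : V) : evA x t φ uu = φ 0 := by simp [evA, uu]

theorem evA_ww (x : ℂ) (t : ℂˣ) (φ : V) : evA x t φ ww = φ 1 := by simp [evA, ww]

theorem evA_u1 (x : ℂ) (t : ℂˣ) (φ : V) : evA x t φ u1 = (t : ℂ)⁻¹ ^ 3 * φ 0 := by
  rw [u1, map_mul, evA_io, evA_uu, evB_tt]
  congr 1
  rw [inv_pow, _root_.zpow_neg]; rfl

theorem evA_w1 (x : ℂ) (t : ℂˣ) (φ : V) :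
    evA x t φ w1 = (t : ℂ) ^ 6 * (φ 1 - ee ![1, x] (hv 0 t) * φ 0) := by
  rw [w1, map_add, map_mul, map_mul, evA_io, evA_io, evA_uu, evA_ww, gg, map_neg, map_mul,
    evB_tt, evB_tt, evB_ev]
  have := t.ne_zero
  simp only [ee, hv_zero, cons_val_zero, cons_val_one, _root_.zpow_neg, zpow_ofNat]
  field_simp
  ring

theorem evA_rho (x : ℂ) (t : ℂˣ) (F : AA) :
    evA x t (l2 0 ![1, x] (hv 0 t)) F = evB x t (rho F) := by
  have : evA x t (l2 0 ![1, x] (hv 0 t)) = (evB x t).comp rho := by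
    refine MvPolynomial.ringHom_ext (fun f => ?_) (fun i => ?_)
    · exact (evA_io x t _ f).trans (congrArg _ (rho_io f).symm)
    · fin_cases i
      · refine (evA_uu x t _).trans ?_
        change _ = evB x t (rho uu)
        rw [rho_uu, evB_ev]; rfl
      · refine (evA_ww x t _).trans ?_
        change _ = evB x t (rho ww)
        rw [rho_ww, map_neg, evB_ev]; rfl
  rw [this]; rfl

theorem convK (τ k : KK) (hk : k ∈ Algebra.adjoin ℂ {τ}) :
    ∃ c : ℂ → ℂ, Differentiable ℂ c ∧ ∀ t, evK t k = c (evK t τ) := by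
  induction hk using Algebra.adjoin_induction with
  | mem x hx => exact ⟨id, differentiable_id, fun t => by rw [hx]; rfl⟩
  | algebraMap r => exact ⟨fun _ => r, differentiable_const _, fun t => evK_alg t r⟩
  | add x y _ _ h1 h2 =>
    obtain ⟨c, hc, e⟩ := h1
    obtain ⟨d, hd, f⟩ := h2
    exact ⟨fun s => c s + d s, hc.add hd, fun t => by rw [map_add, e, f]⟩
  | mul x y _ _ h1 h2 =>
    obtain ⟨c, hc, e⟩ := h1
    obtain ⟨d, hd, f⟩ := h2
    exact ⟨fun s => c s * d s, hc.mul hd, fun t => by rw [map_mul, e, f]⟩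

theorem convB (τ : KK) (a : ℕ) (f : BB) (hf : Bd (Algebra.adjoin ℂ {τ}) a f) :
    ∃ s : V → ℂ → ℂ, Differentiable ℂ (fun p : V × ℂ => s p.1 p.2) ∧
      (∀ (k : ℂ) X T, s (k • X) T = k ^ a * s X T) ∧ ∀ x t, evB x t f = s ![1, x] (evK t τ) := by
  induction a generalizing f with
  | zero =>
    obtain ⟨k, hk, rfl⟩ := hf.split0
    obtain ⟨c, hc, e⟩ := convK τ k hk
    exact ⟨fun _ T => c T, hc.comp differentiable_snd, by simp, fun x t => by rw [evB_C, e]⟩
  | succ a ih =>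
    obtain ⟨k, hk, g, hg, rfl⟩ := hf.split1
    obtain ⟨c, hc, e⟩ := convK τ k hk
    obtain ⟨s, hs, h1, h2⟩ := ih g hg
    refine ⟨fun X T => c T * X 0 ^ (a + 1) + X 1 * s X T, by fun_prop, fun k X T => ?_,
      fun x t => ?_⟩
    · simp only [h1, Pi.smul_apply, smul_eq_mul]; ring
    · rw [map_add, map_mul, evB_C, evB_X, e, h2]; simp

theorem convN (τ : KK) (u w : AA) (j a : ℕ) (F : AA)
    (hF : NN (Algebra.adjoin ℂ {τ}) io u w j a F) :
    ∃ S, Hol j a S ∧ ∀ x t φ, evA x t φ F = S ![1, x] (evK t τ) ![evA x t φ u, evA x t φ w] := by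
  induction j generalizing a F with
  | zero =>
    obtain ⟨f, hf, rfl⟩ := hF
    obtain ⟨s, hs, h1, h2⟩ := convB τ a f hf
    exact ⟨fun X T _ => s X T, ⟨hs.comp (f := fun p : V × ℂ × V => (p.1, p.2.1)) (by fun_prop),
      fun k X T φ => h1 k X T, by simp⟩, fun x t φ => by rw [evA_io, h2]⟩
  | succ j ih =>
    obtain ⟨f, F', hf, hF', rfl⟩ := hF
    obtain ⟨s, hs, h1, h2⟩ := convB τ a f hf
    obtain ⟨S, hS, h3⟩ := ih (a + 3) F' hF'
    have d1 : Differentiable ℂ (fun p : V × ℂ × V => s p.1 p.2.1) :=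
      hs.comp (f := fun p : V × ℂ × V => (p.1, p.2.1)) (by fun_prop)
    have d2 := hS.diff
    refine ⟨fun X T φ => s X T * φ 1 ^ (j + 1) + φ 0 * S X T φ, ⟨by fun_prop, fun k X T φ => ?_,
      fun k X T φ => ?_⟩, fun x t φ => ?_⟩
    · simp only [h1, hS.homX, cons_val_zero, cons_val_one]; ring
    · simp only [hS.homP, Pi.smul_apply, smul_eq_mul]; ring
    · rw [map_add, map_mul, map_mul, map_pow, evA_io, h2, h3]; simp

theorem ee_left (k : ℂ) (X Y : V) : ee (k • X) Y = k ^ 3 * ee X Y := by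
  simpa using ee_smul k 1 X Y

theorem cont_ee (Y : V) : Continuous (fun X => ee X Y) :=
  (pR.cont continuous_id continuous_const).mul continuous_const

theorem isG_of_alg {j : ℕ} {F0 F1 : AA} (h0 : NN K0 io uu ww j 9 F0) (h1 : NN K1 io u1 w1 j 9 F1)
    (h : F0 = io (tt 9) * F1) :
    ∃ S, IsG j 9 9 S ∧ ∀ x (t : ℂˣ) φ, S 0 ![1, x] t φ = evA x t φ F0 := by
  obtain ⟨S0, a0, b0⟩ := convN _ _ _ _ _ _ h0
  obtain ⟨S1, a1, b1⟩ := convN _ _ _ _ _ _ h1
  have e0 : ∀ x (t : ℂˣ) φ, S0 ![1, x] t φ = evA x t φ F0 := by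
    intro x t φ
    rw [b0, evK_T, evA_uu, evA_ww, zpow_one]
    congr 1
    funext i; fin_cases i <;> rfl
  refine ⟨![S0, S1], ⟨Fin.forall_fin_two.mpr ⟨a0, a1⟩, fun X t φ ht => ?_⟩, e0⟩
  simp only [cons_val_zero, cons_val_one]
  have := cont_ee (hv 0 t)
  refine densX (f := fun X => S0 X t φ)
    (g := fun X => t ^ 9 * S1 X t⁻¹ ![t⁻¹ ^ 3 * φ 0, t ^ 6 * (φ 1 - ee X (hv 0 t) * φ 0)])
    (a0.cont continuous_id continuous_const continuous_const)
    (continuous_const.mul (a1.cont continuous_id continuous_const (by fun_prop))) ?_ X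
  intro k x _
  have e1 := e0 x (Units.mk0 t ht) ![k ^ 3 * φ 0, φ 1]
  rw [h, map_mul, evA_io, evB_tt, b1, evK_T, evA_u1, evA_w1] at e1
  simp only [Units.val_mk0, cons_val_zero, cons_val_one, _root_.zpow_neg, zpow_ofNat, pow_one] at e1
  simp only [a0.homX, a1.homX, ee_left, e1, cons_val_zero, cons_val_one]
  rw [mul_left_comm]
  congr 4
  · ring
  · congr 1; ring

theorem exU (j : ℕ) (a b : Fin 2) : ∃ S, IsG (j + 1) 9 9 S ∧
    ∀ c X T w, S c X T ![0, w] = X a ^ 9 * hv c T b ^ (9 + 6 * (j + 1)) * w ^ (j + 1) := by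
  obtain ⟨F0, F1, G, h0, h1, h, e⟩ := secU j a b
  obtain ⟨S, hS, e0⟩ := isG_of_alg h0 h1 h
  have c0 : ∀ X T w, T ≠ 0 →
      S 0 X T ![0, w] = X a ^ 9 * hv 0 T b ^ (9 + 6 * (j + 1)) * w ^ (j + 1) := by
    intro X T w hT
    refine densX (f := fun X => S 0 X T ![0, w])
      (g := fun X => X a ^ 9 * hv 0 T b ^ (9 + 6 * (j + 1)) * w ^ (j + 1))
      ((hS.hol 0).cont continuous_id continuous_const continuous_const) (by fun_prop) ?_ X
    intro k x _
    have e1 := e0 x (Units.mk0 T hT) ![0, w]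
    rw [e, map_add, map_mul, evA_io, map_mul, map_mul, evA_uu, map_pow, map_pow, map_pow, evA_ww,
      congrFun (evB_XX _ _) a, congrFun (evB_YY0 _ _) b] at e1
    simp only [Units.val_mk0, cons_val_zero, cons_val_one, zero_mul, add_zero] at e1
    simp only [(hS.hol 0).homX, cons_val_zero, cons_val_one, mul_zero, e1, Pi.smul_apply,
      smul_eq_mul]
    ring
  refine ⟨S, hS, fun c X T w => ?_⟩
  have := (diff_hv' c b).continuous
  refine densT (f := fun T => S c X T ![0, w])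
    (g := fun T => X a ^ 9 * hv c T b ^ (9 + 6 * (j + 1)) * w ^ (j + 1))
    ((hS.hol c).cont continuous_const continuous_id continuous_const) (by fun_prop) ?_ T
  intro T hT
  fin_cases c
  · exact c0 X T w hT
  · have h2 := hS.glue X T⁻¹ ![0, T ^ 6 * w] (inv_ne_zero hT)
    rw [c0 X _ _ (inv_ne_zero hT)] at h2
    have h3 : T⁻¹ ^ 6 * (T ^ 6 * w) = w := by field_simp
    simp only [cons_val_zero, cons_val_one, mul_zero, sub_zero, inv_inv, h3] at h2
    have h4 : hv 1 T b = T * hv 0 T⁻¹ b := by rw [hv_flip 1 hT]; rfl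
    have h5 : T ^ 9 * T⁻¹ ^ 9 = 1 := by field_simp
    simp only [Fin.mk_one, h4]
    linear_combination -T ^ 9 * h2 - S 1 X T ![0, w] * h5

theorem cont_l2 (c : Fin 2) {E : Type*} [TopologicalSpace E] {X Y : E → V} (hX : Continuous X)
    (hY : Continuous Y) : Continuous (fun e => l2 c (X e) (Y e)) := by
  refine continuous_pi fun j => ?_
  fin_cases j
  · exact pS.cont hX hY
  · exact ((pB c).cont hX hY).neg

theorem exV (j : ℕ) (a b : Fin 2) : ∃ S, IsG (j + 1) 9 9 S ∧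
    ∀ c X T, S c X T (l2 c X (hv c T)) = X a ^ (9 + 6 * (j + 1)) * hv c T b ^ 9 := by
  obtain ⟨F0, F1, h0, h1, h, e⟩ := secV j a b
  obtain ⟨S, hS, e0⟩ := isG_of_alg h0 h1 h
  have c0 : ∀ X T, T ≠ 0 →
      S 0 X T (l2 0 X (hv 0 T)) = X a ^ (9 + 6 * (j + 1)) * hv 0 T b ^ 9 := by
    intro X T hT
    refine densX (f := fun X => S 0 X T (l2 0 X (hv 0 T)))
      (g := fun X => X a ^ (9 + 6 * (j + 1)) * hv 0 T b ^ 9)
      ((hS.hol 0).cont continuous_id continuous_const (cont_l2 0 continuous_id continuous_const))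
      (by fun_prop) ?_ X
    intro k x _
    have e1 := e0 x (Units.mk0 T hT) (l2 0 ![1, x] (hv 0 T))
    rw [show hv 0 T = hv 0 (Units.mk0 T hT) from rfl, evA_rho, e, map_mul, map_pow, map_pow,
      congrFun (evB_XX _ _) a, congrFun (evB_YY0 _ _) b] at e1
    simp only [Units.val_mk0] at e1
    have e2 : ![k ^ 3 * l2 0 (k • ![1, x]) (hv 0 T) 0, l2 0 (k • ![1, x]) (hv 0 T) 1] =
        k ^ 6 • l2 0 ![1, x] (hv 0 T) := by
      funext i
      fin_cases i
      · simp only [l2, BP.ev_smul_left, Fin.zero_eta, cons_val_zero, Pi.smul_apply, smul_eq_mul]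
        ring
      · simp only [l2, BP.ev_smul_left, Fin.mk_one, cons_val_one, cons_val_zero, Pi.smul_apply,
          smul_eq_mul]
        ring
    simp only [(hS.hol 0).homX, e2, (hS.hol 0).homP, e1, Pi.smul_apply, smul_eq_mul]
    ring
  refine ⟨S, hS, fun c X T => ?_⟩
  have := (diff_hv' c b).continuous
  refine densT (f := fun T => S c X T (l2 c X (hv c T)))
    (g := fun T => X a ^ (9 + 6 * (j + 1)) * hv c T b ^ 9)
    ((hS.hol c).cont continuous_const continuous_id (cont_l2 c continuous_const (cont_hv c)))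
    (by fun_prop) ?_ T
  intro T hT
  fin_cases c
  · exact c0 X T hT
  · have h2 := hS.glue X T⁻¹ (l2 0 X (hv 0 T⁻¹)) (inv_ne_zero hT)
    rw [c0 X _ (inv_ne_zero hT)] at h2
    have h4 : hv 1 T = T • hv 0 T⁻¹ := hv_flip 1 hT
    have h6 := B_flip 0 X (inv_ne_zero hT)
    have h3 : ![T⁻¹⁻¹ ^ 3 * l2 0 X (hv 0 T⁻¹) 0,
        T⁻¹ ^ 6 * (l2 0 X (hv 0 T⁻¹) 1 - ee X (hv 0 T⁻¹) * l2 0 X (hv 0 T⁻¹) 0)] =
        l2 1 X (hv 1 T) := by
      rw [h4]
      funext i
      fin_cases i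
      · simp only [l2, BP.ev_smul_right, Fin.zero_eta, cons_val_zero, inv_inv]
      · simp only [l2, BP.ev_smul_right, Fin.mk_one, cons_val_one, cons_val_zero]
        have e5 : (0 : Fin 2).rev = 1 := rfl
        have e6 : eps 0 1 = 1 := by simp [eps]
        rw [e5, e6, inv_inv] at h6
        have h7 : T⁻¹ ^ 6 * T ^ 8 = T ^ 2 := by field_simp
        linear_combination -T⁻¹ ^ 6 * h6 - (pB 1).ev X (hv 0 T⁻¹) * h7
    rw [h3, inv_inv] at h2
    have h5 : T ^ 9 * T⁻¹ ^ 9 = 1 := by field_simp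
    have h8 : hv 1 T b = T * hv 0 T⁻¹ b := by rw [h4]; rfl
    simp only [Fin.mk_one, h8]
    linear_combination -T ^ 9 * h2 - S 1 X T (l2 1 X (hv 1 T)) * h5

end Vale.Agent.P296
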