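import Mathlib

/-! A maximum principle on the projective line, in the two standard charts. -/

namespace Vale.Agent.P296

open Filter Topology

theorem maxP {f : Fin 2 → ℂ → ℝ} {L : Fin 2 → ℂ → ℂ} {d D : ℕ} (hD : 0 < D)
    (hfc : ∀ a, Continuous (f a))
    (hft : ∀ a s, s ≠ 0 → f a s = ‖s‖ ^ d * f a.rev s⁻¹)
    (hnm : ∀ a s0 (g : ℂ → ℂ), AnalyticAt ℂ g s0 → g s0 ≠ 0 →
      ¬ IsLocalMax (fun s => ‖g s‖ * f a s) s0)
    (hL : ∀ a, Differentiable ℂ (L a))
    (hLt : ∀ a s, s ≠ 0 → ‖L a s‖ = ‖s‖ ^ D * ‖L a.rev s⁻¹‖)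
    {C r Mb : ℝ} (hr : 0 < r) (hrC : r ≤ C) (hC : ∀ a s, ‖s‖ ≤ 1 → ‖L a s‖ ≤ C) (hMb : 0 ≤ Mb)
    (hb : ∀ a s, ‖s‖ ≤ 1 → ‖L a s‖ ≤ r → f a s ≤ Mb) (a : Fin 2) (s : ℂ) (hs : ‖s‖ ≤ 1) :
    f a s ≤ Mb * (C / r) ^ ((d : ℝ) / D) := by
  set e : ℝ := (d : ℝ) / D with he
  have he0 : 0 ≤ e := by positivity
  have hDe : (D : ℝ) * e = d := by
    rw [he]; field_simp
  by_cases h1 : ‖L a s‖ ≤ r
  · have h2 : 1 ≤ (C / r) ^ e := Real.one_le_rpow ((one_le_div hr).mpr hrC) he0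
    exact (hb a s hs h1).trans (le_mul_of_one_le_right hMb h2)
  push Not at h1
  let Φ : Fin 2 × ℂ → ℝ := fun p => f p.1 p.2 / ‖L p.1 p.2‖ ^ e
  let K : Set (Fin 2 × ℂ) := {p | ‖p.2‖ ≤ 1 ∧ r ≤ ‖L p.1 p.2‖}
  have hfc' : Continuous (fun p : Fin 2 × ℂ => f p.1 p.2) :=
    continuous_prod_of_discrete_left.mpr hfc
  have hLc' : Continuous (fun p : Fin 2 × ℂ => L p.1 p.2) :=
    continuous_prod_of_discrete_left.mpr (fun a => (hL a).continuous)
  have hK : IsCompact K := by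
    refine (isCompact_univ.prod (isCompact_closedBall (0 : ℂ) 1)).of_isClosed_subset ?_ ?_
    · exact (isClosed_le continuous_snd.norm continuous_const).inter
        (isClosed_le continuous_const hLc'.norm)
    · intro p hp
      simpa using hp.1
  have hΦc : ContinuousOn Φ K := by
    refine hfc'.continuousOn.div (hLc'.norm.continuousOn.rpow_const ?_) ?_
    · intro p _; exact Or.inr he0
    · intro p hp
      exact (Real.rpow_pos_of_pos (hr.trans_le hp.2) _).ne'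
  obtain ⟨⟨b, t⟩, hbt, hmax⟩ := hK.exists_isMaxOn ⟨(a, s), hs, h1.le⟩ hΦc
  have hΦt : ∀ a s, s ≠ 0 → Φ (a, s) = Φ (a.rev, s⁻¹) := by
    intro a s hs0
    have hn : 0 < ‖s‖ := norm_pos_iff.mpr hs0
    simp only [Φ]
    rw [hft a s hs0, hLt a s hs0, Real.mul_rpow (by positivity) (norm_nonneg _),
      ← Real.rpow_natCast ‖s‖ D, ← Real.rpow_mul hn.le, hDe, Real.rpow_natCast,
      mul_div_mul_left _ _ (by positivity)]
  have hle : ‖L b t‖ ≤ r := by
    by_contra hlt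
    push Not at hlt
    have hLne : L b t ≠ 0 := norm_pos_iff.mp (hr.trans hlt)
    have hev1 : ∀ᶠ x in 𝓝 t, r < ‖L b x‖ :=
      (hL b).continuous.norm.continuousAt.eventually (lt_mem_nhds hlt)
    have hev2 : ∀ᶠ x in 𝓝 t, Φ (b, x) ≤ Φ (b, t) := by
      rcases hbt.1.lt_or_eq with h2 | h2
      · have : ∀ᶠ x in 𝓝 t, ‖x‖ < 1 := continuous_norm.continuousAt.eventually (gt_mem_nhds h2)
        filter_upwards [hev1, this] with x hx1 hx2
        exact hmax (a := (b, x)) ⟨hx2.le, hx1.le⟩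
      · have ht0 : t ≠ 0 := by
          intro h; simp [h] at h2
        have h3 : r < ‖L b.rev t⁻¹‖ := by
          have := hLt b t ht0
          simp only at h2
          rw [h2, one_pow, one_mul] at this
          rwa [← this]
        have h4 : ContinuousAt (fun x => ‖L b.rev x⁻¹‖) t :=
          ((hL b.rev).continuous.continuousAt.comp (continuousAt_inv₀ ht0)).norm
        filter_upwards [hev1, h4.eventually (lt_mem_nhds h3)] with x hx1 hx2
        by_cases hx : ‖x‖ ≤ 1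
        · exact hmax (a := (b, x)) ⟨hx, hx1.le⟩
        · push Not at hx
          have hx0 : x ≠ 0 := norm_pos_iff.mp (zero_lt_one.trans hx)
          rw [hΦt b x hx0]
          refine hmax (a := (b.rev, x⁻¹)) ⟨?_, hx2.le⟩
          simp only [norm_inv]
          exact inv_le_one_of_one_le₀ hx.le
    let g : ℂ → ℂ := fun x => (L b x / L b t) ^ (((-e : ℝ)) : ℂ)
    have hga : AnalyticAt ℂ g t := by
      refine AnalyticAt.cpow (((hL b).analyticAt t).div_const) analyticAt_const ?_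
      simp [div_self hLne]
    have hg0 : g t ≠ 0 := by simp [g, div_self hLne]
    refine hnm b t g hga hg0 ?_
    have hgn : ∀ x, L b x ≠ 0 → ‖g x‖ * f b x = ‖L b t‖ ^ e * Φ (b, x) := by
      intro x hx
      have h5 : 0 < ‖L b x‖ := norm_pos_iff.mpr hx
      simp only [g, Φ]
      rw [Complex.norm_cpow_real, norm_div, Real.rpow_neg (by positivity),
        Real.div_rpow (norm_nonneg _) (norm_nonneg _), inv_div]
      ring
    filter_upwards [hev1, hev2] with x hx1 hx2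
    rw [hgn x (norm_pos_iff.mp (hr.trans hx1)), hgn t hLne]
    exact mul_le_mul_of_nonneg_left hx2 (by positivity)
  have h2 : Φ (b, t) ≤ Mb / r ^ e := by
    have h3 : ‖L b t‖ = r := le_antisymm hle hbt.2
    simp only [Φ, h3]
    exact div_le_div_of_nonneg_right (hb b t hbt.1 hle) (by positivity)
  have h3 : Φ (a, s) ≤ Mb / r ^ e := (hmax (a := (a, s)) ⟨hs, h1.le⟩).trans h2
  have h4 : 0 < ‖L a s‖ ^ e := Real.rpow_pos_of_pos (hr.trans h1) _
  have h5 : ‖L a s‖ ^ e ≤ C ^ e := Real.rpow_le_rpow (norm_nonneg _) (hC a s hs) he0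
  simp only [Φ] at h3
  rw [div_le_iff₀ h4] at h3
  rw [Real.div_rpow (hr.le.trans hrC) hr.le]
  calc f a s ≤ Mb / r ^ e * ‖L a s‖ ^ e := h3
    _ ≤ Mb / r ^ e * C ^ e := mul_le_mul_of_nonneg_left h5 (by positivity)
    _ = Mb * (C ^ e / r ^ e) := by ring

/-- A compactness lemma. -/
theorem compact_gap {X : Type*} [TopologicalSpace X] {K : Set X} (hK : IsCompact K)
    {Ψ Λ : X → ℝ} (hΨ : Continuous Ψ) (hΛ : Continuous Λ) (h0 : ∀ x ∈ K, Λ x ≤ 0 → 0 < Ψ x) :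
    ∃ r > 0, ∃ δ > 0, ∀ x ∈ K, Λ x ≤ r → δ ≤ Ψ x := by
  by_cases hne : K.Nonempty
  · obtain ⟨x0, hx0, hmin⟩ := hK.exists_isMinOn hne (hΨ.max hΛ).continuousOn
    have hpos : 0 < max (Ψ x0) (Λ x0) := by
      by_cases h : Λ x0 ≤ 0
      · exact lt_max_of_lt_left (h0 x0 hx0 h)
      · exact lt_max_of_lt_right (not_le.mp h)
    refine ⟨max (Ψ x0) (Λ x0) / 2, by positivity, max (Ψ x0) (Λ x0), hpos, fun x hx h => ?_⟩
    have h1 : max (Ψ x0) (Λ x0) ≤ max (Ψ x) (Λ x) := hmin hx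
    rcases le_max_iff.mp h1 with h2 | h2
    · exact h2
    · linarith
  · exact ⟨1, one_pos, 1, one_pos, fun x hx => (hne ⟨x, hx⟩).elim⟩

end Vale.Agent.P296
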