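import Vale.Agent.P296.Bundle
import Vale.Agent.P296.MaxP

/-! Abstract norm data on the dual of `E m` and the basic estimates. -/

namespace Vale.Agent.P296

open Matrix Filter Topology

def l1 : V := ![0, 1]

def tau : V := ![1, 0]

noncomputable def l2 (b : Fin 2) (X Y : V) : V := ![pS.ev X Y, -(pB b).ev X Y]

theorem l1_ne : l1 ≠ 0 := by
  intro h; have := congrFun h 1; simp [l1] at this

theorem tau_ne : tau ≠ 0 := by
  intro h; have := congrFun h 0; simp [tau] at this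

theorem l2_ne (a b : Fin 2) (S T : ℂ) : l2 b (hv a S) (hv b T) ≠ 0 := by
  intro h
  have h0 := congrFun h 0
  have h1 := congrFun h 1
  simp only [l2, cons_val_zero, cons_val_one, Pi.zero_apply, neg_eq_zero] at h0 h1
  have := idQ a b (hv a S) (hv b T)
  rw [h0, h1] at this
  simp at this

theorem sig_tau (b : Fin 2) (X Y : V) : pS.ev X Y • tau = (pB b).ev X Y • l1 + l2 b X Y := by
  funext i; fin_cases i <;> simp [tau, l1, l2]

/-- The data extracted from a Griffiths positive metric on `E m`. -/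
structure ND (m : ℕ) where
  N : Fin 2 → Fin 2 → ℂ → ℂ → V → ℝ
  add_le : ∀ a b s t φ ψ, N a b s t (φ + ψ) ≤ N a b s t φ + N a b s t ψ
  smul : ∀ a b s t (c : ℂ) φ, N a b s t (c • φ) = ‖c‖ * N a b s t φ
  pos : ∀ a b s t φ, φ ≠ 0 → 0 < N a b s t φ
  cont : ∀ a b, Continuous (fun p : (ℂ × ℂ) × V => N a b p.1.1 p.1.2 p.2)
  nmx : ∀ a b t s0 (ψ : ℂ → V), (∀ i, AnalyticAt ℂ (fun s => ψ s i) s0) → ψ s0 ≠ 0 →
    ¬ IsLocalMax (fun s => N a b s t (ψ s)) s0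
  nmy : ∀ a b s t0 (ψ : ℂ → V), (∀ i, AnalyticAt ℂ (fun t => ψ t i) t0) → ψ t0 ≠ 0 →
    ¬ IsLocalMax (fun t => N a b s t (ψ t)) t0
  tx1 : ∀ a b s t, s ≠ 0 → N a b s t l1 = ‖s‖ ^ 1 * N a.rev b s⁻¹ t l1
  txt : ∀ a b s t, s ≠ 0 → N a b s t tau = ‖s‖ ^ (3 * m + 1) * N a.rev b s⁻¹ t tau
  ty1 : ∀ a b s t, t ≠ 0 → N a b s t l1 = ‖t‖ ^ (6 * m + 1) * N a b.rev s t⁻¹ l1
  ty2 : ∀ a b s t, t ≠ 0 → N a b s t (l2 b (hv a (s ^ m)) (hv b (t ^ m))) =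
    ‖t‖ ^ 1 * N a b.rev s t⁻¹ (l2 b.rev (hv a (s ^ m)) (hv b.rev (t⁻¹ ^ m)))

theorem diff_hv' (a i : Fin 2) : Differentiable ℂ (fun s : ℂ => hv a s i) := by
  simp only [hv]; split_ifs <;> fun_prop

theorem diff_hv_pow (a : Fin 2) (m : ℕ) : Differentiable ℂ (fun s : ℂ => hv a (s ^ m)) :=
  differentiable_pi.mpr fun i => (diff_hv' a i).comp (differentiable_id.pow m)

theorem cont_hv (a : Fin 2) : Continuous (hv a) :=
  continuous_pi fun i => (diff_hv' a i).continuous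

theorem norm_pow_le {s : ℂ} (hs : ‖s‖ ≤ 1) (m : ℕ) : ‖s ^ m‖ ≤ 1 := by
  rw [norm_pow]; exact pow_le_one₀ (norm_nonneg _) hs

/-- The maximum principle along a line. -/
theorem mp_line {m : ℕ} (hm : 0 < m) {n : Fin 2 → ℂ → V → ℝ}
    (hsm : ∀ a s (c : ℂ) φ, n a s (c • φ) = ‖c‖ * n a s φ)
    (hc : ∀ a, Continuous (fun p : ℂ × V => n a p.1 p.2))
    (hnm : ∀ a s0 (ψ : ℂ → V), (∀ i, AnalyticAt ℂ (fun s => ψ s i) s0) → ψ s0 ≠ 0 →
      ¬ IsLocalMax (fun s => n a s (ψ s)) s0)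
    {φ : Fin 2 → ℂ → V} (hφ : ∀ a, Differentiable ℂ (φ a)) (hφ0 : ∀ a s, φ a s ≠ 0) {d : ℕ}
    (ht : ∀ a s, s ≠ 0 → n a s (φ a s) = ‖s‖ ^ d * n a.rev s⁻¹ (φ a.rev s⁻¹))
    {Λ : V → ℂ} {e : ℕ} (he : 0 < e) (hΛ : Differentiable ℂ Λ)
    (hom : ∀ (c : ℂ) X, Λ (c • X) = c ^ e * Λ X)
    {C r Mb : ℝ} (hr : 0 < r) (hrC : r ≤ C) (hC : ∀ a S, ‖S‖ ≤ 1 → ‖Λ (hv a S)‖ ≤ C)
    (hMb : 0 ≤ Mb)
    (hb : ∀ a s, ‖s‖ ≤ 1 → ‖Λ (hv a (s ^ m))‖ ≤ r → n a s (φ a s) ≤ Mb)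
    (a : Fin 2) (s : ℂ) (hs : ‖s‖ ≤ 1) :
    n a s (φ a s) ≤ Mb * (C / r) ^ ((d : ℝ) / (m * e : ℕ)) := by
  refine maxP (f := fun a s => n a s (φ a s)) (L := fun a s => Λ (hv a (s ^ m))) (d := d)
    (D := m * e) (Nat.mul_pos hm he) ?_ ht ?_ ?_ ?_ hr hrC ?_ hMb hb a s hs
  · intro a
    exact (hc a).comp (continuous_id.prodMk (hφ a).continuous)
  · intro a s0 g hg hg0
    have := hnm a s0 (fun s => g s • φ a s)
      (fun i => hg.mul ((differentiable_pi.mp (hφ a) i).analyticAt s0))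
      (smul_ne_zero hg0 (hφ0 a s0))
    simpa only [hsm] using this
  · intro a
    exact hΛ.comp (diff_hv_pow a m)
  · intro a s hs0
    rw [hv_flip a (pow_ne_zero m hs0), hom, norm_mul, ← pow_mul, norm_pow, inv_pow]
  · intro a s hs
    exact hC a _ (norm_pow_le hs m)

theorem gap {Ψ Λ : Fin 2 → Fin 2 → ℂ → ℂ → ℝ}
    (hΨ : ∀ a b, Continuous (fun p : ℂ × ℂ => Ψ a b p.1 p.2))
    (hΛ : ∀ a b, Continuous (fun p : ℂ × ℂ => Λ a b p.1 p.2))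
    (h0 : ∀ a b S T, ‖S‖ ≤ 1 → ‖T‖ ≤ 1 → Λ a b S T ≤ 0 → 0 < Ψ a b S T) :
    ∃ r > 0, ∃ δ > 0, ∀ a b S T, ‖S‖ ≤ 1 → ‖T‖ ≤ 1 → Λ a b S T ≤ r → δ ≤ Ψ a b S T := by
  have hK : IsCompact ((Set.univ : Set (Fin 2 × Fin 2)) ×ˢ
      (Metric.closedBall (0 : ℂ) 1 ×ˢ Metric.closedBall (0 : ℂ) 1)) :=
    isCompact_univ.prod ((isCompact_closedBall _ _).prod (isCompact_closedBall _ _))
  obtain ⟨r, hr, δ, hδ, h⟩ := compact_gap hK
    (Ψ := fun p : (Fin 2 × Fin 2) × (ℂ × ℂ) => Ψ p.1.1 p.1.2 p.2.1 p.2.2)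
    (Λ := fun p : (Fin 2 × Fin 2) × (ℂ × ℂ) => Λ p.1.1 p.1.2 p.2.1 p.2.2)
    (continuous_prod_of_discrete_left.mpr fun α => hΨ α.1 α.2)
    (continuous_prod_of_discrete_left.mpr fun α => hΛ α.1 α.2)
    (fun p hp => h0 _ _ _ _ (by simpa using hp.2.1) (by simpa using hp.2.2))
  exact ⟨r, hr, δ, hδ, fun a b S T hS hT => h ((a, b), (S, T)) (by simp [hS, hT])⟩

theorem bdd {Ψ : Fin 2 → Fin 2 → ℂ → ℂ → ℝ}
    (hΨ : ∀ a b, Continuous (fun p : ℂ × ℂ => Ψ a b p.1 p.2)) :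
    ∃ C > 0, ∀ a b S T, ‖S‖ ≤ 1 → ‖T‖ ≤ 1 → Ψ a b S T ≤ C := by
  have hK : IsCompact ((Set.univ : Set (Fin 2 × Fin 2)) ×ˢ
      (Metric.closedBall (0 : ℂ) 1 ×ˢ Metric.closedBall (0 : ℂ) 1)) :=
    isCompact_univ.prod ((isCompact_closedBall _ _).prod (isCompact_closedBall _ _))
  obtain ⟨C, hC⟩ := hK.bddAbove_image
    (f := fun p : (Fin 2 × Fin 2) × (ℂ × ℂ) => Ψ p.1.1 p.1.2 p.2.1 p.2.2)
    (continuous_prod_of_discrete_left.mpr fun α => hΨ α.1 α.2).continuousOn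
  refine ⟨max C 1, by positivity, fun a b S T hS hT => le_max_of_le_left ?_⟩
  exact hC ⟨((a, b), (S, T)), by simp [hS, hT], rfl⟩

theorem cX (a : Fin 2) : Continuous (fun p : ℂ × ℂ => hv a p.1) := (cont_hv a).comp continuous_fst

theorem cY (b : Fin 2) : Continuous (fun p : ℂ × ℂ => hv b p.2) := (cont_hv b).comp continuous_snd

theorem root_small {x η : ℝ} (hx : 0 ≤ x) (hη : 0 < η) :
    ∃ m0 : ℕ, ∀ m ≥ m0, x ^ (((1 : ℕ) : ℝ) / (m * 1 : ℕ)) ≤ 1 + η := by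
  obtain ⟨k, hk⟩ := pow_unbounded_of_one_lt x (show 1 < 1 + η by linarith)
  refine ⟨k + 1, fun m hm => ?_⟩
  have h1 : x ≤ (1 + η) ^ m := hk.le.trans (pow_le_pow_right₀ (by linarith) (by omega))
  have h2 := Real.rpow_le_rpow hx h1 (show (0 : ℝ) ≤ (m : ℝ)⁻¹ by positivity)
  rw [Real.pow_rpow_inv_natCast (by linarith) (by omega)] at h2
  simpa using h2

/-- The inverses of the three matrices. -/
noncomputable def gi : Fin 3 → M2 :=
  ![1, !![(qq + 1) / 2, (qq + 1) / 2; -((qq - 1) / 2), (qq - 1) / 2],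
    !![(qq + 1) / 2, -((qq - 1) / 2); (qq + 1) / 2, (qq - 1) / 2]]

theorem gi_mul (i : Fin 3) : gi i * gm i = 1 := by
  have hq := qq_sq
  fin_cases i
  · simp [gi, gm]
  · ext a b
    fin_cases a <;> fin_cases b <;> simp [gi, gm] <;>
      first | ring1 | linear_combination (1 / 2) * hq
  · ext a b
    fin_cases a <;> fin_cases b <;> simp [gi, gm] <;>
      first | ring1 | linear_combination (1 / 2) * hq

theorem on_graph (i : Fin 3) (b : Fin 2) {X Y : V} (hX : X ≠ 0) (hY : Y b = 1)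
    (h : dt (gm i *ᵥ X) Y = 0) :
    ∃ κ : ℂ, κ ≠ 0 ∧ gm i *ᵥ X = κ • Y ∧ X = κ • (gi i *ᵥ Y) ∧ ‖(pB b).ev X Y‖ = ‖κ‖ ^ 6 ∧
      pS.ev X Y = 0 := by
  have h1 : gm i *ᵥ X = (gm i *ᵥ X) b • Y := by
    funext c
    simp only [dt] at h
    generalize gm i *ᵥ X = U at h ⊢
    fin_cases b <;> fin_cases c <;> simp at hY ⊢
    · rw [hY, mul_one]
    · rw [hY] at h; linear_combination -h
    · rw [hY] at h; linear_combination h
    · rw [hY, mul_one]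
  set κ := (gm i *ᵥ X) b with hκ
  have h2 : X = κ • (gi i *ᵥ Y) := by
    rw [← mulVec_smul, ← h1, mulVec_mulVec, gi_mul, one_mulVec]
  have h3 : κ ≠ 0 := by
    rintro h0
    rw [h0, zero_smul] at h2
    exact hX h2
  refine ⟨κ, h3, h1, h2, ?_, ?_⟩
  · have h4 := norm_B i b X
    rw [← hκ, h1, BP.ev_smul_right, norm_mul, norm_pow] at h4
    have h5 : 0 < ‖κ‖ := norm_pos_iff.mpr h3
    apply mul_left_cancel₀ (pow_pos h5 2).ne'
    rw [h4]; ring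
  · rw [sig_eq]
    fin_cases i <;> simp only [Fin.zero_eta, Fin.mk_one, Fin.reduceFinMk] at h <;> rw [h] <;> ring

theorem herm_ne (i : Fin 3) {X : V} (hX : X ≠ 0) : star X ⬝ᵥ (gm i *ᵥ X) ≠ 0 := by
  intro h
  have h1 := congrArg Complex.re h
  have q1 := qr_gt
  have q2 := qr_lt
  have h2 : 0 < (X 0).re ^ 2 + (X 0).im ^ 2 + (X 1).re ^ 2 + (X 1).im ^ 2 := by
    by_contra hn
    apply hX
    funext c
    fin_cases c <;> apply Complex.ext <;> simp <;> nlinarith [sq_nonneg (X 0).re,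
      sq_nonneg (X 0).im, sq_nonneg (X 1).re, sq_nonneg (X 1).im]
  fin_cases i <;> simp [gm, dotProduct, mulVec, Fin.sum_univ_two, qq, one_apply] at h1
  · nlinarith
  · nlinarith [sq_nonneg (2 * (X 0).re - 3 * (X 1).re), sq_nonneg (2 * (X 0).im - 3 * (X 1).im),
      sq_nonneg (X 0).re, sq_nonneg (X 0).im, sq_nonneg (X 1).re, sq_nonneg (X 1).im]
  · nlinarith [sq_nonneg (2 * (X 0).re - 3 * (X 1).re), sq_nonneg (2 * (X 0).im - 3 * (X 1).im),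
      sq_nonneg (X 0).re, sq_nonneg (X 0).im, sq_nonneg (X 1).re, sq_nonneg (X 1).im]

theorem sig_ne {X Y : V} (hX : X ≠ 0) (hY : Y ≠ 0) (h : X ⬝ᵥ star Y = 0) : pS.ev X Y ≠ 0 := by
  have key : ∀ i, dt (gm i *ᵥ X) Y ≠ 0 := by
    intro i hi
    apply hY
    have h1 := herm_ne i hX
    have h2 : star X ⬝ᵥ Y = 0 := by
      rw [star_dotProduct, dotProduct_comm, h, star_zero]
    simp only [dt] at hi
    simp only [dotProduct, Fin.sum_univ_two] at h1 h2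
    funext c
    fin_cases c
    · apply mul_left_cancel₀ h1
      simp only [Fin.zero_eta, Pi.zero_apply, mul_zero]
      linear_combination (gm i *ᵥ X) 0 * h2 - star X 1 * hi
    · apply mul_left_cancel₀ h1
      simp only [Fin.mk_one, Pi.zero_apply, mul_zero]
      linear_combination (gm i *ᵥ X) 1 * h2 + star X 0 * hi
  rw [sig_eq]
  exact mul_ne_zero (by norm_num) (mul_ne_zero (mul_ne_zero (key 0) (key 1)) (key 2))

end Vale.Agent.P296
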