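import Vale.Agent.P296.Dyn1

/-! Transport of bounds along the three graphs. -/

namespace Vale.Agent.P296

open Matrix Filter Topology

def Bnd {m : ℕ} (D : ND m) (M : ℝ) : Prop :=
  ∀ a b s t, ‖s‖ ≤ 1 → ‖t‖ ≤ 1 → D.N a b s t l1 ≤ M ∧
    D.N a b s t (l2 b (hv a (s ^ m)) (hv b (t ^ m))) ≤ M

theorem Bnd.nonneg {m : ℕ} {D : ND m} {M : ℝ} (h : Bnd D M) : 0 ≤ M :=
  (D.pos 0 0 0 0 l1 l1_ne).le.trans (h 0 0 0 0 (by simp) (by simp)).1

theorem ND.contx {m : ℕ} (D : ND m) (b : Fin 2) (t : ℂ) (a : Fin 2) :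
    Continuous (fun p : ℂ × V => D.N a b p.1 t p.2) :=
  (D.cont a b).comp (f := fun p : ℂ × V => ((p.1, t), p.2)) (by fun_prop)

theorem ND.conty {m : ℕ} (D : ND m) (a : Fin 2) (s : ℂ) (b : Fin 2) :
    Continuous (fun p : ℂ × V => D.N a b s p.1 p.2) :=
  (D.cont a b).comp (f := fun p : ℂ × V => ((s, p.1), p.2)) (by fun_prop)

theorem ND.nonneg {m : ℕ} (D : ND m) (a b s t φ) : 0 ≤ D.N a b s t φ := by
  by_cases h : φ = 0
  · have := D.smul a b s t 0 φ
    rw [h] at this ⊢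
    simp only [smul_zero, norm_zero, zero_mul] at this
    exact this.ge
  · exact (D.pos a b s t φ h).le

theorem tau_bound : ∃ K : ℝ, 0 ≤ K ∧ ∀ m, 0 < m → ∀ (D : ND m) (M : ℝ), Bnd D M →
    ∀ a b s t, ‖s‖ ≤ 1 → ‖t‖ ≤ 1 → D.N a b s t tau ≤ K * M := by
  have c1 : ∀ a b, Continuous (fun p : ℂ × ℂ => ‖hv a p.1 ⬝ᵥ star (hv b p.2)‖) := fun a b =>
    ((cX a).dotProduct (cY b).star).norm
  obtain ⟨r, hr, δ, hδ, hg⟩ := gap (Ψ := fun a b S T => ‖pS.ev (hv a S) (hv b T)‖)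
    (Λ := fun a b S T => ‖hv a S ⬝ᵥ star (hv b T)‖)
    (fun a b => (pS.cont (cX a) (cY b)).norm) c1
    (fun a b S T _ _ h => norm_pos_iff.mpr
      (sig_ne (hv_ne_zero _ _) (hv_ne_zero _ _) (norm_le_zero_iff.mp h)))
  obtain ⟨CB, hCB, hB⟩ := bdd (Ψ := fun a b S T => ‖(pB b).ev (hv a S) (hv b T)‖)
    (fun a b => ((pB b).cont (cX a) (cY b)).norm)
  obtain ⟨C, hC0, hC⟩ := bdd (Ψ := fun a b S T => ‖hv a S ⬝ᵥ star (hv b T)‖) c1
  refine ⟨(CB + 1) / δ * (max C r / r) ^ 4, by positivity, ?_⟩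
  intro m hm D M hM a b s t hs ht
  have hM0 := hM.nonneg
  have ht' := norm_pow_le ht m
  have key := mp_line hm (n := fun a s φ => D.N a b s t φ) (fun a s => D.smul a b s t)
    (D.contx b t) (fun a => D.nmx a b t) (φ := fun _ _ => tau) (fun _ => differentiable_const _)
    (fun _ _ => tau_ne) (d := 3 * m + 1) (fun a s => D.txt a b s t)
    (Λ := fun X => X ⬝ᵥ star (hv b (t ^ m))) (e := 1) one_pos
    (by simp only [dotProduct, Fin.sum_univ_two]; fun_prop) (fun c X => by simp)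
    (C := max C r) (Mb := (CB + 1) / δ * M) hr (le_max_right _ _)
    (fun a S hS => le_max_of_le_left (hC a b S _ hS ht')) (by positivity) ?_ a s hs
  · refine key.trans ?_
    have h1 : 1 ≤ max C r / r := (one_le_div hr).mpr (le_max_right _ _)
    have h2 : (((3 * m + 1 : ℕ) : ℝ) / (m * 1 : ℕ)) ≤ ((4 : ℕ) : ℝ) := by
      have : (1 : ℝ) ≤ m := by exact_mod_cast hm
      rw [div_le_iff₀ (by push_cast; linarith)]
      push_cast; linarith
    have h3 := Real.rpow_le_rpow_of_exponent_le h1 h2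
    rw [Real.rpow_natCast] at h3
    calc _ ≤ (CB + 1) / δ * M * (max C r / r) ^ 4 := mul_le_mul_of_nonneg_left h3 (by positivity)
      _ = _ := by ring
  · intro a s hs h
    have hs' := norm_pow_le hs m
    have h1 := hg a b _ _ hs' ht' h
    have h2 := D.smul a b s t (pS.ev (hv a (s ^ m)) (hv b (t ^ m))) tau
    rw [sig_tau b] at h2
    have h3 := D.add_le a b s t ((pB b).ev (hv a (s ^ m)) (hv b (t ^ m)) • l1)
      (l2 b (hv a (s ^ m)) (hv b (t ^ m)))
    rw [D.smul, h2] at h3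
    obtain ⟨h4, h5⟩ := hM a b s t hs ht
    have h6 := hB a b _ _ hs' ht'
    have h7 := D.nonneg a b s t tau
    have h8 := mul_le_mul h6 h4 (D.nonneg _ _ _ _ _) hCB.le
    have h9 := mul_le_mul_of_nonneg_right h1 h7
    rw [div_mul_eq_mul_div, le_div_iff₀ hδ]
    nlinarith

/-- Continuous nonnegative functions homogeneous of degree six. -/
structure HF (F : V → ℝ) : Prop where
  cont : Continuous F
  nonneg : ∀ Y, 0 ≤ F Y
  hom : ∀ (c : ℂ) Y, F (c • Y) = ‖c‖ ^ 6 * F Y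

theorem HF.comp {F : V → ℝ} (h : HF F) (g : M2) : HF (fun Y => F (g *ᵥ Y)) :=
  ⟨h.cont.comp (continuous_const.matrix_mulVec continuous_id), fun _ => h.nonneg _,
    fun c Y => by rw [mulVec_smul, h.hom]⟩

def GoodA (F : V → ℝ) : Prop :=
  ∀ η > 0, ∃ m0 : ℕ, ∀ m ≥ m0, ∀ (D : ND m) (M : ℝ), Bnd D M →
    ∀ a b s t, ‖s‖ ≤ 1 → ‖t‖ ≤ 1 → D.N a b s t l1 ≤ (F (hv b (t ^ m)) + η) * M

def GoodB (F : V → ℝ) : Prop :=
  ∀ η > 0, ∃ m0 : ℕ, ∀ m ≥ m0, ∀ (D : ND m) (M : ℝ), Bnd D M →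
    ∀ a b s t, ‖s‖ ≤ 1 → ‖t‖ ≤ 1 →
      D.N a b s t (l2 b (hv a (s ^ m)) (hv b (t ^ m))) ≤ (F (hv a (s ^ m)) + η) * M

theorem cdt (i : Fin 3) (a b : Fin 2) :
    Continuous (fun p : ℂ × ℂ => ‖dt (gm i *ᵥ hv a p.1) (hv b p.2)‖) := by
  have h1 : Continuous (fun p : ℂ × ℂ => gm i *ᵥ hv a p.1) :=
    continuous_const.matrix_mulVec (cX a)
  have h2 := cY b
  simp only [dt]
  fun_prop

theorem fin_ineq {F CF η x M : ℝ} (hF0 : 0 ≤ F) (hF : F ≤ CF) (hη : 0 < η) (hM : 0 ≤ M)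
    (hx : x ≤ 1 + η / 2 / (CF + η / 2)) : (F + η / 2) * M * x ≤ (F + η) * M := by
  have h0 : 0 < CF + η / 2 := by linarith
  have h1 : (F + η / 2) * (η / 2 / (CF + η / 2)) ≤ η / 2 := by
    rw [← mul_div_assoc, div_le_iff₀ h0]; nlinarith
  have h2 : (F + η / 2) * x ≤ F + η := by
    have := mul_le_mul_of_nonneg_left hx (show 0 ≤ F + η / 2 by linarith)
    linarith
  calc (F + η / 2) * M * x = (F + η / 2) * x * M := by ring
    _ ≤ _ := mul_le_mul_of_nonneg_right h2 hM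

theorem stepAB (i : Fin 3) {F : V → ℝ} (hF : HF F) (h : GoodA F) :
    GoodB (fun X => F (gm i *ᵥ X)) := by
  intro η hη
  obtain ⟨K, hK0, hK⟩ := tau_bound
  obtain ⟨CB, hCB, hB⟩ := bdd (Ψ := fun a b S T => ‖(pB b).ev (hv a S) (hv b T)‖)
    (fun a b => ((pB b).cont (cX a) (cY b)).norm)
  obtain ⟨C, hC0, hC⟩ := bdd (Ψ := fun a b S T => ‖dt (gm i *ᵥ hv a S) (hv b T)‖) (cdt i)
  obtain ⟨CF, hCF0, hCF⟩ := bdd (Ψ := fun a _ S _ => F (gm i *ᵥ hv a S))
    (fun a _ => (hF.comp (gm i)).cont.comp (cX a))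
  set η' := η / 2 / (CB + 1) with hη'
  have hη'0 : 0 < η' := by positivity
  obtain ⟨r, hr, δ, hδ, hg⟩ := gap
    (Ψ := fun a b S T => F (gm i *ᵥ hv a S) + η / 2 -
      ‖(pB b).ev (hv a S) (hv b T)‖ * (F (hv b T) + η') - ‖pS.ev (hv a S) (hv b T)‖ * K)
    (Λ := fun a b S T => ‖dt (gm i *ᵥ hv a S) (hv b T)‖)
    (fun a b => by
      have c1 : Continuous (fun p : ℂ × ℂ => F (gm i *ᵥ hv a p.1)) :=
        (hF.comp (gm i)).cont.comp (cX a)
      have c2 := ((pB b).cont (cX a) (cY b)).norm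
      have c3 : Continuous (fun p : ℂ × ℂ => F (hv b p.2)) := hF.cont.comp (cY b)
      have c4 := (pS.cont (cX a) (cY b)).norm
      exact ((c1.fun_add continuous_const).fun_sub (c2.fun_mul (c3.fun_add continuous_const))).fun_sub
        (c4.fun_mul continuous_const)) (cdt i) (by
      intro a b S T hS hT h0
      obtain ⟨κ, _, h1, _, h3, h4⟩ :=
        on_graph i b (hv_ne_zero a S) (hv_self b T) (norm_le_zero_iff.mp h0)
      have h5 := hB a b S T hS hT
      rw [h1, hF.hom, h4, ← h3]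
      have h6 : η' * (CB + 1) = η / 2 := by rw [hη']; field_simp
      simp only [norm_zero]
      nlinarith)
  obtain ⟨m1, hm1⟩ := h η' hη'0
  obtain ⟨m2, hm2⟩ := root_small (x := max C r / r) (η := η / 2 / (CF + η / 2))
    (by positivity) (by positivity)
  refine ⟨max (max m1 m2) 1, fun m hm D M hM a b s t hs ht => ?_⟩
  have hm0 : 0 < m := by omega
  have hM0 := hM.nonneg
  have hs' := norm_pow_le hs m
  have hF0 := hF.nonneg (gm i *ᵥ hv a (s ^ m))
  have key := mp_line hm0 (n := fun b t φ => D.N a b s t φ) (fun b t => D.smul a b s t)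
    (D.conty a s) (fun b => D.nmy a b s)
    (φ := fun b t => l2 b (hv a (s ^ m)) (hv b (t ^ m))) ?_
    (fun _ _ => l2_ne _ _ _ _) (d := 1) (fun b t => D.ty2 a b s t)
    (Λ := fun Y => dt (gm i *ᵥ hv a (s ^ m)) Y) (e := 1) one_pos
    (by simp only [dt]; fun_prop) (fun c X => by simp only [dt, Pi.smul_apply, smul_eq_mul]; ring)
    (C := max C r) (Mb := (F (gm i *ᵥ hv a (s ^ m)) + η / 2) * M) hr (le_max_right _ _)
    (fun b T hT => le_max_of_le_left (hC a b _ T hs' hT)) (by positivity) ?_ b t ht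
  · exact key.trans (fin_ineq hF0 (hCF a b _ _ hs' hs') hη hM0 (hm2 m (by omega)))
  · intro b
    have h1 : ∀ x : ℂ, ∀ j, DifferentiableAt ℂ (fun t => hv b (t ^ m) j) x :=
      fun x j => differentiable_pi.mp (diff_hv_pow b m) j x
    refine differentiable_pi.mpr fun j x => ?_
    fin_cases j
    · exact pS.diffAt (fun _ => differentiableAt_const _) (h1 x)
    · exact ((pB b).diffAt (X := fun _ => hv a (s ^ m)) (fun _ => differentiableAt_const _)
        (h1 x)).fun_neg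
  · intro b t ht h
    have ht' := norm_pow_le ht m
    have h1 := hg a b _ _ hs' ht' h
    have h2 : l2 b (hv a (s ^ m)) (hv b (t ^ m)) = pS.ev (hv a (s ^ m)) (hv b (t ^ m)) • tau +
        (-(pB b).ev (hv a (s ^ m)) (hv b (t ^ m))) • l1 := by
      rw [sig_tau b, neg_smul]; abel
    rw [h2]
    refine (D.add_le _ _ _ _ _ _).trans ?_
    rw [D.smul, D.smul, norm_neg]
    have h3 := mul_le_mul_of_nonneg_left (hK m hm0 D M hM a b s t hs ht)
      (norm_nonneg (pS.ev (hv a (s ^ m)) (hv b (t ^ m))))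
    have h4 := mul_le_mul_of_nonneg_left (hm1 m (by omega) D M hM a b s t hs ht)
      (norm_nonneg ((pB b).ev (hv a (s ^ m)) (hv b (t ^ m))))
    have h5 := mul_le_mul_of_nonneg_right h1 hM0
    have h6 := mul_nonneg hδ.le hM0
    nlinarith

theorem stepBA (i : Fin 3) {F : V → ℝ} (hF : HF F) (h : GoodB F) :
    GoodA (fun Y => F (gi i *ᵥ Y)) := by
  intro η hη
  obtain ⟨K, hK0, hK⟩ := tau_bound
  obtain ⟨C, hC0, hC⟩ := bdd (Ψ := fun a b S T => ‖dt (gm i *ᵥ hv a S) (hv b T)‖) (cdt i)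
  obtain ⟨CF, hCF0, hCF⟩ := bdd (Ψ := fun _ b _ T => F (gi i *ᵥ hv b T))
    (fun _ b => (hF.comp (gi i)).cont.comp (cY b))
  obtain ⟨r, hr, δ, hδ, hg⟩ := gap
    (Ψ := fun a b S T => ‖(pB b).ev (hv a S) (hv b T)‖ * (F (gi i *ᵥ hv b T) + η / 2) -
      F (hv a S) - ‖pS.ev (hv a S) (hv b T)‖ * K)
    (Λ := fun a b S T => ‖dt (gm i *ᵥ hv a S) (hv b T)‖)
    (fun a b => by
      have c1 : Continuous (fun p : ℂ × ℂ => F (gi i *ᵥ hv b p.2)) :=
        (hF.comp (gi i)).cont.comp (cY b)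
      have c2 := ((pB b).cont (cX a) (cY b)).norm
      have c3 : Continuous (fun p : ℂ × ℂ => F (hv a p.1)) := hF.cont.comp (cX a)
      have c4 := (pS.cont (cX a) (cY b)).norm
      exact ((c2.fun_mul (c1.fun_add continuous_const)).fun_sub c3).fun_sub
        (c4.fun_mul continuous_const)) (cdt i) (by
      intro a b S T _ _ h0
      obtain ⟨κ, h0, _, h2, h3, h4⟩ :=
        on_graph i b (hv_ne_zero a S) (hv_self b T) (norm_le_zero_iff.mp h0)
      have h5 : F (hv a S) = ‖κ‖ ^ 6 * F (gi i *ᵥ hv b T) := by rw [← hF.hom, ← h2]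
      rw [h5, h4, h3]
      have h6 : 0 < ‖κ‖ ^ 6 := pow_pos (norm_pos_iff.mpr h0) 6
      simp only [norm_zero]
      nlinarith)
  obtain ⟨m1, hm1⟩ := h δ hδ
  obtain ⟨m2, hm2⟩ := root_small (x := max C r / r) (η := η / 2 / (CF + η / 2))
    (by positivity) (by positivity)
  refine ⟨max (max m1 m2) 1, fun m hm D M hM a b s t hs ht => ?_⟩
  have hm0 : 0 < m := by omega
  have hM0 := hM.nonneg
  have ht' := norm_pow_le ht m
  have hF0 := hF.nonneg (gi i *ᵥ hv b (t ^ m))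
  have key := mp_line hm0 (n := fun a s φ => D.N a b s t φ) (fun a s => D.smul a b s t)
    (D.contx b t) (fun a => D.nmx a b t) (φ := fun _ _ => l1) (fun _ => differentiable_const _)
    (fun _ _ => l1_ne) (d := 1) (fun a s => D.tx1 a b s t)
    (Λ := fun X => dt (gm i *ᵥ X) (hv b (t ^ m))) (e := 1) one_pos
    (by simp only [dt, mulVec, dotProduct, Fin.sum_univ_two]; fun_prop)
    (fun c X => by simp only [dt, mulVec_smul, Pi.smul_apply, smul_eq_mul]; ring)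
    (C := max C r) (Mb := (F (gi i *ᵥ hv b (t ^ m)) + η / 2) * M) hr (le_max_right _ _)
    (fun a S hS => le_max_of_le_left (hC a b S _ hS ht')) (by positivity) ?_ a s hs
  · exact key.trans (fin_ineq hF0 (hCF a b _ _ ht' ht') hη hM0 (hm2 m (by omega)))
  · intro a s hs h
    have hs' := norm_pow_le hs m
    have h1 := hg a b _ _ hs' ht' h
    have h2 : (pB b).ev (hv a (s ^ m)) (hv b (t ^ m)) • l1 =
        pS.ev (hv a (s ^ m)) (hv b (t ^ m)) • tau +
          (-1 : ℂ) • l2 b (hv a (s ^ m)) (hv b (t ^ m)) := by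
      rw [sig_tau b, neg_smul, one_smul]; abel
    have h7 := D.add_le a b s t (pS.ev (hv a (s ^ m)) (hv b (t ^ m)) • tau)
      ((-1 : ℂ) • l2 b (hv a (s ^ m)) (hv b (t ^ m)))
    rw [← h2, D.smul, D.smul, D.smul, norm_neg, norm_one, one_mul] at h7
    have h3 := mul_le_mul_of_nonneg_left (hK m hm0 D M hM a b s t hs ht)
      (norm_nonneg (pS.ev (hv a (s ^ m)) (hv b (t ^ m))))
    have h4 := hm1 m (by omega) D M hM a b s t hs ht
    have h5 := mul_le_mul_of_nonneg_right h1 hM0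
    have h8 : 0 < ‖(pB b).ev (hv a (s ^ m)) (hv b (t ^ m))‖ := by
      rcases (norm_nonneg ((pB b).ev (hv a (s ^ m)) (hv b (t ^ m)))).lt_or_eq with h9 | h9
      · exact h9
      · rw [← h9] at h1
        have := hF.nonneg (hv a (s ^ m))
        have := mul_nonneg (norm_nonneg (pS.ev (hv a (s ^ m)) (hv b (t ^ m)))) hK0
        linarith
    refine le_of_mul_le_mul_left ?_ h8
    nlinarith

end Vale.Agent.P296
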