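import Vale.Agent.P296.Dyn2

/-! The contradiction: for large `m` there is no norm data. -/

namespace Vale.Agent.P296

open Matrix Filter Topology

noncomputable def Fw (γ : M2) (Y : V) : ℝ := ‖γ *ᵥ Y‖ ^ 6

theorem hf_norm (c : ℝ) (hc : 0 ≤ c) : HF (fun Y => c * ‖Y‖ ^ 6) :=
  ⟨by fun_prop, fun Y => by positivity, fun k Y => by rw [norm_smul]; ring⟩

theorem hf_Fw (γ : M2) : HF (Fw γ) := by
  have := (hf_norm 1 zero_le_one).comp γ
  simp only [one_mul] at this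
  exact this

theorem one_le_norm_hv (b : Fin 2) (T : ℂ) : 1 ≤ ‖hv b T‖ := by
  simpa using norm_le_pi_norm (hv b T) b

theorem norm_hv_le (b : Fin 2) {T : ℂ} (hT : ‖T‖ ≤ 1) : ‖hv b T‖ ≤ 1 := by
  refine (pi_norm_le_iff_of_nonneg zero_le_one).mpr fun i => ?_
  simp only [hv]; split_ifs
  · simp
  · exact hT

theorem good_one : GoodA (Fw 1) := by
  intro η hη
  refine ⟨0, fun m _ D M hM a b s t hs ht => ?_⟩
  have h1 : 1 ≤ Fw 1 (hv b (t ^ m)) := by
    simp only [Fw, one_mulVec]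
    exact one_le_pow₀ (one_le_norm_hv _ _)
  have := hM.nonneg
  have := (hM a b s t hs ht).1
  nlinarith

theorem good_gm {γ : M2} (i : Fin 3) (h : GoodA (Fw γ)) : GoodA (Fw (γ * gm i)) := by
  have h1 := stepBA 0 ((hf_Fw γ).comp (gm i)) (stepAB i (hf_Fw γ) h)
  have : (fun Y => Fw γ (gm i *ᵥ (gi 0 *ᵥ Y))) = Fw (γ * gm i) := by
    funext Y; simp only [Fw, gi, cons_val_zero, one_mulVec, mulVec_mulVec]
  rwa [this] at h1

theorem good_gi {γ : M2} (i : Fin 3) (h : GoodA (Fw γ)) : GoodA (Fw (γ * gi i)) := by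
  have h1 := stepBA i ((hf_Fw γ).comp (gm 0)) (stepAB 0 (hf_Fw γ) h)
  have : (fun Y => Fw γ (gm 0 *ᵥ (gi i *ᵥ Y))) = Fw (γ * gi i) := by
    funext Y; simp only [Fw, gm, cons_val_zero, Matrix.one_mul, mulVec_mulVec]
  rwa [this] at h1

theorem gi_gi : gi 1 * gi 2 = !![2 + qq, 0; 0, 2 - qq] := by
  have hq := qq_sq
  ext a b
  fin_cases a <;> fin_cases b <;> simp [gi] <;>
    first | ring1 | linear_combination (1 / 2) * hq

theorem gm_gm : gm 2 * gm 1 = !![2 - qq, 0; 0, 2 + qq] := by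
  have hq := qq_sq
  ext a b
  fin_cases a <;> fin_cases b <;> simp [gm] <;>
    first | ring1 | linear_combination (1 / 2) * hq

theorem good_D (k : ℕ) : GoodA (Fw !![(2 + qq) ^ k, 0; 0, (2 - qq) ^ k]) := by
  induction k with
  | zero => simpa [← one_fin_two] using good_one
  | succ k ih =>
    have := good_gi 2 (good_gi 1 ih)
    rw [Matrix.mul_assoc, gi_gi] at this
    simpa [pow_succ] using this

theorem good_D' (k : ℕ) : GoodA (Fw !![(2 - qq) ^ k, 0; 0, (2 + qq) ^ k]) := by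
  induction k with
  | zero => simpa [← one_fin_two] using good_one
  | succ k ih =>
    have := good_gm 1 (good_gm 2 ih)
    rw [Matrix.mul_assoc, gm_gm] at this
    simpa [pow_succ] using this

theorem Fw_le {γ : M2} {Y : V} {ρ : ℝ} (hρ : 0 < ρ) (h0 : ‖(γ *ᵥ Y) 0‖ ≤ 3 * ρ)
    (h1 : ‖(γ *ᵥ Y) 1‖ ≤ 3 * ρ) : Fw γ Y ≤ 729 * ρ ^ 6 := by
  have : ‖γ *ᵥ Y‖ ≤ 3 * ρ :=
    (pi_norm_le_iff_of_nonneg (by positivity)).mpr (Fin.forall_fin_two.mpr ⟨h0, h1⟩)
  calc Fw γ Y ≤ (3 * ρ) ^ 6 := pow_le_pow_left₀ (norm_nonneg _) this 6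
    _ = _ := by ring

theorem three_points {u v : ℂ} {ρ : ℝ} (hρ : 0 < ρ) (hu : ‖u‖ = ρ⁻¹) (hv' : ‖v‖ = ρ)
    (b : Fin 2) {T : ℂ} (hT : ‖T‖ ≤ 1)
    (h : ‖hv b T 0 * hv b T 1 * (hv b T 0 + hv b T 1)‖ ≤ ρ ^ 2) :
    Fw !![u, 0; 0, v] (hv b T) ≤ 729 * ρ ^ 6 ∨ Fw !![v, 0; 0, u] (hv b T) ≤ 729 * ρ ^ 6 ∨
      Fw (!![u, 0; 0, v] * gm 2) (hv b T) ≤ 729 * ρ ^ 6 := by
  have h1 : ‖T‖ * ‖1 + T‖ ≤ ρ ^ 2 := by
    rw [← norm_mul]
    fin_cases b
    · simpa [hv] using h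
    · simpa [hv, add_comm] using h
  have h2 : 1 ≤ ‖T‖ + ‖1 + T‖ := by
    have := norm_sub_le (1 + T) T
    simp only [add_sub_cancel_right, norm_one] at this
    linarith
  have hinv : ρ⁻¹ * (2 * ρ ^ 2) = 2 * ρ := by field_simp
  have hi0 : 0 < ρ⁻¹ := inv_pos.mpr hρ
  by_cases h3 : 1 / 2 ≤ ‖1 + T‖
  · have h4 : ‖T‖ ≤ 2 * ρ ^ 2 := by nlinarith [norm_nonneg T]
    have h5 : ρ⁻¹ * ‖T‖ ≤ 3 * ρ := by nlinarith
    fin_cases b
    · refine Or.inr (Or.inl (Fw_le hρ ?_ ?_))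
      · simp [hv_zero, hv']; linarith
      · simpa [hv_zero, hu, mul_comm] using h5
    · refine Or.inl (Fw_le hρ ?_ ?_)
      · simpa [hv_one, hu, mul_comm] using h5
      · simp [hv_one, hv']; linarith
  · have h4 : ‖1 + T‖ ≤ 2 * ρ ^ 2 := by nlinarith [norm_nonneg (1 + T)]
    have q1 := qr_gt
    have q2 := qr_lt
    have e0 : ((!![u, 0; 0, v] * gm 2) *ᵥ hv b T) 0 =
        u * (((qr - 1) / 2 : ℝ) : ℂ) * (hv b T 0 + hv b T 1) := by
      simp [gm, mulVec, dotProduct, Fin.sum_univ_two, qq]; ring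
    have e1 : ((!![u, 0; 0, v] * gm 2) *ᵥ hv b T) 1 =
        v * (((qr + 1) / 2 : ℝ) : ℂ) * (hv b T 1 - hv b T 0) := by
      simp [gm, mulVec, dotProduct, Fin.sum_univ_two, qq]; ring
    have e2 : ‖hv b T 0 + hv b T 1‖ = ‖1 + T‖ := by
      fin_cases b
      · simp [hv]
      · simp [hv, add_comm]
    have e3 : ‖hv b T 1 - hv b T 0‖ ≤ 2 := by
      have a1 := (norm_le_pi_norm (hv b T) 0).trans (norm_hv_le b hT)
      have a2 := (norm_le_pi_norm (hv b T) 1).trans (norm_hv_le b hT)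
      have := norm_sub_le (hv b T 1) (hv b T 0)
      linarith
    refine Or.inr (Or.inr (Fw_le hρ ?_ ?_))
    · rw [e0, norm_mul, norm_mul, hu, e2, Complex.norm_real, Real.norm_of_nonneg (by linarith)]
      have : ρ⁻¹ * ‖1 + T‖ ≤ 2 * ρ := by nlinarith
      have := mul_nonneg hi0.le (norm_nonneg (1 + T))
      nlinarith
    · rw [e1, norm_mul, norm_mul, hv', Complex.norm_real, Real.norm_of_nonneg (by linarith)]
      have := norm_nonneg (hv b T 1 - hv b T 0)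
      have h6 : (qr + 1) / 2 * ‖hv b T 1 - hv b T 0‖ ≤ 3 := by nlinarith
      nlinarith

theorem good_quarter : GoodA (fun Y => 1 / 4 * ‖Y‖ ^ 6) := by
  have q1 := qr_gt
  have q2 := qr_lt
  obtain ⟨k, hk⟩ := exists_pow_lt_of_lt_one (x := (1 / 100000 : ℝ)) (y := 2 - qr)
    (by norm_num) (by linarith)
  set ρ := (2 - qr) ^ k with hρd
  have hρ : 0 < ρ := pow_pos (by linarith) k
  have hv' : ‖(2 - qq) ^ k‖ = ρ := by
    have : (2 - qq) ^ k = ((ρ : ℝ) : ℂ) := by simp [hρd, qq]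
    rw [this, Complex.norm_real, Real.norm_of_nonneg hρ.le]
  have hu : ‖(2 + qq) ^ k‖ = ρ⁻¹ := by
    have h1 : (2 + qq) ^ k * (2 - qq) ^ k = 1 := by
      rw [← mul_pow]
      have : (2 + qq) * (2 - qq) = 1 := by linear_combination (-1) * qq_sq
      rw [this, one_pow]
    have h2 := congrArg norm h1
    rw [norm_mul, hv', norm_one] at h2
    exact eq_inv_of_mul_eq_one_left h2
  obtain ⟨m1, hm1⟩ := good_D k (ρ ^ 6) (by positivity)
  obtain ⟨m2, hm2⟩ := good_D' k (ρ ^ 6) (by positivity)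
  obtain ⟨m3, hm3⟩ := good_gm 2 (good_D k) (ρ ^ 6) (by positivity)
  intro η hη
  refine ⟨max (max m1 m2) (max m3 1), fun m hm D M hM a b s t hs ht => ?_⟩
  have hm0 : 0 < m := by omega
  have hM0 := hM.nonneg
  have hρ2 : ρ ^ 2 ≤ 2 := by nlinarith
  have key := mp_line hm0 (n := fun b t φ => D.N a b s t φ) (fun b t => D.smul a b s t)
    (D.conty a s) (fun b => D.nmy a b s) (φ := fun _ _ => l1) (fun _ => differentiable_const _)
    (fun _ _ => l1_ne) (d := 6 * m + 1) (fun b t => D.ty1 a b s t)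
    (Λ := fun Y => Y 0 * Y 1 * (Y 0 + Y 1)) (e := 3) (by norm_num)
    (by fun_prop) (fun c X => by simp only [Pi.smul_apply, smul_eq_mul]; ring)
    (C := 2) (r := ρ ^ 2) (Mb := 730 * ρ ^ 6 * M) (by positivity) hρ2 ?_ (by positivity) ?_ b t ht
  · refine key.trans ?_
    have h1 : 1 ≤ 2 / ρ ^ 2 := (one_le_div (by positivity)).mpr hρ2
    have h2 : (((6 * m + 1 : ℕ) : ℝ) / (m * 3 : ℕ)) ≤ 5 / 2 := by
      have : (1 : ℝ) ≤ m := by exact_mod_cast hm0
      rw [div_le_iff₀ (by push_cast; linarith)]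
      push_cast; linarith
    have h3 := Real.rpow_le_rpow_of_exponent_le h1 h2
    have h4 : 2 / ρ ^ 2 ≤ (2 / ρ) ^ (2 : ℝ) := by
      rw [Real.rpow_two, div_pow]
      exact div_le_div_of_nonneg_right (by norm_num) (by positivity)
    have h5 := Real.rpow_le_rpow (by positivity) h4 (show (0 : ℝ) ≤ 5 / 2 by norm_num)
    rw [← Real.rpow_mul (by positivity), show (2 : ℝ) * (5 / 2) = ((5 : ℕ) : ℝ) by norm_num,
      Real.rpow_natCast] at h5
    have h6 : 730 * ρ ^ 6 * (2 / ρ) ^ 5 = 23360 * ρ := by field_simp; norm_num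
    have h7 : 1 ≤ ‖hv b (t ^ m)‖ ^ 6 := one_le_pow₀ (one_le_norm_hv _ _)
    calc _ ≤ 730 * ρ ^ 6 * M * (2 / ρ) ^ 5 :=
          mul_le_mul_of_nonneg_left (h3.trans h5) (by positivity)
      _ = 730 * ρ ^ 6 * (2 / ρ) ^ 5 * M := by ring
      _ ≤ _ := by
          rw [h6]
          exact mul_le_mul_of_nonneg_right (by linarith) hM0
  · intro b T hT
    have a1 := (norm_le_pi_norm (hv b T) 0).trans (norm_hv_le b hT)
    have a2 := (norm_le_pi_norm (hv b T) 1).trans (norm_hv_le b hT)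
    have a3 := norm_add_le (hv b T 0) (hv b T 1)
    rw [norm_mul, norm_mul]
    have a4 : ‖hv b T 0‖ * ‖hv b T 1‖ ≤ 1 := mul_le_one₀ a1 (norm_nonneg _) a2
    have a5 := norm_nonneg (hv b T 0 + hv b T 1)
    nlinarith
  · intro b t ht h
    rcases three_points hρ hu hv' b (norm_pow_le ht m) h with h1 | h1 | h1
    · exact (hm1 m (by omega) D M hM a b s t hs ht).trans
        (mul_le_mul_of_nonneg_right (by linarith) hM0)
    · exact (hm2 m (by omega) D M hM a b s t hs ht).trans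
        (mul_le_mul_of_nonneg_right (by linarith) hM0)
    · exact (hm3 m (by omega) D M hM a b s t hs ht).trans
        (mul_le_mul_of_nonneg_right (by linarith) hM0)

theorem no_ND : ∃ m : ℕ, 0 < m ∧ ∀ _ : ND m, False := by
  obtain ⟨m1, hm1⟩ := good_quarter (1 / 4) (by norm_num)
  obtain ⟨m2, hm2⟩ := stepAB 0 (hf_norm (1 / 4) (by norm_num)) good_quarter (1 / 4) (by norm_num)
  refine ⟨max (max m1 m2) 1, by omega, fun D => ?_⟩
  set m := max (max m1 m2) 1 with hm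
  have step : ∀ M, Bnd D M → Bnd D (1 / 2 * M) := by
    intro M hM a b s t hs ht
    have hM0 := hM.nonneg
    have a1 : ‖hv b (t ^ m)‖ ^ 6 ≤ 1 := pow_le_one₀ (norm_nonneg _) (norm_hv_le _ (norm_pow_le ht m))
    have a2 : ‖hv a (s ^ m)‖ ^ 6 ≤ 1 := pow_le_one₀ (norm_nonneg _) (norm_hv_le _ (norm_pow_le hs m))
    refine ⟨(hm1 m (by omega) D M hM a b s t hs ht).trans
        (mul_le_mul_of_nonneg_right (by linarith) hM0),
      (hm2 m (by omega) D M hM a b s t hs ht).trans (mul_le_mul_of_nonneg_right ?_ hM0)⟩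
    simp only [gm, cons_val_zero, one_mulVec]
    linarith
  obtain ⟨C1, hC1, h1⟩ := bdd (Ψ := fun a b s t => D.N a b s t l1) (fun a b =>
    (D.cont a b).comp (f := fun p : ℂ × ℂ => (p, l1)) (by fun_prop))
  obtain ⟨C2, hC2, h2⟩ := bdd
    (Ψ := fun a b s t => D.N a b s t (l2 b (hv a (s ^ m)) (hv b (t ^ m)))) (fun a b => by
      have c1 : Continuous (fun p : ℂ × ℂ => hv a (p.1 ^ m)) := (cont_hv a).comp (by fun_prop)
      have c2 : Continuous (fun p : ℂ × ℂ => hv b (p.2 ^ m)) := (cont_hv b).comp (by fun_prop)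
      have c3 := pS.cont c1 c2
      have c4 := (pB b).cont c1 c2
      refine (D.cont a b).comp
        (f := fun p : ℂ × ℂ => (p, l2 b (hv a (p.1 ^ m)) (hv b (p.2 ^ m)))) ?_
      refine continuous_id.prodMk (continuous_pi fun j => ?_)
      fin_cases j
      · exact c3
      · exact c4.neg)
  have all : ∀ n : ℕ, Bnd D ((1 / 2) ^ n * max C1 C2) := by
    intro n
    induction n with
    | zero =>
      intro a b s t hs ht
      simp only [pow_zero, one_mul]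
      exact ⟨le_max_of_le_left (h1 a b s t hs ht), le_max_of_le_right (h2 a b s t hs ht)⟩
    | succ n ih =>
      have := step _ ih
      rwa [← mul_assoc, ← pow_succ'] at this
  have hp := D.pos 0 0 0 0 l1 l1_ne
  have hC : 0 < max C1 C2 := by positivity
  obtain ⟨n, hn⟩ := exists_pow_lt_of_lt_one (x := D.N 0 0 0 0 l1 / max C1 C2) (y := 1 / 2)
    (by positivity) (by norm_num)
  have := (all n 0 0 0 0 (by simp) (by simp)).1
  rw [lt_div_iff₀ hC] at hn
  linarith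

end Vale.Agent.P296
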