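import Vale.Agent.P296.Tab2

/-! The bihomogeneous forms used in the construction and their general properties. -/

namespace Vale.Agent.P296

open Matrix

section H
variable {R S : Type*} [CommRing R] [CommRing S]

theorem map_h1 (f : R →+* S) (Y0 Y1 : R) (l : List ℤ) :
    f (h1 Y0 Y1 l) = h1 (f Y0) (f Y1) l := by
  induction l with
  | nil => simp [h1]
  | cons c l ih => simp [h1, ih]

theorem map_h2 (f : R →+* S) (X0 X1 Y0 Y1 : R) (t : List (List ℤ)) :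
    f (h2 X0 X1 Y0 Y1 t) = h2 (f X0) (f X1) (f Y0) (f Y1) t := by
  induction t with
  | nil => simp [h2]
  | cons c l ih => simp [h2, ih, map_h1]

theorem h1_smul (m Y0 Y1 : R) (l : List ℤ) (b : ℕ) (h : l.length = b + 1) :
    h1 (m * Y0) (m * Y1) l = m ^ b * h1 Y0 Y1 l := by
  induction l generalizing b with
  | nil => simp at h
  | cons c l ih =>
    have hb : l.length = b := by simpa using h
    cases b with
    | zero =>
      have : l = [] := List.length_eq_zero_iff.mp hb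
      subst this; simp [h1]
    | succ b => simp only [h1, ih b hb, hb]; ring

theorem h2_smul (k m X0 X1 Y0 Y1 : R) (t : List (List ℤ)) (a b : ℕ) (h : t.length = a + 1)
    (h' : ∀ r ∈ t, r.length = b + 1) :
    h2 (k * X0) (k * X1) (m * Y0) (m * Y1) t = k ^ a * m ^ b * h2 X0 X1 Y0 Y1 t := by
  induction t generalizing a with
  | nil => simp at h
  | cons c l ih =>
    have ha : l.length = a := by simpa using h
    have hc := h1_smul m Y0 Y1 c b (h' c (by simp))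
    cases a with
    | zero =>
      have : l = [] := List.length_eq_zero_iff.mp ha
      subst this; simp [h2, hc]
    | succ a =>
      simp only [h2, ih a ha (fun r hr => h' r (by simp [hr])), ha, hc]; ring

end H

theorem diff_h1 {E : Type*} [NormedAddCommGroup E] [NormedSpace ℂ E] {Y0 Y1 : E → ℂ} {e : E}
    (h0 : DifferentiableAt ℂ Y0 e) (h1' : DifferentiableAt ℂ Y1 e) (l : List ℤ) :
    DifferentiableAt ℂ (fun x => h1 (Y0 x) (Y1 x) l) e := by
  induction l with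
  | nil => simp [h1]
  | cons c l ih => simp only [h1]; fun_prop

theorem diff_h2 {E : Type*} [NormedAddCommGroup E] [NormedSpace ℂ E] {X0 X1 Y0 Y1 : E → ℂ} {e : E}
    (a0 : DifferentiableAt ℂ X0 e) (a1 : DifferentiableAt ℂ X1 e)
    (b0 : DifferentiableAt ℂ Y0 e) (b1 : DifferentiableAt ℂ Y1 e) (t : List (List ℤ)) :
    DifferentiableAt ℂ (fun x => h2 (X0 x) (X1 x) (Y0 x) (Y1 x) t) e := by
  induction t with
  | nil => simp [h2]
  | cons c l ih =>
    have := diff_h1 b0 b1 c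
    simp only [h2]; fun_prop

noncomputable def qr : ℝ := √3

noncomputable def qq : ℂ := (qr : ℂ)

theorem qr_sq : qr ^ 2 = 3 := Real.sq_sqrt (by norm_num)

theorem qr_pos : 0 < qr := Real.sqrt_pos.mpr (by norm_num)

theorem qr_gt : 1.7 < qr := by nlinarith [qr_sq, qr_pos]

theorem qr_lt : qr < 1.8 := by nlinarith [qr_sq, qr_pos]

theorem qq_sq : qq ^ 2 = 3 := by
  rw [qq]; exact_mod_cast qr_sq

/-- A bihomogeneous form of bidegree `(a, b)` with coefficients in `ℤ[√3, 1/2]`. -/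
structure BP (a b : ℕ) where
  n : ℕ
  ta : List (List ℤ)
  tb : List (List ℤ)
  wf : (ta.length = a + 1 ∧ ∀ r ∈ ta, r.length = b + 1) ∧
    (tb.length = a + 1 ∧ ∀ r ∈ tb, r.length = b + 1)

section
variable {A A' : Type*} [CommRing A] [Algebra ℂ A] [CommRing A'] [Algebra ℂ A'] {a b : ℕ}

noncomputable def BP.ev (P : BP a b) (X Y : Fin 2 → A) : A :=
  algebraMap ℂ A (1 / 2) ^ P.n * (h2 (X 0) (X 1) (Y 0) (Y 1) P.ta +
    algebraMap ℂ A qq * h2 (X 0) (X 1) (Y 0) (Y 1) P.tb)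

theorem BP.map_ev (P : BP a b) (f : A →+* A') (hf : ∀ c, f (algebraMap ℂ A c) = algebraMap ℂ A' c)
    (X Y : Fin 2 → A) : f (P.ev X Y) = P.ev (fun i => f (X i)) (fun i => f (Y i)) := by
  simp only [BP.ev, map_mul, map_add, map_pow, map_h2, hf]

theorem BP.ev_smul (P : BP a b) (k m : A) (X Y : Fin 2 → A) :
    P.ev (k • X) (m • Y) = k ^ a * m ^ b * P.ev X Y := by
  simp only [BP.ev, Pi.smul_apply, smul_eq_mul, h2_smul _ _ _ _ _ _ _ a b P.wf.1.1 P.wf.1.2,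
    h2_smul _ _ _ _ _ _ _ a b P.wf.2.1 P.wf.2.2]
  ring

theorem BP.ev_smul_left (P : BP a b) (k : A) (X Y : Fin 2 → A) :
    P.ev (k • X) Y = k ^ a * P.ev X Y := by
  simpa using P.ev_smul k 1 X Y

theorem BP.ev_smul_right (P : BP a b) (m : A) (X Y : Fin 2 → A) :
    P.ev X (m • Y) = m ^ b * P.ev X Y := by
  simpa using P.ev_smul 1 m X Y

theorem BP.diffAt (P : BP a b) {E : Type*} [NormedAddCommGroup E] [NormedSpace ℂ E]
    {X Y : E → Fin 2 → ℂ} {e : E} (hX : ∀ i, DifferentiableAt ℂ (fun x => X x i) e)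
    (hY : ∀ i, DifferentiableAt ℂ (fun x => Y x i) e) :
    DifferentiableAt ℂ (fun x => P.ev (X x) (Y x)) e := by
  have h1 := diff_h2 (hX 0) (hX 1) (hY 0) (hY 1) P.ta
  have h2 := diff_h2 (hX 0) (hX 1) (hY 0) (hY 1) P.tb
  simp only [BP.ev]
  fun_prop

theorem BP.continuous (P : BP a b) :
    Continuous (fun p : (Fin 2 → ℂ) × (Fin 2 → ℂ) => P.ev p.1 p.2) := by
  have : Differentiable ℂ (fun p : (Fin 2 → ℂ) × (Fin 2 → ℂ) => P.ev p.1 p.2) := fun p =>
    P.diffAt (fun i => by fun_prop) (fun i => by fun_prop)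
  exact this.continuous

theorem BP.cont (P : BP a b) {E : Type*} [TopologicalSpace E] {X Y : E → Fin 2 → ℂ}
    (hX : Continuous X) (hY : Continuous Y) : Continuous (fun x => P.ev (X x) (Y x)) :=
  P.continuous.comp (hX.prodMk hY)

def pS : BP 3 3 := ⟨0, tSa, tSb, by decide⟩
def pR : BP 3 7 := ⟨4, tRa, tRb, by decide⟩
def pB : Fin 2 → BP 6 2 := ![⟨3, tB0a, tB0b, by decide⟩, ⟨3, tB1a, tB1b, by decide⟩]
def pA : Fin 2 → BP 2 6 := ![⟨3, tA0a, tA0b, by decide⟩, ⟨3, tA1a, tA1b, by decide⟩]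
def pQ : Fin 2 → Fin 2 → BP 5 5 :=
  ![![⟨7, tQ00a, tQ00b, by decide⟩, ⟨7, tQ01a, tQ01b, by decide⟩],
    ![⟨7, tQ10a, tQ10b, by decide⟩, ⟨7, tQ11a, tQ11b, by decide⟩]]

theorem alg_half : 2 * algebraMap ℂ A (1 / 2) = 1 := by
  rw [← map_ofNat (algebraMap ℂ A) 2, ← map_mul]; norm_num

theorem alg_qq : algebraMap ℂ A qq ^ 2 = 3 := by
  rw [← map_pow, qq_sq, map_ofNat]

theorem idR (X Y : Fin 2 → A) :
    (pB 1).ev X Y * Y 0 ^ 8 - (pB 0).ev X Y * Y 1 ^ 8 = pS.ev X Y * pR.ev X Y := by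
  have ha := idRa (X 0) (X 1) (Y 0) (Y 1)
  have hb := idRb (X 0) (X 1) (Y 0) (Y 1)
  have hh := alg_half (A := A)
  have hq := alg_qq (A := A)
  simp only [BP.ev, pB, pS, pR, cons_val_zero, cons_val_one]
  generalize algebraMap ℂ A (1 / 2) = h at *
  generalize algebraMap ℂ A qq = q at *
  generalize h2 (X 0) (X 1) (Y 0) (Y 1) = F at *
  linear_combination h ^ 4 * ha + h ^ 4 * q * hb - (h ^ 4 * F tSb * F tRb) * hq -
    h ^ 3 * ((F tB1a + q * F tB1b) * Y 0 ^ 8 - (F tB0a + q * F tB0b) * Y 1 ^ 8) * hh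

omit [Algebra ℂ A] in
theorem idQ_aux {h q Aa Ab Ba Bb Sa Sb Qa Qb W : A} (hh : 2 * h = 1) (hq : q ^ 2 = 3)
    (ha : 2 * (Aa * Ba + 3 * (Ab * Bb)) - 128 * W = Sa * Qa + 3 * (Sb * Qb))
    (hb : 2 * (Aa * Bb + Ab * Ba) = Sa * Qb + Sb * Qa) :
    h ^ 3 * (Aa + q * Ab) * (h ^ 3 * (Ba + q * Bb)) - W =
      h ^ 0 * (Sa + q * Sb) * (h ^ 7 * (Qa + q * Qb)) := by
  have h7 : 128 * h ^ 7 = 1 := by
    have : (2 * h) ^ 7 = 1 := by rw [hh, one_pow]
    linear_combination this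
  linear_combination h ^ 7 * ha + h ^ 7 * q * hb + (2 * h ^ 7 * Ab * Bb - h ^ 7 * Sb * Qb) * hq -
    h ^ 6 * (Aa + q * Ab) * (Ba + q * Bb) * hh + W * h7

theorem idQ (j b : Fin 2) (X Y : Fin 2 → A) :
    (pA j).ev X Y * (pB b).ev X Y - X j ^ 8 * Y b ^ 8 = pS.ev X Y * (pQ j b).ev X Y := by
  fin_cases j <;> fin_cases b
  · exact idQ_aux alg_half alg_qq (idQ00a _ _ _ _) (idQ00b _ _ _ _)
  · exact idQ_aux alg_half alg_qq (idQ01a _ _ _ _) (idQ01b _ _ _ _)
  · exact idQ_aux alg_half alg_qq (idQ10a _ _ _ _) (idQ10b _ _ _ _)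
  · exact idQ_aux alg_half alg_qq (idQ11a _ _ _ _) (idQ11b _ _ _ _)

theorem idSig (X Y : Fin 2 → A) :
    pS.ev X Y = (X 0 * Y 1 - X 1 * Y 0) *
      (((algebraMap ℂ A qq - 1) * X 0 - (algebraMap ℂ A qq + 1) * X 1) * Y 1 -
        ((algebraMap ℂ A qq - 1) * X 0 + (algebraMap ℂ A qq + 1) * X 1) * Y 0) *
      (((algebraMap ℂ A qq - 1) * X 0 + (algebraMap ℂ A qq - 1) * X 1) * Y 1 -
        (-(algebraMap ℂ A qq + 1) * X 0 + (algebraMap ℂ A qq + 1) * X 1) * Y 0) := by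
  rw [← idS _ _ _ _ _ alg_qq]
  simp [BP.ev, pS]

end

/-- The determinant of two plane vectors. -/
def dt (U Y : Fin 2 → ℂ) : ℂ := U 0 * Y 1 - U 1 * Y 0

/-- The three matrices whose graphs form the curve. -/
noncomputable def gm : Fin 3 → Matrix (Fin 2) (Fin 2) ℂ :=
  ![1, !![(qq - 1) / 2, -((qq + 1) / 2); (qq - 1) / 2, (qq + 1) / 2],
    !![(qq - 1) / 2, (qq - 1) / 2; -((qq + 1) / 2), (qq + 1) / 2]]

theorem sig_eq (X Y : Fin 2 → ℂ) :
    pS.ev X Y = 4 * (dt (gm 0 *ᵥ X) Y * dt (gm 1 *ᵥ X) Y * dt (gm 2 *ᵥ X) Y) := by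
  rw [idSig]
  simp [dt, gm, mulVec, dotProduct, Fin.sum_univ_two, one_apply]
  ring

theorem norm_B (i : Fin 3) (b : Fin 2) (X : Fin 2 → ℂ) :
    ‖(pB b).ev X (gm i *ᵥ X)‖ = ‖(gm i *ᵥ X) b‖ ^ 8 := by
  have key : ∀ Y : Fin 2 → ℂ, 8 * (h2 (X 0) (X 1) (2 * Y 0) (2 * Y 1) (pB b).ta +
      qq * h2 (X 0) (X 1) (2 * Y 0) (2 * Y 1) (pB b).tb) = - (2 * Y b) ^ 8 →
      ‖(pB b).ev X Y‖ = ‖Y b‖ ^ 8 := by
    intro Y hY
    have h1 := (pB b).ev_smul_right 2 X Y
    have hn : (pB b).n = 3 := by fin_cases b <;> rfl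
    have h2' : (pB b).ev X Y = - Y b ^ 8 := by
      simp only [BP.ev, Pi.smul_apply, smul_eq_mul, Algebra.algebraMap_self, RingHom.id_apply,
        hn] at h1 ⊢
      linear_combination (1 / 256) * hY - (1 / 4) * h1
    rw [h2', norm_neg, norm_pow]
  fin_cases i
  · have : (pB b).ev X X = X b ^ 8 := by
      fin_cases b
      · have := idB00 qq (X 0) (X 1)
        simp only [BP.ev, pB, Fin.zero_eta, cons_val_zero, Algebra.algebraMap_self, RingHom.id_apply]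
        linear_combination (1 / 8) * this
      · have := idB01 qq (X 0) (X 1)
        simp only [BP.ev, pB, Fin.mk_one, cons_val_one, cons_val_zero, Algebra.algebraMap_self,
          RingHom.id_apply]
        linear_combination (1 / 8) * this
    simp [gm, this]
  · apply key
    have e0 : 2 * (gm 1 *ᵥ X) 0 = (qq - 1) * X 0 - (qq + 1) * X 1 := by
      simp [gm, mulVec, dotProduct, Fin.sum_univ_two]; ring
    have e1 : 2 * (gm 1 *ᵥ X) 1 = (qq - 1) * X 0 + (qq + 1) * X 1 := by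
      simp [gm, mulVec, dotProduct, Fin.sum_univ_two]; ring
    fin_cases b
    · simp only [Fin.mk_one, Fin.zero_eta, e0, e1]
      exact idB10 qq (X 0) (X 1) qq_sq
    · simp only [Fin.mk_one, e0, e1]
      exact idB11 qq (X 0) (X 1) qq_sq
  · apply key
    have e0 : 2 * (gm 2 *ᵥ X) 0 = (qq - 1) * X 0 + (qq - 1) * X 1 := by
      simp [gm, mulVec, dotProduct, Fin.sum_univ_two]; ring
    have e1 : 2 * (gm 2 *ᵥ X) 1 = -(qq + 1) * X 0 + (qq + 1) * X 1 := by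
      simp [gm, mulVec, dotProduct, Fin.sum_univ_two]; ring
    fin_cases b
    · simp only [Fin.reduceFinMk, Fin.zero_eta, e0, e1]
      exact idB20 qq (X 0) (X 1) qq_sq
    · simp only [Fin.reduceFinMk, Fin.mk_one, e0, e1]
      exact idB21 qq (X 0) (X 1) qq_sq

end Vale.Agent.P296
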