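import Vale.Agent.P296.Conv

/-! Sections of the tautological bundle of `E m`. -/

namespace Vale.Agent.P296

open Matrix

theorem IsG.mul {j a b j' a' b' : ℕ} {S S' : Fin 2 → V → ℂ → V → ℂ} (h : IsG j a b S)
    (h' : IsG j' a' b' S') :
    IsG (j + j') (a + a') (b + b') (fun c X T φ => S c X T φ * S' c X T φ) := by
  refine ⟨fun c => ⟨(h.hol c).diff.mul (h'.hol c).diff, fun k X T φ => ?_, fun k X T φ => ?_⟩,
    fun X t φ ht => ?_⟩
  · rw [(h.hol c).homX, (h'.hol c).homX]; ring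
  · rw [(h.hol c).homP, (h'.hol c).homP]; ring
  · rw [h.glue X t φ ht, h'.glue X t φ ht]; ring

theorem IsG.pow {j a b : ℕ} {S : Fin 2 → V → ℂ → V → ℂ} (h : IsG j a b S) (n : ℕ) :
    IsG (n * j) (n * a) (n * b) (fun c X T φ => S c X T φ ^ n) := by
  refine ⟨fun c => ⟨(h.hol c).diff.pow n, fun k X T φ => ?_, fun k X T φ => ?_⟩,
    fun X t φ ht => ?_⟩
  · rw [(h.hol c).homX]; ring
  · rw [(h.hol c).homP]; ring
  · rw [h.glue X t φ ht]; ring

theorem dY (c b : Fin 2) : Differentiable ℂ (fun p : V × ℂ × V => hv c p.2.1 b) :=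
  (diff_hv' c b).comp (by fun_prop)

theorem dP {a b : ℕ} (P : BP a b) (c : Fin 2) :
    Differentiable ℂ (fun p : V × ℂ × V => P.ev p.1 (hv c p.2.1)) :=
  fun p => P.diffAt (fun i => by fun_prop) (fun i => dY c i p)

theorem hv_flip0 {t : ℂ} (ht : t ≠ 0) : hv 1 t⁻¹ = t⁻¹ • hv 0 t := by
  rw [hv_flip 1 (inv_ne_zero ht), inv_inv]; rfl

theorem isG_mono (a b : Fin 2) (n : ℕ) : IsG 0 n n (fun c X T _ => X a ^ n * hv c T b ^ n) := by
  refine ⟨fun c => ⟨?_, fun k X T φ => ?_, fun k X T φ => by simp⟩, fun X t φ ht => ?_⟩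
  · have := dY c b
    fun_prop
  · simp only [Pi.smul_apply, smul_eq_mul]; ring
  · simp only [hv_flip0 ht, Pi.smul_apply, smul_eq_mul, mul_pow]
    have : t ^ n * t⁻¹ ^ n = 1 := by rw [← mul_pow, mul_inv_cancel₀ ht, one_pow]
    linear_combination -(X a ^ n * hv 0 t b ^ n) * this

noncomputable def UV (c : Fin 2) (X : V) (T : ℂ) (φ : V) : ℂ :=
  φ 0 * ((pB c).ev X (hv c T) * φ 0 + pS.ev X (hv c T) * φ 1)

theorem isG_UV : IsG 2 0 0 UV := by
  refine ⟨fun c => ⟨?_, fun k X T φ => ?_, fun k X T φ => ?_⟩, fun X t φ ht => ?_⟩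
  · have := dP (pB c) c
    have := dP pS c
    simp only [UV]
    fun_prop
  · simp only [UV, BP.ev_smul_left, cons_val_zero, cons_val_one]; ring
  · simp only [UV, Pi.smul_apply, smul_eq_mul]; ring
  · have h := B_flip 0 X ht
    have e5 : (0 : Fin 2).rev = 1 := rfl
    have e6 : eps 0 1 = 1 := by simp [eps]
    rw [e5, e6] at h
    have h1 : t⁻¹ ^ 6 * t ^ 6 = 1 := by field_simp
    simp only [UV, hv_flip0 ht, BP.ev_smul_right, cons_val_zero, cons_val_one]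
    linear_combination (φ 0) ^ 2 * h - φ 0 * pS.ev X (hv 0 t) * (φ 1 - ee X (hv 0 t) * φ 0) * h1

/-- Generators of the basic bundle twisted by `(3, 3)`. -/
noncomputable def gen (i a b : Fin 2) (c : Fin 2) (X : V) (T : ℂ) (φ : V) : ℂ :=
  if i = 0 then φ 0 * X a ^ 6 else
    (hv c T b ^ 8 * φ 1 + eps b c * pR.ev X (hv c T) * φ 0) * X a ^ 3 * hv c T b

theorem isG_gen (i a b : Fin 2) : IsG 1 3 3 (gen i a b) := by
  refine ⟨fun c => ⟨?_, fun k X T φ => ?_, fun k X T φ => ?_⟩, fun X t φ ht => ?_⟩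
  · have := dP pR c
    have := dY c b
    simp only [gen]
    split_ifs <;> fun_prop
  · simp only [gen, BP.ev_smul_left, cons_val_zero, cons_val_one, Pi.smul_apply, smul_eq_mul]
    split_ifs <;> ring
  · simp only [gen, Pi.smul_apply, smul_eq_mul]
    split_ifs <;> ring
  · simp only [gen, hv_flip0 ht, BP.ev_smul_right, cons_val_zero, cons_val_one, Pi.smul_apply,
      smul_eq_mul, ee]
    split_ifs
    · field_simp
    · generalize pR.ev X (hv 0 t) = R
      fin_cases b <;> simp [hv, eps] <;> field_simp <;> ring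

theorem gen_self (i a b : Fin 2) (S T : ℂ) (φ : V) : gen i a b b (hv a S) T φ = φ i := by
  fin_cases i <;> simp [gen, eps]

theorem IsG.trans {j a b : ℕ} {S : Fin 2 → V → ℂ → V → ℂ} (h : IsG j a b S) (c c' : Fin 2)
    (X φ : V) (T T' k l : ℂ) (hk : k ≠ 0) (hY : hv c T = l • hv c' T') :
    S c (k • X) T ![k⁻¹ ^ 3 * l ^ 3 * φ 0,
      l⁻¹ ^ 6 * φ 1 + eps c c' * ee (k • X) (hv c T) * (k⁻¹ ^ 3 * l ^ 3 * φ 0)] =
      k ^ a * l ^ b * S c' X T' φ := by
  have hl := ne_of_hv_eq hY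
  have hφ : ![φ 0, φ 1] = φ := by funext i; fin_cases i <;> rfl
  have e1 : k ^ 3 * (k⁻¹ ^ 3 * l ^ 3 * φ 0) = l ^ 3 * φ 0 := by field_simp
  have e2 : ee (k • X) (hv c T) * (k⁻¹ ^ 3 * l ^ 3 * φ 0) = ee X (hv c T) * (l ^ 3 * φ 0) := by
    rw [ee_left]; field_simp
  rw [(h.hol c).homX, cons_val_zero, cons_val_one, cons_val_zero, e1, mul_assoc (eps c c'), e2,
    mul_assoc]
  congr 1
  have y0 := congrFun hY 0
  have y1 := congrFun hY 1
  fin_cases c <;> fin_cases c' <;> simp [hv] at y0 y1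
  · subst y0; simp at y1; subst y1; simp [eps, hφ]
  · subst y1
    have : T' = T⁻¹ := eq_inv_of_mul_eq_one_right y0.symm
    subst this
    simp only [Fin.zero_eta, Fin.mk_one]
    rw [h.glue X T _ hl]
    congr 2
    rw [← hφ]
    simp [eps]
    constructor <;> field_simp
  · subst y0
    have : T' = T⁻¹ := eq_inv_of_mul_eq_one_right y1.symm
    subst this
    simp only [Fin.zero_eta, Fin.mk_one]
    rw [h.glue X T⁻¹ φ (inv_ne_zero hl), inv_inv, ← mul_assoc (T ^ b), ← mul_pow, mul_inv_cancel₀ hl,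
      one_pow, one_mul]
    congr 2
    have : ee X (hv 1 T) = T⁻¹ ^ 9 * ee X (hv 0 T⁻¹) := by
      rw [show hv 1 T = T • hv 0 T⁻¹ from hY]; simpa using ee_smul 1 T X (hv 0 T⁻¹)
    rw [this]
    simp [eps]
    field_simp
    ring
  · subst y1; simp at y0; subst y0; simp [eps, hφ]

/-- Pull back of a section along the power map, multiplied by forms on the two factors. -/
noncomputable def pull (m : ℕ) {k a b n1 n2 : ℕ} {S : Fin 2 → V → ℂ → V → ℂ} (h : IsG k a b S)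
    (h1 : m * a + n1 = k) (h2 : m * b + n2 = k) (P Q : V → ℂ) (hP : Differentiable ℂ P)
    (hQ : Differentiable ℂ Q) (hP' : ∀ (c : ℂ) x, P (c • x) = c ^ n1 * P x)
    (hQ' : ∀ (c : ℂ) x, Q (c • x) = c ^ n2 * Q x) : TautSection (EE m) k where
  f α p := S α.2 (hv α.1 (p.1 0 ^ m)) (p.1 1 ^ m) p.2 * (P (hv α.1 (p.1 0)) * Q (hv α.2 (p.1 1)))
  holo α := by
    have a1 : Differentiable ℂ (fun p : V × V => hv α.1 (p.1 0 ^ m)) :=
      (diff_hv_pow α.1 m).comp (f := fun p : V × V => p.1 0) (by fun_prop)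
    have a2 : ∀ a i, Differentiable ℂ (fun p : V × V => hv a (p.1 i)) := fun a i =>
      differentiable_pi.mpr fun c => (diff_hv a c i).comp differentiable_fst
    refine Differentiable.mul ?_ ((hP.comp (a2 _ _)).mul (hQ.comp (a2 _ _)))
    exact (h.hol α.2).diff.comp
      (f := fun p : V × V => (hv α.1 (p.1 0 ^ m), p.1 1 ^ m, p.2)) (by fun_prop)
  homog α z φ c := by
    simp only [(h.hol α.2).homP]; ring
  compat α β z w φ hc := by
    obtain ⟨c1, c2⟩ := (chart_eq_iff _ _ _ _).mp hc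
    have n1' := ne_of_hv_eq c1
    have n2' := ne_of_hv_eq c2
    set l := hv α.1 (z 0) β.1 with hl
    set u := hv α.2 (z 1) β.2 with hu
    have e1 : hv α.1 (z 0 ^ m) = l ^ m • hv β.1 (w 0 ^ m) := by
      rw [← hv_pow, c1, smul_pow, hv_pow]
    have e2 : hv α.2 (z 1 ^ m) = u ^ m • hv β.2 (w 1 ^ m) := by
      rw [← hv_pow, c2, smul_pow, hv_pow]
    have e3 := h.trans α.2 β.2 (hv β.1 (w 0 ^ m)) φ _ _ (l ^ m) (u ^ m) (pow_ne_zero m n1') e2
    have e4 : φ ᵥ* (EE m).T α β z = (l⁻¹ * u⁻¹) • ![(l ^ m)⁻¹ ^ 3 * (u ^ m) ^ 3 * φ 0,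
        (u ^ m)⁻¹ ^ 6 * φ 1 + eps α.2 β.2 * ee (l ^ m • hv β.1 (w 0 ^ m)) (hv α.2 (z 1 ^ m)) *
          ((l ^ m)⁻¹ ^ 3 * (u ^ m) ^ 3 * φ 0)] := by
      rw [← e1]
      funext i
      fin_cases i
      · simp [EE, TT, d0, ← hl, ← hu, vecHead]; ring
      · simp [EE, TT, d0, d1, ← hl, ← hu, hv_pow, vecHead, vecTail]; ring
    simp only
    rw [e4, (h.hol α.2).homP, e1, e3, c1, c2, hP', hQ']
    have f1 : l⁻¹ ^ k * ((l ^ m) ^ a * l ^ n1) = 1 := by
      rw [← pow_mul, ← pow_add, h1, ← mul_pow, inv_mul_cancel₀ n1', one_pow]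
    have f2 : u⁻¹ ^ k * ((u ^ m) ^ b * u ^ n2) = 1 := by
      rw [← pow_mul, ← pow_add, h2, ← mul_pow, inv_mul_cancel₀ n2', one_pow]
    calc _ = (l⁻¹ ^ k * ((l ^ m) ^ a * l ^ n1)) * (u⁻¹ ^ k * ((u ^ m) ^ b * u ^ n2)) *
          (S β.2 (hv β.1 (w 0 ^ m)) (w 1 ^ m) φ * (P (hv β.1 (w 0)) * Q (hv β.2 (w 1)))) := by ring
      _ = _ := by rw [f1, f2]; ring

/-- A base point free family. -/
theorem bpf (n : ℕ) : ∃ S : Fin 3 × Fin 2 × Fin 2 → Fin 2 → V → ℂ → V → ℂ,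
    (∀ r, IsG (2 * n + 2) 9 9 (S r)) ∧
    ∀ a c s T φ, φ ≠ 0 → ∃ r, S r c (hv a s) T φ ≠ 0 := by
  choose SU hU eU using exU (2 * n + 1)
  choose SV hV eV using exV (2 * n + 1)
  let SW : Fin 2 → Fin 2 → Fin 2 → V → ℂ → V → ℂ := fun a b c X T φ =>
    UV c X T φ ^ (n + 1) * (X a ^ 9 * hv c T b ^ 9)
  have hW : ∀ a b, IsG (2 * n + 2) 9 9 (SW a b) := by
    intro a b
    have := (isG_UV.pow (n + 1)).mul (isG_mono a b 9)
    rwa [show (n + 1) * 2 + 0 = 2 * n + 2 by ring, show (n + 1) * 0 + 9 = 9 by ring] at this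
  refine ⟨fun r => ![SU, SV, SW] r.1 r.2.1 r.2.2, ?_, ?_⟩
  · rintro ⟨i, a, b⟩
    fin_cases i
    · exact hU a b
    · exact hV a b
    · exact hW a b
  · intro a c s T φ hφ
    by_cases h0 : φ 0 = 0
    · refine ⟨(0, a, c), ?_⟩
      have e : φ = ![0, φ 1] := by
        funext i; fin_cases i
        · exact h0
        · rfl
      have h1 : φ 1 ≠ 0 := by
        intro h1; apply hφ; rw [e, h1]; simp
      change SU a c c (hv a s) T φ ≠ 0
      rw [e, eU]
      simp [h1]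
    by_cases h1 : (pB c).ev (hv a s) (hv c T) * φ 0 + pS.ev (hv a s) (hv c T) * φ 1 = 0
    · refine ⟨(1, a, c), ?_⟩
      have hq := idQ a c (hv a s) (hv c T)
      simp only [hv_self, one_pow, mul_one] at hq
      set κ := -((pA a).ev (hv a s) (hv c T) * φ 1 + (pQ a c).ev (hv a s) (hv c T) * φ 0) with hκ
      have e : φ = κ • l2 c (hv a s) (hv c T) := by
        funext i; fin_cases i
        · simp only [Fin.zero_eta, l2, Pi.smul_apply, cons_val_zero, smul_eq_mul, hκ]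
          linear_combination -φ 0 * hq + (pA a).ev (hv a s) (hv c T) * h1
        · simp only [Fin.mk_one, l2, Pi.smul_apply, cons_val_one, cons_val_zero, smul_eq_mul, hκ]
          linear_combination -φ 1 * hq - (pQ a c).ev (hv a s) (hv c T) * h1
      have h2 : κ ≠ 0 := by
        intro h2; apply hφ; rw [e, h2, zero_smul]
      change SV a c c (hv a s) T φ ≠ 0
      rw [e, ((hV a c).hol c).homP, eV]
      simp [h2]
    · refine ⟨(2, a, c), ?_⟩
      change SW a c c (hv a s) T φ ≠ 0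
      simp [SW, UV, h0, h1]

end Vale.Agent.P296
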