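import Vale.Agent.P296.Defs

/-! Wirtinger calculus and the second derivative test along a complex coordinate line. -/

namespace Vale.Agent.P296

open Filter Topology Complex

abbrev V := Fin 2 → ℂ

variable {j : Fin 2} {f g : V → ℂ} {z : V}

theorem dz_congr (h : f =ᶠ[𝓝 z] g) : dz j f z = dz j g z := by
  simp only [dz, h.fderiv_eq]

theorem dzbar_congr (h : f =ᶠ[𝓝 z] g) : dzbar j f z = dzbar j g z := by
  simp only [dzbar, h.fderiv_eq]

theorem dz_add (hf : DifferentiableAt ℝ f z) (hg : DifferentiableAt ℝ g z) :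
    dz j (fun y => f y + g y) z = dz j f z + dz j g z := by
  simp only [dz, fderiv_fun_add hf hg, add_apply]; ring

theorem dzbar_add (hf : DifferentiableAt ℝ f z) (hg : DifferentiableAt ℝ g z) :
    dzbar j (fun y => f y + g y) z = dzbar j f z + dzbar j g z := by
  simp only [dzbar, fderiv_fun_add hf hg, add_apply]; ring

theorem dz_mul (hf : DifferentiableAt ℝ f z) (hg : DifferentiableAt ℝ g z) :
    dz j (fun y => f y * g y) z = dz j f z * g z + f z * dz j g z := by
  simp only [dz, fderiv_fun_mul hf hg, add_apply,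
    smul_apply, smul_eq_mul]; ring

theorem dzbar_mul (hf : DifferentiableAt ℝ f z) (hg : DifferentiableAt ℝ g z) :
    dzbar j (fun y => f y * g y) z = dzbar j f z * g z + f z * dzbar j g z := by
  simp only [dzbar, fderiv_fun_mul hf hg, add_apply,
    smul_apply, smul_eq_mul]; ring

theorem single_I (j : Fin 2) : (Pi.single j I : V) = I • (Pi.single j 1 : V) := by
  rw [← Pi.single_smul]; simp

theorem fderiv_real_of_holo (hf : DifferentiableAt ℂ f z) (v : V) :
    fderiv ℝ f z v = fderiv ℂ f z v := by
  rw [hf.fderiv_restrictScalars ℝ]; rfl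

theorem dz_holo (hf : DifferentiableAt ℂ f z) : dz j f z = fderiv ℂ f z (Pi.single j 1) := by
  simp only [dz, fderiv_real_of_holo hf, single_I, map_smul, smul_eq_mul]
  linear_combination (-(1 / 2) * fderiv ℂ f z (Pi.single j 1)) * I_mul_I

theorem dzbar_holo (hf : DifferentiableAt ℂ f z) : dzbar j f z = 0 := by
  simp only [dzbar, fderiv_real_of_holo hf, single_I, map_smul, smul_eq_mul]
  linear_combination ((1 / 2) * fderiv ℂ f z (Pi.single j 1)) * I_mul_I

theorem differentiableAt_star (hf : DifferentiableAt ℝ f z) :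
    DifferentiableAt ℝ (fun y => star (f y)) z :=
  (conjCLE.differentiableAt).comp z hf

theorem fderiv_star' (hf : DifferentiableAt ℝ f z) (v : V) :
    fderiv ℝ (fun y => star (f y)) z v = star (fderiv ℝ f z v) := by
  have h := (conjCLE.toContinuousLinearMap.hasFDerivAt (x := f z)).comp z hf.hasFDerivAt
  have h2 : fderiv ℝ (fun y => star (f y)) z = _ := h.fderiv
  rw [h2]; rfl

theorem dz_star_holo (hf : DifferentiableAt ℂ f z) : dz j (fun y => star (f y)) z = 0 := by
  have h := dzbar_holo (j := j) hf
  simp only [dzbar] at h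
  simp only [dz, fderiv_star' (hf.restrictScalars ℝ)]
  have h2 := congrArg star h
  simp only [star_mul', star_add, star_zero, Complex.star_def, conj_I, map_div₀, map_one,
    map_ofNat] at h2 ⊢
  linear_combination h2

/-- Second derivative test for a real function of a real variable. -/
theorem deriv_deriv_nonneg_of_isLocalMin {φ : ℝ → ℝ} (hc : ContinuousAt φ 0)
    (h : IsLocalMin φ 0) : 0 ≤ deriv (deriv φ) 0 := by
  by_contra hneg
  push Not at hneg
  have hmax := isLocalMax_of_deriv_deriv_neg hneg h.deriv_eq_zero hc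
  have hconst : φ =ᶠ[𝓝 0] fun _ => φ 0 := by
    filter_upwards [h, hmax] with x h1 h2 using le_antisymm h2 h1
  have h1 : deriv φ =ᶠ[𝓝 0] fun _ => (0 : ℝ) := by
    have := hconst.deriv
    simpa using this
  have h2 : deriv (deriv φ) 0 = 0 := by
    rw [h1.deriv_eq]; simp
  linarith

/-- First and second directional derivatives at a minimum along a real line. -/
theorem dir_test {n : V → ℝ} {z e : V} (hn : ContDiffAt ℝ 2 n z)
    (h : IsLocalMin (fun s : ℝ => n (z + s • e)) 0) :
    fderiv ℝ n z e = 0 ∧ 0 ≤ fderiv ℝ (fun y => fderiv ℝ n y e) z e := by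
  have hline : ∀ s : ℝ, HasDerivAt (fun s : ℝ => z + s • e) e s := by
    intro s
    simpa using ((hasDerivAt_id s).smul_const e).const_add z
  have hcont : Continuous (fun s : ℝ => z + s • e) := by fun_prop
  have htend : Tendsto (fun s : ℝ => z + s • e) (𝓝 0) (𝓝 z) := by
    have := hcont.tendsto 0
    simpa using this
  have hev : ∀ᶠ y in 𝓝 z, DifferentiableAt ℝ n y := by
    have := hn.eventually (by simp)
    filter_upwards [this] with y hy using hy.differentiableAt (by simp)
  have hd : deriv (fun s : ℝ => n (z + s • e)) =ᶠ[𝓝 0]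
      fun s : ℝ => fderiv ℝ n (z + s • e) e := by
    filter_upwards [htend.eventually hev] with s hs
    exact (hs.hasFDerivAt.comp_hasDerivAt s (hline s)).deriv
  have hd1 : DifferentiableAt ℝ (fun y => fderiv ℝ n y e) z := by
    have h1 : ContDiffAt ℝ 1 (fderiv ℝ n) z := hn.fderiv_right (by norm_num)
    exact (h1.differentiableAt (by simp)).clm_apply (differentiableAt_const e)
  constructor
  · have := h.deriv_eq_zero
    rw [hd.self_of_nhds] at this
    simpa using this
  · have hc : ContinuousAt (fun s : ℝ => n (z + s • e)) 0 := by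
      have : ContinuousAt n (z + (0 : ℝ) • e) := by simpa using hn.continuousAt
      exact ContinuousAt.comp (f := fun s : ℝ => z + s • e) this hcont.continuousAt
    have h2 := deriv_deriv_nonneg_of_isLocalMin hc h
    rw [hd.deriv_eq] at h2
    have hd2 : HasFDerivAt (fun y => fderiv ℝ n y e) (fderiv ℝ (fun y => fderiv ℝ n y e) z)
        (z + (0 : ℝ) • e) := by simpa using hd1.hasFDerivAt
    have h3 := (hd2.comp_hasDerivAt (0 : ℝ) (hline 0)).deriv
    rw [← h3]; exact h2

theorem fderiv_ofReal {n : V → ℝ} {z : V} (hn : DifferentiableAt ℝ n z) (v : V) :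
    fderiv ℝ (fun y => (n y : ℂ)) z v = (fderiv ℝ n z v : ℂ) := by
  have h := (ofRealCLM.hasFDerivAt (x := n z)).comp z hn.hasFDerivAt
  have h2 : fderiv ℝ (fun y => (n y : ℂ)) z = _ := h.fderiv
  rw [h2]; rfl

/-- The Levi form is nonnegative at a local minimum along a coordinate line. -/
theorem levi_test {n : V → ℝ} {z : V} (hn : ContDiffAt ℝ 2 n z)
    (h : IsLocalMin (fun t : ℂ => n (z + Pi.single j t)) 0) :
    dz j (fun y => (n y : ℂ)) z = 0 ∧
      0 ≤ (dzbar j (dz j (fun y => (n y : ℂ))) z).re := by
  have key : ∀ c : ℂ, IsLocalMin (fun s : ℝ => n (z + s • (Pi.single j c : V))) 0 := by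
    intro c
    have hc : ContinuousAt (fun s : ℝ => (s : ℂ) * c) 0 := by fun_prop
    have h' : IsLocalMin (fun t : ℂ => n (z + Pi.single j t)) ((fun s : ℝ => (s : ℂ) * c) 0) := by
      simpa using h
    have := IsLocalMin.comp_continuous (g := fun s : ℝ => (s : ℂ) * c) h' hc
    have he : (fun s : ℝ => n (z + s • (Pi.single j c : V))) =
        (fun t : ℂ => n (z + Pi.single j t)) ∘ fun s : ℝ => (s : ℂ) * c := by
      funext s
      simp only [Function.comp]
      congr 2
      rw [← Pi.single_smul]; simp
    rw [he]; exact this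
  obtain ⟨a1, a2⟩ := dir_test hn (key 1)
  obtain ⟨b1, b2⟩ := dir_test hn (key I)
  have hev : ∀ᶠ y in 𝓝 z, DifferentiableAt ℝ n y := by
    have := hn.eventually (by simp)
    filter_upwards [this] with y hy using hy.differentiableAt (by simp)
  have hd1 : ∀ e : V, DifferentiableAt ℝ (fun y => fderiv ℝ n y e) z := by
    intro e
    have h1 : ContDiffAt ℝ 1 (fderiv ℝ n) z := hn.fderiv_right (by norm_num)
    exact (h1.differentiableAt (by simp)).clm_apply (differentiableAt_const e)
  constructor
  · simp only [dz, fderiv_ofReal hev.self_of_nhds, a1, b1]; simp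
  · have hE : dz j (fun y => (n y : ℂ)) =ᶠ[𝓝 z] fun y =>
        (1 / 2 : ℂ) * ((fderiv ℝ n y (Pi.single j 1) : ℝ) : ℂ) +
          (-(1 / 2) * I) * ((fderiv ℝ n y (Pi.single j I) : ℝ) : ℂ) := by
      filter_upwards [hev] with y hy
      simp only [dz, fderiv_ofReal hy]; ring
    have hA : ∀ e : V, DifferentiableAt ℝ (fun y => ((fderiv ℝ n y e : ℝ) : ℂ)) z :=
      fun e => (ofRealCLM.differentiableAt).comp z (hd1 e)
    rw [dzbar_congr hE, dzbar_add ((hA _).const_mul _) ((hA _).const_mul _),
      dzbar_mul (differentiableAt_const _) (hA _), dzbar_mul (differentiableAt_const _) (hA _),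
      dzbar_holo (differentiableAt_const _), dzbar_holo (differentiableAt_const _)]
    simp only [dzbar, fderiv_ofReal (hd1 _)]
    simp
    linarith

end Vale.Agent.P296
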